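import Mathlib

namespace Vale.Agent.P335

open Finset

variable {X : Type*} [Fintype X]

/-- spectral theorem for a symmetric operator on functions -/
lemma spectral (T : (X → ℝ) →ₗ[ℝ] (X → ℝ)) (hT : ∀ f g, T f ⬝ᵥ g = f ⬝ᵥ T g) :
    ∃ (m : ℕ) (b : Fin m → X → ℝ) (ev : Fin m → ℝ), (∀ i, b i ≠ 0) ∧
      (∀ i, T (b i) = ev i • b i) ∧ ∀ f g, f ⬝ᵥ g = ∑ i, (b i ⬝ᵥ f) * (b i ⬝ᵥ g) := by
  classical
  let e := WithLp.linearEquiv 2 ℝ (X → ℝ)
  let S : EuclideanSpace ℝ X →ₗ[ℝ] EuclideanSpace ℝ X :=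
    e.symm.toLinearMap ∘ₗ T ∘ₗ e.toLinearMap
  have hin : ∀ u v : EuclideanSpace ℝ X, inner ℝ u v = u.ofLp ⬝ᵥ v.ofLp := by
    intro u v
    rw [EuclideanSpace.inner_eq_star_dotProduct, dotProduct_comm]
    simp
  have hS : S.IsSymmetric := by
    intro u v
    rw [hin, hin]
    exact hT _ _
  let B := hS.eigenvectorBasis rfl
  refine ⟨_, fun i => (B i).ofLp, hS.eigenvalues rfl, ?_, ?_, ?_⟩
  · intro i h
    apply B.orthonormal.ne_zero i
    exact (WithLp.ofLp_eq_zero 2).1 h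
  · intro i
    have := congrArg WithLp.ofLp (hS.apply_eigenvectorBasis rfl i)
    exact this
  · intro f g
    have := B.sum_inner_mul_inner (WithLp.toLp 2 f) (WithLp.toLp 2 g)
    rw [hin] at this
    rw [← this]
    refine sum_congr rfl fun i _ => ?_
    rw [hin, hin, dotProduct_comm]

lemma gap_sq (T : (X → ℝ) →ₗ[ℝ] (X → ℝ)) (hT : ∀ f g, T f ⬝ᵥ g = f ⬝ᵥ T g) (γ : ℝ) (hγ : 0 ≤ γ)
    (hev : ∀ (μ : ℝ) (F : X → ℝ), F ≠ 0 → T F = μ • F → μ = 0 ∨ γ ≤ μ) (f : X → ℝ) :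
    γ * (f ⬝ᵥ T f) ≤ T f ⬝ᵥ T f := by
  obtain ⟨m, b, ev, h0, h1, h2⟩ := spectral T hT
  have h3 : ∀ i, b i ⬝ᵥ T f = ev i * (b i ⬝ᵥ f) := by
    intro i
    rw [← hT, h1, smul_dotProduct, smul_eq_mul]
  rw [h2 f, h2 (T f), mul_sum]
  refine sum_le_sum fun i _ => ?_
  rw [h3]
  rcases hev _ _ (h0 i) (h1 i) with h | h
  · simp [h]
  · have := mul_nonneg (mul_nonneg (hγ.trans h) (sub_nonneg.2 h)) (mul_self_nonneg (b i ⬝ᵥ f))
    nlinarith

lemma gap_perp (T : (X → ℝ) →ₗ[ℝ] (X → ℝ)) (hT : ∀ f g, T f ⬝ᵥ g = f ⬝ᵥ T g) (γ : ℝ)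
    (hev : ∀ (μ : ℝ) (F : X → ℝ), F ≠ 0 → T F = μ • F → μ = 0 ∨ γ ≤ μ) (f : X → ℝ)
    (hf : ∀ F, T F = 0 → F ⬝ᵥ f = 0) :
    γ * (f ⬝ᵥ f) ≤ f ⬝ᵥ T f := by
  obtain ⟨m, b, ev, h0, h1, h2⟩ := spectral T hT
  have h3 : ∀ i, b i ⬝ᵥ T f = ev i * (b i ⬝ᵥ f) := by
    intro i
    rw [← hT, h1, smul_dotProduct, smul_eq_mul]
  rw [h2 f f, h2 f (T f), mul_sum]
  refine sum_le_sum fun i _ => ?_
  rw [h3]
  rcases hev _ _ (h0 i) (h1 i) with h | h
  · have : b i ⬝ᵥ f = 0 := hf _ (by rw [h1, h, zero_smul])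
    simp [this]
  · have := mul_nonneg (sub_nonneg.2 h) (mul_self_nonneg (b i ⬝ᵥ f))
    nlinarith

lemma dot_self_nonneg (f : X → ℝ) : 0 ≤ f ⬝ᵥ f :=
  sum_nonneg fun _ _ => mul_self_nonneg _

lemma dot_self_pos {f : X → ℝ} (hf : f ≠ 0) : 0 < f ⬝ᵥ f := by
  rcases (dot_self_nonneg f).lt_or_eq with h | h
  · exact h
  · exact absurd (dotProduct_self_eq_zero.1 h.symm) hf

lemma ev_of_sq (T : (X → ℝ) →ₗ[ℝ] (X → ℝ)) (γ : ℝ) (h0 : ∀ f, 0 ≤ f ⬝ᵥ T f)
    (h1 : ∀ f, γ * (f ⬝ᵥ T f) ≤ T f ⬝ᵥ T f) (μ : ℝ) (F : X → ℝ) (hF : F ≠ 0)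
    (h : T F = μ • F) : μ = 0 ∨ γ ≤ μ := by
  have a := h0 F
  have b := h1 F
  have c := dot_self_pos hF
  rw [h] at a b
  simp only [dotProduct_smul, smul_dotProduct, smul_eq_mul] at a b
  have hμ : 0 ≤ μ := by
    by_contra hh
    have := mul_neg_of_neg_of_pos (not_le.1 hh) c
    linarith
  rcases hμ.lt_or_eq with h2 | h2
  · right
    by_contra hh
    have := mul_pos (mul_pos h2 (sub_pos.2 (not_le.1 hh))) c
    nlinarith
  · left; exact h2.symm

section CE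
variable {β β' : Type*}

open Classical in
/-- fibre of the key `k` through `x` -/
noncomputable def fib (k : X → β) (x : X) : Finset X := univ.filter (fun y => k y = k x)

lemma mem_fib {k : X → β} {x y : X} : y ∈ fib k x ↔ k y = k x := by simp [fib]

lemma self_mem_fib (k : X → β) (x : X) : x ∈ fib k x := mem_fib.2 rfl

lemma fib_congr {k : X → β} {x y : X} (h : k x = k y) : fib k x = fib k y := by
  ext z; simp [mem_fib, h]

lemma card_fib_pos (k : X → β) (x : X) : (0 : ℝ) < (fib k x).card := by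
  exact_mod_cast card_pos.2 ⟨x, self_mem_fib k x⟩

/-- conditional expectation given the key -/
noncomputable def ce (k : X → β) : (X → ℝ) →ₗ[ℝ] (X → ℝ) where
  toFun f x := (∑ y ∈ fib k x, f y) / (fib k x).card
  map_add' f g := by
    funext x; simp [sum_add_distrib, add_div]
  map_smul' c f := by
    funext x; simp [← mul_sum, mul_div_assoc]

lemma ce_apply (k : X → β) (f : X → ℝ) (x : X) :
    ce k f x = (∑ y ∈ fib k x, f y) / (fib k x).card := rfl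

lemma ce_congr {k : X → β} (f : X → ℝ) {x y : X} (h : k x = k y) : ce k f x = ce k f y := by
  rw [ce_apply, ce_apply, fib_congr h]

lemma ce_of_meas {k : X → β} {f : X → ℝ} (h : ∀ x y, k x = k y → f x = f y) : ce k f = f := by
  funext x
  rw [ce_apply, sum_congr rfl (fun y hy => h y x (mem_fib.1 hy)), sum_const, nsmul_eq_mul]
  field_simp [(card_fib_pos k x).ne']

lemma ce_symm (k : X → β) (f g : X → ℝ) : ce k f ⬝ᵥ g = f ⬝ᵥ ce k g := by
  classical
  have h : ∀ (f : X → ℝ) x, ce k f x =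
      ∑ y, if k y = k x then f y / (fib k x).card else 0 := by
    intro f x
    rw [ce_apply, sum_div, ← sum_filter]
    refine sum_congr ?_ fun _ _ => rfl
    ext y; simp [mem_fib]
  simp only [dotProduct, h, sum_mul, mul_sum]
  rw [sum_comm]
  refine sum_congr rfl fun x _ => sum_congr rfl fun y _ => ?_
  by_cases hxy : k x = k y
  · rw [if_pos hxy, if_pos hxy.symm, fib_congr hxy]; ring
  · rw [if_neg hxy, if_neg (fun h => hxy h.symm)]; simp

lemma ce_idem (k : X → β) (f : X → ℝ) : ce k (ce k f) = ce k f :=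
  ce_of_meas fun _ _ h => ce_congr f h

lemma ce_finer {k : X → β} {k' : X → β'} (h : ∀ x y, k' x = k' y → k x = k y) (f : X → ℝ) :
    ce k' (ce k f) = ce k f :=
  ce_of_meas fun x y hxy => ce_congr f (h x y hxy)

lemma eq_of_dot {f g : X → ℝ} (h : ∀ u, f ⬝ᵥ u = g ⬝ᵥ u) : f = g := by
  have : (f - g) ⬝ᵥ (f - g) = 0 := by rw [sub_dotProduct, h, sub_self]
  exact sub_eq_zero.1 (dotProduct_self_eq_zero.1 this)

lemma ce_coarser {k : X → β} {k' : X → β'} (h : ∀ x y, k' x = k' y → k x = k y) (f : X → ℝ) :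
    ce k (ce k' f) = ce k f := by
  refine eq_of_dot fun u => ?_
  rw [ce_symm, ce_symm, ce_finer h, ce_symm]

lemma sum_fib_comp {k : X → β} {s : X → X} (hs : ∀ x, s (s x) = x) (hk : ∀ x, k (s x) = k x)
    (F : X → ℝ) (x : X) : ∑ y ∈ fib k x, F (s y) = ∑ y ∈ fib k x, F y := by
  refine sum_nbij' s s ?_ ?_ ?_ ?_ ?_
  · intro y hy; rw [mem_fib] at *; rw [hk, hy]
  · intro y hy; rw [mem_fib] at *; rw [hk, hy]
  · intro y _; exact hs y
  · intro y _; exact hs y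
  · intro y _; rfl

lemma ce_comp {k : X → β} {s : X → X} (hs : ∀ x, s (s x) = x) (hk : ∀ x, k (s x) = k x)
    (f : X → ℝ) : ce k (fun x => f (s x)) = ce k f := by
  funext x
  rw [ce_apply, ce_apply, sum_fib_comp hs hk]

lemma sum_comp_invol {s : X → X} (hs : ∀ x, s (s x) = x) (F : X → ℝ) :
    ∑ y, F (s y) = ∑ y, F y :=
  sum_nbij' s s (fun _ _ => mem_univ _) (fun _ _ => mem_univ _) (fun y _ => hs y)
    (fun y _ => hs y) (fun _ _ => rfl)

lemma sum_ce (k : X → β) (f : X → ℝ) : ∑ x, ce k f x = ∑ x, f x := by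
  have h1 : ce k (fun _ : X => (1 : ℝ)) = fun _ => 1 := ce_of_meas fun _ _ _ => rfl
  have := ce_symm k f (fun _ => 1)
  rw [h1] at this
  simpa [dotProduct] using this

lemma sum_le_of_fib (k : X → β) {a b : X → ℝ}
    (h : ∀ x, ∑ y ∈ fib k x, a y ≤ ∑ y ∈ fib k x, b y) : ∑ x, a x ≤ ∑ x, b x := by
  rw [← sum_ce k a, ← sum_ce k b]
  refine sum_le_sum fun x _ => ?_
  rw [ce_apply, ce_apply]
  exact div_le_div_of_nonneg_right (h x) (card_fib_pos k x).le

/-- commutation criterion -/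
lemma ce_comm {k : X → β} {k' : X → β'}
    (h : ∀ x x', k x = k x' → ∃ t : X → X, (∀ z, t (t z) = z) ∧ (∀ z, k (t z) = k z) ∧
      (∀ z, k' z = k' x → k' (t z) = k' x') ∧ (∀ z, k' z = k' x' → k' (t z) = k' x))
    (f : X → ℝ) : ce k (ce k' f) = ce k' (ce k f) := by
  have h1 : ∀ f, ce k (ce k' (ce k f)) = ce k' (ce k f) := by
    intro f
    refine ce_of_meas fun x x' hx => ?_
    obtain ⟨t, t1, t2, t3, t4⟩ := h x x' hx
    have key : ∀ F : X → ℝ, ∑ y ∈ fib k' x, F (t y) = ∑ y ∈ fib k' x', F y := by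
      intro F
      refine sum_nbij' t t ?_ ?_ ?_ ?_ ?_
      · intro y hy; rw [mem_fib] at *; exact t3 y hy
      · intro y hy; rw [mem_fib] at *; exact t4 y hy
      · intro y _; exact t1 y
      · intro y _; exact t1 y
      · intro y _; rfl
    have hc : ((fib k' x).card : ℝ) = (fib k' x').card := by simpa using key (fun _ => 1)
    rw [ce_apply, ce_apply, hc, ← key]
    congr 1
    exact sum_congr rfl fun y _ => (ce_congr f (t2 y)).symm
  refine eq_of_dot fun u => ?_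
  rw [ce_symm, ce_symm, ← h1, ← h1 f, ce_symm k (ce k' (ce k f)), ce_symm k' (ce k f),
    ce_symm k f]

end CE

end Vale.Agent.P335
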