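import Vale.Agent.P335.Basic

namespace Vale.Agent.P335

open Finset

lemma mix {X : Type*} [Fintype X] [DecidableEq X] [Nonempty X] (P : Matrix X X ℝ)
    (K : X → X → ℝ) (hP : ∀ x y, P x y = (if x = y then 1 / 2 else 0) + 1 / 2 * K x y)
    (hs : ∀ x y, K x y = K y x) (h0 : ∀ x y, 0 ≤ K x y) (h1 : ∀ x, ∑ y, K x y = 1) (c : ℝ)
    (hc : ∀ f : X → ℝ, ∑ x, f x = 0 → c * (f ⬝ᵥ f) ≤ ∑ x, ∑ y, K x y * (f x - f y) ^ 2)
    (hc1 : 0 ≤ 1 - c / 4) (t : ℕ) (x : X) :
    (∑ y, |(P ^ t) x y - 1 / Fintype.card X|) ^ 2 ≤ Fintype.card X * (1 - c / 4) ^ t := by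
  have hN : (0 : ℝ) < Fintype.card X := by exact_mod_cast Fintype.card_pos
  have h2 : ∀ y, ∑ x, K x y = 1 := fun y => by simp only [hs _ y, h1]
  have step : ∀ u : X → ℝ, ∑ y, u y = 0 →
      ∑ y, (1 / 2 * u y + 1 / 2 * ∑ z, K y z * u z) = 0 ∧
      ∑ y, (1 / 2 * u y + 1 / 2 * ∑ z, K y z * u z) ^ 2 ≤ (1 - c / 4) * ∑ y, u y ^ 2 := by
    intro u hu
    constructor
    · rw [sum_add_distrib, ← mul_sum, ← mul_sum, hu, sum_comm]
      simp only [← sum_mul, h2, one_mul, hu]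
      ring
    have a1 : ∀ y, (∑ z, K y z * u z) ^ 2 ≤ ∑ z, K y z * u z ^ 2 := by
      intro y
      have : 0 ≤ ∑ z, K y z * (u z - ∑ z, K y z * u z) ^ 2 :=
        sum_nonneg fun z _ => mul_nonneg (h0 y z) (sq_nonneg _)
      have e : ∀ m : ℝ, ∑ z, K y z * (u z - m) ^ 2 =
          ∑ z, K y z * u z ^ 2 - 2 * m * ∑ z, K y z * u z + m ^ 2 * ∑ z, K y z := by
        intro m
        simp only [mul_sum, ← sum_sub_distrib, ← sum_add_distrib]
        exact sum_congr rfl fun z _ => by ring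
      rw [e, h1] at this
      nlinarith
    have a2 : ∑ y, ∑ z, K y z * u z ^ 2 = ∑ y, u y ^ 2 := by
      rw [sum_comm]
      simp only [← sum_mul, h2, one_mul]
    have a3 : ∑ y, ∑ z, K y z * u y ^ 2 = ∑ y, u y ^ 2 := by
      simp only [← sum_mul, h1, one_mul]
    have a4 : ∑ x, ∑ y, K x y * (u x - u y) ^ 2 =
        ∑ y, ∑ z, K y z * u y ^ 2 + ∑ y, ∑ z, K y z * u z ^ 2
          - 2 * ∑ y, u y * ∑ z, K y z * u z := by
      simp only [mul_sum, ← sum_sub_distrib, ← sum_add_distrib]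
      exact sum_congr rfl fun y _ => sum_congr rfl fun z _ => by ring
    have a5 := hc u hu
    have a6 : u ⬝ᵥ u = ∑ y, u y ^ 2 := by simp only [dotProduct, sq]
    have a7 : ∑ y, (1 / 2 * u y + 1 / 2 * ∑ z, K y z * u z) ^ 2 =
        1 / 4 * ∑ y, u y ^ 2 + 1 / 2 * ∑ y, u y * ∑ z, K y z * u z
          + 1 / 4 * ∑ y, (∑ z, K y z * u z) ^ 2 := by
      rw [mul_sum, mul_sum, mul_sum (f := fun y => (∑ z, K y z * u z) ^ 2), ← sum_add_distrib,
        ← sum_add_distrib]
      exact sum_congr rfl fun y _ => by ring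
    have a8 := sum_le_sum (s := univ) fun y _ => a1 y
    rw [a4, a2, a3, a6] at a5
    rw [a2] at a8
    rw [a7]
    nlinarith
  have main : ∀ t, ∑ y, ((P ^ t) x y - 1 / Fintype.card X) = 0 ∧
      ∑ y, ((P ^ t) x y - 1 / Fintype.card X) ^ 2 ≤ (1 - c / 4) ^ t := by
    intro t
    induction t with
    | zero =>
      have e1 : ∑ y, (1 : Matrix X X ℝ) x y = 1 := by simp [Matrix.one_apply]
      have e2 : ∑ y, (1 : Matrix X X ℝ) x y ^ 2 = 1 := by simp [Matrix.one_apply]
      simp only [pow_zero, sub_sq, sum_sub_distrib, sum_add_distrib, e1, e2, sum_const, card_univ,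
        nsmul_eq_mul, ← sum_mul, ← mul_sum]
      refine ⟨by field_simp; ring, ?_⟩
      have : (Fintype.card X : ℝ) * (1 / Fintype.card X) ^ 2 = 1 / Fintype.card X := by field_simp
      rw [this]
      have : (0 : ℝ) < 1 / Fintype.card X := by positivity
      linarith
    | succ t ih =>
      have e : ∀ y, (P ^ (t + 1)) x y - 1 / Fintype.card X =
          1 / 2 * ((P ^ t) x y - 1 / Fintype.card X)
            + 1 / 2 * ∑ z, K y z * ((P ^ t) x z - 1 / Fintype.card X) := by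
        intro y
        rw [pow_succ, Matrix.mul_apply]
        simp only [hP, mul_add, sum_add_distrib, mul_ite, mul_zero, sum_ite_eq', mem_univ, if_true,
          mul_sub, sum_sub_distrib, ← sum_mul, hs y]
        rw [mul_sum]
        have : ∑ z, (P ^ t) x z * (1 / 2 * K z y) = ∑ z, 1 / 2 * (K z y * (P ^ t) x z) :=
          sum_congr rfl fun z _ => by ring
        rw [this]
        simp only [h2]
        ring
      simp only [e]
      obtain ⟨s1, s2⟩ := step _ ih.1
      refine ⟨s1, s2.trans ?_⟩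
      rw [pow_succ, mul_comm]
      exact mul_le_mul_of_nonneg_right ih.2 hc1
  refine (sq_sum_le_card_mul_sum_sq).trans ?_
  simp only [sq_abs, card_univ]
  exact mul_le_mul_of_nonneg_left (main t).2 hN.le

end Vale.Agent.P335
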