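import Mathlib

namespace Vale.Agent.P335

open Finset
open scoped Classical

/-- `Ω_d`: the labelled simple graphs on `Fin n` in which vertex `v` has `d v` neighbours. -/
abbrev Realization (n : ℕ) (d : Fin n → ℕ) : Type :=
  {G : SimpleGraph (Fin n) // ∀ v, (G.neighborSet v).ncard = d v}

/-- `F` is a perfect matching of the complete graph on the vertex set `S`. -/
def IsPM {n : ℕ} (S : Finset (Fin n)) (F : Finset (Sym2 (Fin n))) : Prop :=
  (∀ e ∈ F, ¬ e.IsDiag ∧ ∀ v ∈ e, v ∈ S) ∧ ∀ v ∈ S, ∃! e, e ∈ F ∧ v ∈ e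

/-- The perfect matchings of the complete graph on `S`. -/
noncomputable def matchings {n : ℕ} (S : Finset (Fin n)) : Finset (Finset (Sym2 (Fin n))) :=
  univ.filter (IsPM S)

/-- Replace `F` by `F'` if all edges of `F` are present and all edges of `F'` are absent,
otherwise stay put. -/
noncomputable def move {n : ℕ} (G : SimpleGraph (Fin n)) (F F' : Finset (Sym2 (Fin n))) :
    SimpleGraph (Fin n) :=
  if (∀ e ∈ F, e ∈ G.edgeSet) ∧ (∀ e ∈ F', e ∉ G.edgeSet) then
    SimpleGraph.fromEdgeSet ((G.edgeSet \ (F : Set (Sym2 (Fin n)))) ∪ (F' : Set (Sym2 (Fin n))))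
  else G

/-- Transition matrix of the lazy switch chain. -/
noncomputable def switchChain (n : ℕ) (d : Fin n → ℕ) :
    Matrix (Realization n d) (Realization n d) ℝ := fun G G' =>
  (if G = G' then 1 / 2 else 0) + 1 / 2 *
    ∑ S ∈ powersetCard 4 (univ : Finset (Fin n)), ∑ p ∈ (matchings S).offDiag,
      if move G.1 p.1 p.2 = G'.1 then 1 / ((n.choose 4 : ℝ) * 6) else 0

/-- Total variation distance between the law after `t` steps from `G` and the uniform law. -/
noncomputable def tvDist (n : ℕ) (d : Fin n → ℕ) (t : ℕ) (G : Realization n d) : ℝ :=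
  1 / 2 * ∑ G', |(switchChain n d ^ t) G G' - 1 / (Fintype.card (Realization n d) : ℝ)|

end Vale.Agent.P335
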