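import Vale.Agent.P335.Match
import Vale.Agent.P335.Chain

namespace Vale.Agent.P335

open Finset Equiv
open scoped Classical

variable {n : ℕ} {d : Fin n → ℕ}

/-- the non-lazy kernel -/
noncomputable def Kk (n : ℕ) (d : Fin n → ℕ) (x y : Realization n d) : ℝ :=
  ∑ S ∈ powersetCard 4 (univ : Finset (Fin n)), ∑ p ∈ (matchings S).offDiag,
    if move x.1 p.1 p.2 = y.1 then 1 / ((n.choose 4 : ℝ) * 6) else 0

lemma Kk_symm (x y : Realization n d) : Kk n d x y = Kk n d y x := by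
  by_cases h : x = y
  · rw [h]
  have hne : x.1 ≠ y.1 := fun h1 => h (Subtype.ext h1)
  refine sum_congr rfl fun S _ => ?_
  refine sum_nbij' Prod.swap Prod.swap ?_ ?_ (fun _ _ => rfl) (fun _ _ => rfl) ?_
  · intro p hp
    rw [mem_offDiag] at hp ⊢
    exact ⟨hp.2.1, hp.1, hp.2.2.symm⟩
  · intro p hp
    rw [mem_offDiag] at hp ⊢
    exact ⟨hp.2.1, hp.1, hp.2.2.symm⟩
  · intro p hp
    rw [mem_offDiag] at hp
    have a1 := (mem_filter.1 hp.1).2.1
    have a2 := (mem_filter.1 hp.2.1).2.1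
    exact if_congr ⟨move_symm (fun e he => (a2 e he).1) hne,
      move_symm (fun e he => (a1 e he).1) hne.symm⟩ rfl rfl

lemma Kk_nonneg (x y : Realization n d) : 0 ≤ Kk n d x y :=
  sum_nonneg fun _ _ => sum_nonneg fun _ _ => by split_ifs <;> positivity

lemma Kk_row (hn : 4 ≤ n) (x : Realization n d) : ∑ y, Kk n d x y = 1 := by
  have hC : (0 : ℝ) < n.choose 4 := by exact_mod_cast Nat.choose_pos hn
  unfold Kk
  rw [sum_comm]
  have : ∀ S ∈ powersetCard 4 (univ : Finset (Fin n)), ∑ y : Realization n d,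
      ∑ p ∈ (matchings S).offDiag,
      (if move x.1 p.1 p.2 = y.1 then 1 / ((n.choose 4 : ℝ) * 6) else 0) = 1 / n.choose 4 := by
    intro S hS
    have hS4 := (mem_powersetCard.1 hS).2
    rw [sum_comm, sum_congr rfl (g := fun _ => 1 / ((n.choose 4 : ℝ) * 6)), sum_const,
      card_offDiag hS4, nsmul_eq_mul]
    · push_cast; field_simp
    · intro p hp
      obtain ⟨y, hy⟩ := move_mem_of x hS4 hp
      rw [← hy]
      simp only [Subtype.val_inj, sum_ite_eq, mem_univ, if_true]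
  rw [sum_congr rfl this, sum_const, card_powersetCard, card_univ, Fintype.card_fin, nsmul_eq_mul]
  field_simp

/-- energy of one proposed move -/
noncomputable def eM (f : Realization n d → ℝ)
    (p : Finset (Sym2 (Fin n)) × Finset (Sym2 (Fin n))) : ℝ :=
  ∑ x, ∑ y, if move x.1 p.1 p.2 = y.1 then (f x - f y) ^ 2 else 0

lemma eM_nonneg (f : Realization n d → ℝ) (p) : 0 ≤ eM f p :=
  sum_nonneg fun _ _ => sum_nonneg fun _ _ => by split_ifs <;> positivity

lemma dirichlet_eq (f : Realization n d → ℝ) : ∑ x, ∑ y, Kk n d x y * (f x - f y) ^ 2 =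
    1 / ((n.choose 4 : ℝ) * 6) *
      ∑ S ∈ powersetCard 4 (univ : Finset (Fin n)), ∑ p ∈ (matchings S).offDiag, eM f p := by
  simp only [Kk, eM, sum_mul, mul_sum]
  symm
  rw [sum_congr rfl fun S _ => sum_comm, sum_comm]
  refine sum_congr rfl fun x _ => ?_
  rw [sum_congr rfl fun S _ => sum_comm, sum_comm]
  refine sum_congr rfl fun y _ => sum_congr rfl fun S _ => sum_congr rfl fun p _ => ?_
  split_ifs <;> simp

/-- distinct quadruples -/
def Dist (q : Fin n × Fin n × Fin n × Fin n) : Prop :=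
  q.1 ≠ q.2.1 ∧ q.2.2.1 ≠ q.2.2.2 ∧ q.1 ≠ q.2.2.1 ∧ q.1 ≠ q.2.2.2 ∧ q.2.1 ≠ q.2.2.1 ∧
    q.2.1 ≠ q.2.2.2

/-- the pair of matchings of a quadruple -/
def pr (q : Fin n × Fin n × Fin n × Fin n) : Finset (Sym2 (Fin n)) × Finset (Sym2 (Fin n)) :=
  ({s(q.1, q.2.2.1), s(q.2.1, q.2.2.2)}, {s(q.1, q.2.2.2), s(q.2.1, q.2.2.1)})

lemma sum_pr_le (f : Realization n d → ℝ) : ∑ q ∈ univ.filter Dist, eM f (pr q) ≤
    4 * ∑ S ∈ powersetCard 4 (univ : Finset (Fin n)), ∑ p ∈ (matchings S).offDiag, eM f p := by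
  rw [sum_sigma', mul_sum]
  let g : Fin n × Fin n × Fin n × Fin n →
      (Σ _ : Finset (Fin n), Finset (Sym2 (Fin n)) × Finset (Sym2 (Fin n))) :=
    fun q => ⟨{q.1, q.2.1, q.2.2.1, q.2.2.2}, pr q⟩
  rw [← sum_fiberwise_of_maps_to (g := g) (t := (powersetCard 4 (univ : Finset (Fin n))).sigma
    fun S => (matchings S).offDiag)]
  · refine sum_le_sum fun r hr => ?_
    rw [sum_congr rfl (g := fun _ => eM f r.2) (fun q hq => by rw [← (mem_filter.1 hq).2]),
      sum_const, nsmul_eq_mul]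
    refine mul_le_mul_of_nonneg_right ?_ (eM_nonneg f _)
    have h4 := (mem_powersetCard.1 (mem_sigma.1 hr).1).2
    have : ((univ.filter Dist).filter (fun q => g q = r)).card ≤ r.1.card := by
      refine card_le_card_of_injOn (fun q => q.1) ?_ ?_
      · intro q hq
        rw [← (mem_filter.1 (mem_coe.1 hq)).2]
        simp [g]
      · rintro ⟨a, b, c, e⟩ hq ⟨a', b', c', e'⟩ hq' h
        simp only at h
        subst h
        obtain ⟨h1, h2⟩ := mem_filter.1 (mem_coe.1 hq)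
        obtain ⟨h1', h2'⟩ := mem_filter.1 (mem_coe.1 hq')
        obtain ⟨p1, p2, p3, p4, p5, p6⟩ := (mem_filter.1 h1).2
        obtain ⟨q1, q2, q3, q4, q5, q6⟩ := (mem_filter.1 h1').2
        simp only at p1 p2 p3 p4 p5 p6 q1 q2 q3 q4 q5 q6
        have h3 : pr (a, b, c, e) = pr (a, b', c', e') :=
          congrArg (fun z : (Σ _ : Finset (Fin n), Finset (Sym2 (Fin n)) ×
            Finset (Sym2 (Fin n))) => z.2) (h2.trans h2'.symm)
        simp only [pr, Prod.mk.injEq] at h3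
        obtain ⟨h4, h5⟩ := h3
        have m1 : s(a, c) ∈ ({s(a, c'), s(b', e')} : Finset (Sym2 (Fin n))) := by
          rw [← h4]; simp
        have m2 : s(a, e) ∈ ({s(a, e'), s(b', c')} : Finset (Sym2 (Fin n))) := by
          rw [← h5]; simp
        have m3 : s(b, e) ∈ ({s(a, c'), s(b', e')} : Finset (Sym2 (Fin n))) := by
          rw [← h4]; simp
        simp only [mem_insert, mem_singleton, Sym2.eq_iff] at m1 m2 m3
        have c1 : c = c' := by
          rcases m1 with (⟨-, h⟩ | ⟨h, -⟩) | ⟨h, -⟩ | ⟨h, -⟩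
          exacts [h, absurd h q3, absurd h q1, absurd h q4]
        have c2 : e = e' := by
          rcases m2 with (⟨-, h⟩ | ⟨h, -⟩) | ⟨h, -⟩ | ⟨h, -⟩
          exacts [h, absurd h q4, absurd h q1, absurd h q3]
        subst c1 c2
        have c3 : b = b' := by
          rcases m3 with (⟨h, -⟩ | ⟨-, h⟩) | ⟨h, -⟩ | ⟨h, -⟩
          exacts [absurd h.symm p1, absurd h.symm p4, h, absurd h p6]
        rw [c3]
    exact_mod_cast this.trans h4.le
  · rintro ⟨a, b, c, e⟩ hq
    obtain ⟨p1, p2, p3, p4, p5, p6⟩ := (mem_filter.1 hq).2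
    simp only at p1 p2 p3 p4 p5 p6
    have hS : ∀ v, v ∈ ({a, b, c, e} : Finset (Fin n)) ↔ v = a ∨ v = b ∨ v = c ∨ v = e := by simp
    refine mem_sigma.2 ⟨mem_powersetCard.2 ⟨subset_univ _,
      card_eq_four.2 ⟨a, b, c, e, p1, p3, p4, p5, p6, p2, rfl⟩⟩, ?_⟩
    simp only [g, mem_offDiag, pr]
    rw [matchings_eq p1 p2 p3 p4 p5 p6 hS]
    exact ⟨by simp, by simp, pair_ne p1 p2 p3 p4⟩

lemma en_le (f : Realization n d → ℝ) (a b c e : Fin n) : en f a b c e ≤
    (if Dist (a, b, c, e) then eM f (pr (a, b, c, e)) else 0) +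
    (if Dist (a, b, e, c) then eM f (pr (a, b, e, c)) else 0) := by
  by_cases h : Dist (a, b, c, e)
  · obtain ⟨p1, p2, p3, p4, p5, p6⟩ := id h
    simp only at p1 p2 p3 p4 p5 p6
    rw [if_pos h, if_pos ⟨p1, p2.symm, p4, p3, p6, p5⟩, en, eM, eM, ← sum_add_distrib]
    refine sum_le_sum fun x _ => ?_
    have nn : ∀ (p : Finset (Sym2 (Fin n)) × Finset (Sym2 (Fin n))) (y : Realization n d),
        0 ≤ if move x.1 p.1 p.2 = y.1 then (f x - f y) ^ 2 else 0 := by
      intro p y; split_ifs <;> positivity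
    by_cases hD : yy a b x.1 c * yy a b x.1 e = -1
    · rcases sw_move p1 p2 p3 p4 p5 p6 hD with h1 | h1
      · refine le_add_of_le_of_nonneg ?_ (sum_nonneg fun y _ => nn _ y)
        refine le_trans ?_ (single_le_sum (fun y _ => nn _ y) (mem_univ (sw a b c e x)))
        exact (if_pos h1).ge
      · refine le_add_of_nonneg_of_le (sum_nonneg fun y _ => nn _ y) ?_
        refine le_trans ?_ (single_le_sum (fun y _ => nn _ y) (mem_univ (sw a b c e x)))
        exact (if_pos h1).ge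
    · rw [sw, if_neg hD, sub_self, sq, mul_zero]
      exact add_nonneg (sum_nonneg fun y _ => nn _ y) (sum_nonneg fun y _ => nn _ y)
  · have : en f a b c e = 0 := by
      have : ∀ x : Om d, yy a b x.1 c * yy a b x.1 e ≠ -1 := fun x hx => h (D_distinct hx)
      simp [en, sw, this]
    rw [this]
    refine add_nonneg ?_ ?_ <;> split_ifs <;> first | exact eM_nonneg f _ | exact le_rfl

lemma dirichlet_ge (hn : 4 ≤ n) (f : Realization n d → ℝ) (hf : ∑ x, f x = 0) :
    1 / (3 * (n.choose 4 : ℝ)) * (f ⬝ᵥ f) ≤ ∑ x, ∑ y, Kk n d x y * (f x - f y) ^ 2 := by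
  have hC : (0 : ℝ) < n.choose 4 := by exact_mod_cast Nat.choose_pos hn
  have h1 := poincare f hf
  have h2 := sum_pr_le f
  have h3 : ∑ a, ∑ b, ∑ c, ∑ e, (if Dist (a, b, c, e) then eM f (pr (a, b, c, e)) else 0) =
      ∑ q ∈ univ.filter Dist, eM f (pr q) := by
    simp only [sum_filter, Fintype.sum_prod_type]
  have h4 : ∑ a, ∑ b, ∑ c, ∑ e, (if Dist (a, b, e, c) then eM f (pr (a, b, e, c)) else 0) =
      ∑ q ∈ univ.filter Dist, eM f (pr q) := by
    rw [← h3]
    exact sum_congr rfl fun a _ => sum_congr rfl fun b _ => sum_comm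
  have h5 := sum_le_sum (s := univ) fun a _ => sum_le_sum (s := univ) fun b _ =>
    sum_le_sum (s := univ) fun c _ => sum_le_sum (s := univ) fun e _ => en_le f a b c e
  simp only [sum_add_distrib] at h5
  rw [h3, h4] at h5
  rw [dirichlet_eq]
  have : 1 / (3 * (n.choose 4 : ℝ)) = 1 / ((n.choose 4 : ℝ) * 6) * 2 := by field_simp; ring
  rw [this, mul_assoc]
  exact mul_le_mul_of_nonneg_left (by linarith) (by positivity)

theorem mixed (hn : 4 ≤ n) (G : Realization n d) :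
    tvDist n d (12 * n.choose 4 * (n ^ 2 + 2)) G ≤ 1 / 4 := by
  have : Nonempty (Realization n d) := ⟨G⟩
  have hC1 : (1 : ℝ) ≤ n.choose 4 := by exact_mod_cast Nat.choose_pos hn
  have e0 : 1 / (3 * (n.choose 4 : ℝ)) / 4 = 1 / ((12 * n.choose 4 : ℕ) : ℝ) := by
    push_cast; field_simp; ring
  have hm : (1 : ℝ) ≤ ((12 * n.choose 4 : ℕ) : ℝ) := by push_cast; linarith
  have hc1 : 0 ≤ 1 - 1 / ((12 * n.choose 4 : ℕ) : ℝ) := by
    rw [sub_nonneg, div_le_one (by linarith)]; exact hm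
  have h := mix (switchChain n d) (Kk n d) (fun _ _ => rfl) Kk_symm Kk_nonneg (Kk_row hn) _
    (dirichlet_ge hn) (by rw [e0]; exact hc1) (12 * n.choose 4 * (n ^ 2 + 2)) G
  rw [e0, pow_mul (1 - _ : ℝ)] at h
  have h1 : (1 - 1 / ((12 * n.choose 4 : ℕ) : ℝ)) ^ (12 * n.choose 4) ≤ 1 / 2 := by
    refine (Real.one_sub_div_pow_le_exp_neg hm).trans ?_
    rw [Real.exp_neg, one_div]
    exact inv_anti₀ (by norm_num) (by linarith [Real.add_one_le_exp 1])
  have h2 : (Fintype.card (Realization n d) : ℝ) ≤ 2 ^ (n ^ 2) := by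
    have := Fintype.card_le_of_injective (fun x : Realization n d => x.1.Adj)
      (fun x y h => Subtype.ext (SimpleGraph.ext h))
    simp only [Fintype.card_fun, Fintype.card_prop, Fintype.card_fin, ← pow_mul, ← sq] at this
    exact_mod_cast this
  have h3 : (Fintype.card (Realization n d) : ℝ) *
      ((1 - 1 / ((12 * n.choose 4 : ℕ) : ℝ)) ^ (12 * n.choose 4)) ^ (n ^ 2 + 2) ≤ (1 / 2) ^ 2 := by
    refine (mul_le_mul h2 (pow_le_pow_left₀ (pow_nonneg hc1 _) h1 _) (by positivity)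
      (by positivity)).trans (le_of_eq ?_)
    rw [pow_add, ← mul_assoc, ← mul_pow]
    norm_num
  have h4 := (abs_le_of_sq_le_sq' (h.trans h3) (by norm_num)).2
  unfold tvDist
  linarith

lemma time_le (hn : 4 ≤ n) : 12 * n.choose 4 * (n ^ 2 + 2) ≤ n ^ 6 := by
  have h1 : 24 * n.choose 4 ≤ n ^ 4 := by
    have := Nat.descFactorial_le_pow n 4
    rwa [Nat.descFactorial_eq_factorial_mul_choose] at this
  have h2 : n ^ 2 + 2 ≤ 2 * n ^ 2 := by nlinarith
  calc 12 * n.choose 4 * (n ^ 2 + 2) ≤ 12 * n.choose 4 * (2 * n ^ 2) := Nat.mul_le_mul_left _ h2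
    _ = 24 * n.choose 4 * n ^ 2 := by ring
    _ ≤ n ^ 4 * n ^ 2 := Nat.mul_le_mul_right _ h1
    _ = n ^ 6 := by ring

end Vale.Agent.P335
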