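import Vale.Agent.P335.Graph3

namespace Vale.Agent.P335

open Finset Equiv

variable {V : Type*} [Fintype V] [DecidableEq V] {d : V → ℕ}

lemma sw_rows {p q v z : V} {x : Om d} (h : yy p q x.1 v * yy p q x.1 z = -1) :
    (∀ u w, u ≠ p → u ≠ q → u ≠ v → u ≠ z → ad (sw p q v z x).1 u w = ad x.1 u w) ∧
      ∀ w, ad (sw p q v z x).1 v w = ad x.1 v (swap p q w) := by
  obtain ⟨h1, h2, -, -⟩ := yy_D h
  simp only [mem_insert, mem_singleton, not_or] at h1 h2
  rw [sw_pos h]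
  constructor
  · intro u w a b c e
    simp [ad_tw, swap_apply_of_ne_of_ne a b, c, e]
  · intro w
    simp [ad_tw, swap_apply_of_ne_of_ne (Ne.symm h1.1) (Ne.symm h2.1)]

/-- any two realizations are joined by switches -/
lemma switch_conn {F : Om d → ℝ} (hF : ∀ a b c e x, F (sw a b c e x) = F x) (x x' : Om d) :
    F x = F x' := by
  classical
  suffices H : ∀ W : Finset V, ∀ x x' : Om d, (∀ u, u ∉ W → ∀ w, ad x.1 u w = ad x'.1 u w) →
      F x = F x' from H univ x x' fun u hu => absurd (mem_univ u) hu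
  intro W
  induction' W using Finset.induction_on with v W hv ih
  · intro x x' h
    rw [Subtype.ext (ext_ad fun u w => h u (notMem_empty u) w)]
  intro x x' h
  induction' hn : (univ.filter (fun w => ad x.1 v w ≠ ad x'.1 v w)).card
    using Nat.strong_induction_on with n ih2 generalizing x x'
  by_cases h0 : ∀ w, ad x.1 v w = ad x'.1 v w
  · refine ih x x' fun u hu w => ?_
    by_cases huv : u = v
    · rw [huv, h0]
    · exact h u (by simp [hu, huv]) w
  push Not at h0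
  obtain ⟨e, he⟩ := h0
  have hs : ∑ w, ad x.1 v w = ∑ w, ad x'.1 v w := by rw [deg_eq, deg_eq]
  have hp : ∃ p, ad x'.1 v p < ad x.1 v p := by
    by_contra hh
    push Not at hh
    exact (sum_lt_sum (s := univ) (fun i _ => hh i)
      ⟨e, mem_univ _, lt_of_le_of_ne (hh e) he⟩).ne hs
  have hq : ∃ q, ad x.1 v q < ad x'.1 v q := by
    by_contra hh
    push Not at hh
    exact (sum_lt_sum (s := univ) (fun i _ => hh i)
      ⟨e, mem_univ _, lt_of_le_of_ne (hh e) (Ne.symm he)⟩).ne hs.symm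
  obtain ⟨p, hp⟩ := hp
  obtain ⟨q, hq⟩ := hq
  have p1 : ad x.1 v p = 1 ∧ ad x'.1 v p = 0 := by
    rcases ad01 x.1 v p with a | a <;> rcases ad01 x'.1 v p with b | b <;>
      first | (exfalso; linarith) | exact ⟨a, b⟩
  have q1 : ad x.1 v q = 0 ∧ ad x'.1 v q = 1 := by
    rcases ad01 x.1 v q with a | a <;> rcases ad01 x'.1 v q with b | b <;>
      first | (exfalso; linarith) | exact ⟨a, b⟩
  have hpq : p ≠ q := by rintro rfl; linarith
  have hvp : v ≠ p := by rintro rfl; rw [ad_self, ad_self] at hp; exact hp.ne rfl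
  have hvq : v ≠ q := by rintro rfl; rw [ad_self, ad_self] at hq; exact hq.ne rfl
  have pW : p ∈ insert v W := by
    by_contra hh
    rw [ad_comm x.1, ad_comm x'.1, h p hh] at hp; exact hp.ne rfl
  have qW : q ∈ insert v W := by
    by_contra hh
    rw [ad_comm x.1, ad_comm x'.1, h q hh] at hq; exact hq.ne rfl
  have y1 : yy p q x.1 v = 1 := by
    simp only [yy, hvp, hvq, or_self, if_false, ad_comm _ _ v, p1.1, q1.1, sub_zero]
  have y2 : yy p q x'.1 v = -1 := by
    simp only [yy, hvp, hvq, or_self, if_false, ad_comm _ _ v, p1.2, q1.2, zero_sub]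
  have hsum : ∑ z ∈ insert v W, yy p q x.1 z = ∑ z ∈ insert v W, yy p q x'.1 z := by
    have a1 : ∑ z, yy p q x.1 z = ∑ z, yy p q x'.1 z := by
      have : ∀ x : Om d, ∑ c, yy p q x.1 c = d p - d q := by
        intro x
        have := sum_split2 hpq (fun c => ad x.1 p c - ad x.1 q c)
        rw [sum_sub_distrib, deg_eq, deg_eq, ad_self, ad_self, ad_comm x.1 q p] at this
        simp only [yy]
        linarith
      rw [this, this]
    rw [← sum_add_sum_compl (insert v W), ← sum_add_sum_compl (insert v W) (yy p q x'.1)] at a1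
    have a2 : ∑ z ∈ (insert v W)ᶜ, yy p q x.1 z = ∑ z ∈ (insert v W)ᶜ, yy p q x'.1 z := by
      refine sum_congr rfl fun z hz => ?_
      simp only [yy, ad_comm _ _ z, h z (mem_compl.1 hz)]
    linarith
  have out : ∀ z ∈ insert v W, ∀ u, u ∉ insert v W → u ≠ p ∧ u ≠ q ∧ u ≠ v ∧ u ≠ z := by
    intro z hz u hu
    refine ⟨?_, ?_, ?_, ?_⟩ <;> rintro rfl
    exacts [hu pW, hu qW, hu (mem_insert_self _ _), hu hz]
  by_cases hc : ∑ z ∈ insert v W, yy p q x.1 z ≤ 0
  · obtain ⟨z, hz, hz1⟩ : ∃ z ∈ insert v W, yy p q x.1 z < 0 := by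
      by_contra hh
      push Not at hh
      exact (sum_pos' hh ⟨v, mem_insert_self _ _, by rw [y1]; norm_num⟩).not_ge hc
    have hD : yy p q x.1 v * yy p q x.1 z = -1 := by
      rcases yy01 p q x.1 z with a | a | a <;> rw [a] at hz1 ⊢ <;> first | linarith
    obtain ⟨r1, r2⟩ := sw_rows hD
    rw [← hF p q v z x]
    refine ih2 _ ?_ _ _ (fun u hu w => ?_) rfl
    · rw [← hn]
      refine card_lt_card ⟨fun w hw => ?_, fun hs => ?_⟩
      · simp only [mem_filter, mem_univ, true_and, r2] at hw ⊢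
        by_cases h1 : w = p
        · subst h1; exact hp.ne'
        by_cases h2 : w = q
        · subst h2; exact hq.ne
        rwa [swap_apply_of_ne_of_ne h1 h2] at hw
      · have := hs (show p ∈ _ by simp [hp.ne'])
        simp only [mem_filter, mem_univ, true_and, r2, swap_apply_left, q1.1, p1.2] at this
        exact this rfl
    · obtain ⟨a, b, c, e⟩ := out z hz u hu
      rw [r1 u w a b c e, h u hu]
  · obtain ⟨z, hz, hz1⟩ : ∃ z ∈ insert v W, 0 < yy p q x'.1 z := by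
      by_contra hh
      push Not at hh
      exact hc (hsum ▸ sum_nonpos hh)
    have hD : yy p q x'.1 v * yy p q x'.1 z = -1 := by
      rcases yy01 p q x'.1 z with a | a | a <;> rw [a] at hz1 ⊢ <;> first | linarith
    obtain ⟨r1, r2⟩ := sw_rows hD
    rw [← hF p q v z x']
    refine ih2 _ ?_ _ _ (fun u hu w => ?_) rfl
    · rw [← hn]
      refine card_lt_card ⟨fun w hw => ?_, fun hs => ?_⟩
      · simp only [mem_filter, mem_univ, true_and, r2] at hw ⊢
        by_cases h1 : w = p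
        · subst h1; exact hp.ne'
        by_cases h2 : w = q
        · subst h2; exact hq.ne
        rwa [swap_apply_of_ne_of_ne h1 h2] at hw
      · have := hs (show p ∈ _ by simp [hp.ne'])
        simp only [mem_filter, mem_univ, true_and, r2, swap_apply_left, q1.2, p1.1] at this
        exact this rfl
    · obtain ⟨a, b, c, e⟩ := out z hz u hu
      rw [r1 u w a b c e, h u hu]

omit [Fintype V] in
lemma D_distinct {a b c e : V} {G : SimpleGraph V} (h : yy a b G c * yy a b G e = -1) :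
    a ≠ b ∧ c ≠ e ∧ a ≠ c ∧ a ≠ e ∧ b ≠ c ∧ b ≠ e := by
  obtain ⟨h1, h2, h3, -⟩ := yy_D h
  simp only [mem_insert, mem_singleton, not_or] at h1 h2
  refine ⟨?_, h3, h1.1, h1.2, h2.1, h2.2⟩
  rintro rfl
  simp [yy] at h

variable [Fintype (Om d)]

/-- pair operator -/
noncomputable def Hh (d : V → ℕ) [Fintype (Om d)] (a b : V) : (Om d → ℝ) →ₗ[ℝ] (Om d → ℝ) :=
  if a = b then 0 else hb (key a b)

omit [Fintype V] in
lemma Hh_comm (a b : V) : Hh d a b = Hh d b a := by
  simp only [Hh, eq_comm, key_comm a b]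

omit [Fintype V] in
lemma Hh_self (a : V) : Hh d a a = 0 := if_pos rfl

omit [Fintype V] in
lemma Hh_ne {a b : V} (h : a ≠ b) : Hh d a b = hb (key a b) := if_neg h

omit [Fintype V] in
lemma dot_Hh (a b : V) (f : Om d → ℝ) : f ⬝ᵥ Hh d a b f = Hh d a b f ⬝ᵥ Hh d a b f := by
  unfold Hh
  split_ifs
  · simp
  · exact dot_hb _ f

omit [Fintype V] in
lemma Hh_symm (a b : V) (f g : Om d → ℝ) : Hh d a b f ⬝ᵥ g = f ⬝ᵥ Hh d a b g := by
  unfold Hh
  split_ifs
  · simp
  · exact hb_symm _ f g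

lemma tri_sum (f : Om d → ℝ) : 0 ≤ ∑ a, ∑ b, ∑ e,
    if a ≠ b ∧ a ≠ e ∧ b ≠ e then Hh d a b f ⬝ᵥ Hh d a e f else 0 := by
  set T : V → V → V → ℝ := fun a b e =>
    if a ≠ b ∧ a ≠ e ∧ b ≠ e then Hh d a b f ⬝ᵥ Hh d a e f else 0 with hT
  change 0 ≤ ∑ a, ∑ b, ∑ e, T a b e
  have h1 : ∑ a, ∑ b, ∑ e, T b a e = ∑ a, ∑ b, ∑ e, T a b e := sum_comm
  have h2 : ∑ a, ∑ b, ∑ e, T e a b = ∑ a, ∑ b, ∑ e, T a b e := by
    rw [sum_comm (f := fun a b => ∑ e, T a b e)]
    exact sum_congr rfl fun a _ => sum_comm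
  have h3 : 0 ≤ ∑ a, ∑ b, ∑ e, (T a b e + T b a e + T e a b) := by
    refine sum_nonneg fun a _ => sum_nonneg fun b _ => sum_nonneg fun e _ => ?_
    by_cases h : a ≠ b ∧ a ≠ e ∧ b ≠ e
    · obtain ⟨p, q, r⟩ := h
      simp only [hT, p, q, r, p.symm, q.symm, r.symm, ne_eq, not_false_eq_true, and_self, if_true,
        Hh_ne p, Hh_ne q, Hh_ne r, Hh_ne p.symm, Hh_ne q.symm, Hh_ne r.symm]
      exact tri_graph p q r f
    · simp only [hT]
      rw [if_neg h, if_neg (by tauto), if_neg (by tauto)]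
      simp
  simp only [sum_add_distrib] at h3
  linarith

lemma quad_sum (f : Om d → ℝ) : 0 ≤ ∑ a, ∑ b, ∑ c, ∑ e,
    if a ≠ b ∧ c ≠ e ∧ a ≠ c ∧ a ≠ e ∧ b ≠ c ∧ b ≠ e then Hh d a b f ⬝ᵥ Hh d c e f else 0 := by
  have z1 : ∀ a b c e : V, ¬ (a ≠ b ∧ c ≠ e ∧ a ≠ c ∧ a ≠ e ∧ b ≠ c ∧ b ≠ e) →
      en f a b c e = 0 ∧ corr f a b c e = 0 := by
    intro a b c e h
    have : ∀ x : Om d, yy a b x.1 c * yy a b x.1 e ≠ -1 := fun x hx => h (D_distinct hx)
    constructor
    · simp [en, sw, this]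
    · unfold corr
      split_ifs with hab
      · refine sum_eq_zero fun x _ => ?_
        rw [show (pairSys d hab).ι c e x = 0 from if_neg (this x), zero_mul]
      · rfl
  have h1 : ∑ a, ∑ b, ∑ c, ∑ e, corr f c e a b = ∑ a, ∑ b, ∑ c, ∑ e, corr f a b c e := by
    simp only [← Fintype.sum_prod_type' (f := fun c e => corr f c e _ _),
      ← Fintype.sum_prod_type' (f := fun c e => corr f _ _ c e)]
    rw [← Fintype.sum_prod_type' (f := fun a b => ∑ x : V × V, corr f x.1 x.2 a b),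
      ← Fintype.sum_prod_type' (f := fun a b => ∑ x : V × V, corr f a b x.1 x.2)]
    exact sum_comm
  have h2 : ∑ a, ∑ b, ∑ c, ∑ e, corr f a b c e ≤ ∑ a, ∑ b, 1 / 4 * ∑ c, ∑ e, en f a b c e := by
    refine sum_le_sum fun a _ => sum_le_sum fun b _ => ?_
    by_cases hab : a ≠ b
    · simp only [corr, dif_pos hab]
      exact (pairSys d hab).A_le f
    · simp only [corr, dif_neg hab, sum_const_zero]
      exact mul_nonneg (by norm_num) (sum_nonneg fun _ _ => sum_nonneg fun _ _ =>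
        sum_nonneg fun _ _ => sq_nonneg _)
  refine le_trans ?_ (sum_le_sum fun a _ => sum_le_sum fun b _ => sum_le_sum fun c _ =>
    sum_le_sum (f := fun e => 1 / 4 * en f a b c e - 1 / 2 * (corr f a b c e + corr f c e a b))
      fun e _ => ?_)
  · simp only [sum_sub_distrib, ← mul_sum, sum_add_distrib] at h2 ⊢
    linarith
  · split_ifs with h
    · obtain ⟨p1, p2, p3, p4, p5, p6⟩ := h
      rw [Hh_ne p1, Hh_ne p2]
      exact quad_graph p1 p2 p3 p4 p5 p6 f
    · rw [(z1 a b c e h).1, (z1 a b c e h).2, (z1 c e a b (by tauto)).2]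
      simp

/-- the total operator -/
noncomputable def HH (d : V → ℕ) [Fintype (Om d)] : (Om d → ℝ) →ₗ[ℝ] (Om d → ℝ) :=
  ∑ a, ∑ b, Hh d a b

lemma HH_apply (f : Om d → ℝ) : HH d f = ∑ a, ∑ b, Hh d a b f := by
  simp only [HH, LinearMap.sum_apply]

lemma dot_HH (f : Om d → ℝ) : f ⬝ᵥ HH d f = ∑ a, ∑ b, Hh d a b f ⬝ᵥ Hh d a b f := by
  simp only [HH_apply, dotProduct_sum, dot_Hh]

lemma HH_sq (f : Om d → ℝ) : 2 * (f ⬝ᵥ HH d f) ≤ HH d f ⬝ᵥ HH d f := by
  have h1 := tri_sum f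
  have h2 := quad_sum f
  have h3 : ∑ a, ∑ b, ∑ e, (if a ≠ b ∧ a ≠ e ∧ b ≠ e then Hh d a b f ⬝ᵥ Hh d b e f else 0) =
      ∑ a, ∑ b, ∑ e, if a ≠ b ∧ a ≠ e ∧ b ≠ e then Hh d a b f ⬝ᵥ Hh d a e f else 0 := by
    rw [sum_comm]
    refine sum_congr rfl fun a _ => sum_congr rfl fun b _ => sum_congr rfl fun e _ => ?_
    rw [Hh_comm b a]
    exact if_congr (by tauto) rfl rfl
  have h4 : ∀ a b, ∑ c, ∑ e, Hh d a b f ⬝ᵥ Hh d c e f = 2 * (Hh d a b f ⬝ᵥ Hh d a b f)
      + 2 * ∑ e, (if a ≠ b ∧ a ≠ e ∧ b ≠ e then Hh d a b f ⬝ᵥ Hh d a e f else 0)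
      + 2 * ∑ e, (if a ≠ b ∧ a ≠ e ∧ b ≠ e then Hh d a b f ⬝ᵥ Hh d b e f else 0)
      + ∑ c, ∑ e, if a ≠ b ∧ c ≠ e ∧ a ≠ c ∧ a ≠ e ∧ b ≠ c ∧ b ≠ e then
        Hh d a b f ⬝ᵥ Hh d c e f else 0 := by
    intro a b
    by_cases hab : a = b
    · subst hab; simp [Hh_self]
    have hab' : a ≠ b := hab
    obtain ⟨ψ, hψ⟩ : ∃ ψ : V → V → ℝ, ∀ c e, Hh d a b f ⬝ᵥ Hh d c e f = ψ c e := ⟨_, fun _ _ => rfl⟩
    have s1 : ∀ c e, ψ c e = ψ e c := fun c e => by rw [← hψ, ← hψ, Hh_comm c e]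
    have s2 : ∀ c, ψ c c = 0 := fun c => by rw [← hψ, Hh_self]; simp
    simp only [hψ]
    have e1 : ∀ c, ∑ e, (if a ≠ b ∧ a ≠ e ∧ b ≠ e then ψ c e else 0) =
        ∑ e, if e = a ∨ e = b then 0 else ψ c e := by
      intro c
      refine sum_congr rfl fun e _ => ?_
      by_cases h : e = a ∨ e = b
      · rw [if_pos h, if_neg (by tauto)]
      · rw [if_neg h, if_pos (by tauto)]
    have e2 : ∑ c, (if c = a ∨ c = b then 0 else ∑ e, ψ c e) =
        ∑ c, (if c = a ∨ c = b then 0 else ψ a c) + ∑ c, (if c = a ∨ c = b then 0 else ψ b c)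
        + ∑ c, ∑ e, if a ≠ b ∧ c ≠ e ∧ a ≠ c ∧ a ≠ e ∧ b ≠ c ∧ b ≠ e then ψ c e else 0 := by
      rw [← sum_add_distrib, ← sum_add_distrib]
      refine sum_congr rfl fun c _ => ?_
      by_cases h : c = a ∨ c = b
      · rw [if_pos h, if_pos h, if_pos h, sum_eq_zero fun e _ => if_neg (by tauto)]
        simp
      · rw [if_neg h, if_neg h, if_neg h, sum_split2 hab', s1 c a, s1 c b]
        congr 1
        refine sum_congr rfl fun e _ => ?_
        by_cases h2 : e = a ∨ e = b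
        · rw [if_pos h2, if_neg (by tauto)]
        · rw [if_neg h2]
          by_cases h3 : c = e
          · rw [if_neg (by tauto), h3, s2]
          · rw [if_pos (by tauto)]
    rw [sum_split2 hab', e2, e1, e1, sum_split2 hab' (ψ a), sum_split2 hab' (ψ b), s2, s2, s1 b a]
    ring
  rw [dot_HH]
  have h5 : HH d f ⬝ᵥ HH d f = ∑ a, ∑ b, ∑ c, ∑ e, Hh d a b f ⬝ᵥ Hh d c e f := by
    rw [HH_apply]
    simp only [sum_dotProduct]
    simp only [dotProduct_sum]
  rw [h5]
  simp only [h4, sum_add_distrib, ← mul_sum]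
  linarith

/-- Poincare inequality for the switch energies -/
theorem poincare (f : Om d → ℝ) (hf : ∑ x, f x = 0) :
    16 * (f ⬝ᵥ f) ≤ ∑ a, ∑ b, ∑ c, ∑ e, en f a b c e := by
  have hs : ∀ f g, HH d f ⬝ᵥ g = f ⬝ᵥ HH d g := by
    intro f g
    simp only [HH_apply, sum_dotProduct, dotProduct_sum, Hh_symm]
  have h0 : ∀ f, 0 ≤ f ⬝ᵥ HH d f := fun f => by
    rw [dot_HH]; exact sum_nonneg fun _ _ => sum_nonneg fun _ _ => dot_self_nonneg _
  have h1 := gap_perp (HH d) hs 2 (ev_of_sq (HH d) 2 h0 HH_sq) f (by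
    intro F hF
    have a1 := dot_HH F
    rw [hF, dotProduct_zero] at a1
    have a2 : ∀ a b, Hh d a b F = 0 := by
      intro a b
      have b1 := (sum_eq_zero_iff_of_nonneg (fun _ _ => sum_nonneg fun _ _ =>
        dot_self_nonneg _)).1 a1.symm a (mem_univ _)
      exact dotProduct_self_eq_zero.1
        ((sum_eq_zero_iff_of_nonneg (fun _ _ => dot_self_nonneg _)).1 b1 b (mem_univ _))
    have a3 : ∀ a b c e x, F (sw a b c e x) = F x := by
      intro a b c e x
      by_cases hab : a ≠ b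
      · have := a2 a b
        rw [Hh_ne hab, hb_apply, sub_eq_zero] at this
        rw [this]
        exact ce_congr F ((pairSys d hab).hk c e x)
      · rw [sw, if_neg (fun h => hab (D_distinct h).1)]
    rcases isEmpty_or_nonempty (Om d) with h | ⟨⟨x0⟩⟩
    · simp [dotProduct]
    · simp only [dotProduct, switch_conn a3 _ x0, ← mul_sum, hf, mul_zero])
  rw [dot_HH] at h1
  have h2 : ∑ a, ∑ b, 8 * (Hh d a b f ⬝ᵥ Hh d a b f) ≤ ∑ a, ∑ b, ∑ c, ∑ e, en f a b c e := by
    refine sum_le_sum fun a _ => sum_le_sum fun b _ => ?_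
    by_cases hab : a ≠ b
    · rw [Hh_ne hab]
      exact (pairSys d hab).heat_le f
    · rw [not_not.1 hab, Hh_self]
      simp only [LinearMap.zero_apply, dotProduct_zero, mul_zero]
      exact sum_nonneg fun _ _ => sum_nonneg fun _ _ => sum_nonneg fun _ _ => sq_nonneg _
  simp only [← mul_sum] at h2
  linarith

end Vale.Agent.P335
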