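import Vale.Agent.P335.Quad

namespace Vale.Agent.P335

open Finset Equiv

variable {V : Type*}

/-- graphs with a given degree function -/
abbrev Om (d : V → ℕ) := {G : SimpleGraph V // ∀ v, (G.neighborSet v).ncard = d v}

open Classical in
/-- adjacency indicator -/
noncomputable def ad (G : SimpleGraph V) (u v : V) : ℝ := if G.Adj u v then 1 else 0

lemma ad01 (G : SimpleGraph V) (u v : V) : ad G u v = 0 ∨ ad G u v = 1 := by
  unfold ad; split_ifs <;> simp

lemma ad_comm (G : SimpleGraph V) (u v : V) : ad G u v = ad G v u := by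
  unfold ad; rw [G.adj_comm]

lemma ad_self (G : SimpleGraph V) (u : V) : ad G u u = 0 := by simp [ad]

lemma ad_eq_one {G : SimpleGraph V} {u v : V} : ad G u v = 1 ↔ G.Adj u v := by simp [ad]

lemma ad_eq_zero {G : SimpleGraph V} {u v : V} : ad G u v = 0 ↔ ¬ G.Adj u v := by simp [ad]

lemma ext_ad {G G' : SimpleGraph V} (h : ∀ u v, ad G u v = ad G' u v) : G = G' := by
  ext u v
  rw [← ad_eq_one, h, ad_eq_one]

lemma ncard_eq [Fintype V] (G : SimpleGraph V) (v : V) :
    ((G.neighborSet v).ncard : ℝ) = ∑ w, ad G v w := by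
  classical
  rw [Set.ncard_eq_toFinset_card']
  simp only [ad, sum_boole]
  congr 2
  ext w; simp

variable [Fintype V] [DecidableEq V] {d : V → ℕ}

omit [DecidableEq V] in
lemma deg_eq (x : Om d) (v : V) : ∑ w, ad x.1 v w = d v := by rw [← ncard_eq, x.2]

lemma sum_split2 {a b : V} (hab : a ≠ b) (F : V → ℝ) :
    ∑ v, F v = F a + F b + ∑ v, if v = a ∨ v = b then 0 else F v := by
  have : ∀ v, F v = (if v = a then F v else 0) + (if v = b then F v else 0)
      + if v = a ∨ v = b then 0 else F v := by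
    intro v
    by_cases h1 : v = a
    · subst h1; simp [hab]
    · by_cases h2 : v = b
      · subst h2; simp [h1]
      · simp [h1, h2]
  rw [sum_congr rfl fun v _ => this v]
  simp [sum_add_distrib]

/-- exchange the rows `a, b` on the columns `U` -/
def tw (a b : V) (U : Finset V) (G : SimpleGraph V) : SimpleGraph V where
  Adj u v := G.Adj (if v ∈ U then swap a b u else u) (if u ∈ U then swap a b v else v)
  symm := ⟨fun _ _ h => h.symm⟩
  loopless := ⟨fun _ h => G.irrefl h⟩

omit [Fintype V] in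
lemma ad_tw (a b : V) (U : Finset V) (G : SimpleGraph V) (u v : V) : ad (tw a b U G) u v =
    ad G (if v ∈ U then swap a b u else u) (if u ∈ U then swap a b v else v) := rfl

omit [Fintype V] in
lemma swap_mem {a b : V} {U : Finset V} (ha : a ∉ U) (hb : b ∉ U) (u : V) :
    swap a b u ∈ U ↔ u ∈ U := by
  by_cases h1 : u = a
  · subst h1; simp [ha, hb]
  by_cases h2 : u = b
  · subst h2; simp [ha, hb]
  rw [swap_apply_of_ne_of_ne h1 h2]

omit [Fintype V] in
lemma tw_tw {a b : V} {U : Finset V} (ha : a ∉ U) (hb : b ∉ U) (G : SimpleGraph V) :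
    tw a b U (tw a b U G) = G := by
  refine ext_ad fun u v => ?_
  rw [ad_tw, ad_tw]
  by_cases h1 : u ∈ U <;> by_cases h2 : v ∈ U <;> simp [h1, h2, swap_mem ha hb]

/-- difference of the rows `a, b` -/
noncomputable def yy (a b : V) (G : SimpleGraph V) (c : V) : ℝ :=
  if c = a ∨ c = b then 0 else ad G a c - ad G b c

omit [Fintype V] in
lemma yy_tw {a b : V} {U : Finset V} (ha : a ∉ U) (hb : b ∉ U) (G : SimpleGraph V) (c : V) :
    yy a b (tw a b U G) c = if c ∈ U then - yy a b G c else yy a b G c := by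
  by_cases h : c = a ∨ c = b
  · simp [yy, h]
  · by_cases h2 : c ∈ U <;> simp [yy, h, ad_tw, ha, hb, h2]

lemma deg_tw {a b : V} {U : Finset V} (ha : a ∉ U) (hb : b ∉ U) (G : SimpleGraph V)
    (h : ∑ u ∈ U, yy a b G u = 0) (v : V) : ∑ w, ad (tw a b U G) v w = ∑ w, ad G v w := by
  have hy : ∑ u ∈ U, (ad G a u - ad G b u) = 0 := by
    rw [← h]
    refine sum_congr rfl fun u hu => ?_
    rw [yy, if_neg]
    rintro (rfl | rfl) <;> contradiction
  have key : ∀ v v', v ∉ U → swap a b v = v' → ∑ u ∈ U, (ad G v' u - ad G v u) = 0 →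
      ∑ w, ad (tw a b U G) v w = ∑ w, ad G v w := by
    intro v v' h1 h2 h3
    rw [← sub_eq_zero, ← sum_sub_distrib, ← h3, ← Fintype.sum_ite_mem U]
    refine sum_congr rfl fun w _ => ?_
    by_cases hw : w ∈ U <;> simp [ad_tw, h1, h2, hw]
  by_cases h1 : v = a
  · subst h1
    refine key v b ha (swap_apply_left _ _) ?_
    rw [← neg_eq_zero, ← sum_neg_distrib]; simpa using hy
  by_cases h2 : v = b
  · subst h2
    exact key v a hb (swap_apply_right _ _) hy
  simp only [ad_tw, swap_apply_of_ne_of_ne h1 h2, ite_self]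
  by_cases h3 : v ∈ U
  · simp only [h3, if_true]
    exact Equiv.sum_comp (swap a b) (fun w => ad G v w)
  · simp only [h3, if_false]

open Classical in
/-- the row exchange as a map on realizations -/
noncomputable def twX (a b : V) (U : Finset V) (x : Om d) : Om d :=
  if h : a ∉ U ∧ b ∉ U ∧ ∑ u ∈ U, yy a b x.1 u = 0 then
    ⟨tw a b U x.1, fun v => by
      have := deg_tw h.1 h.2.1 x.1 h.2.2 v
      rw [← ncard_eq, ← ncard_eq, x.2] at this
      exact_mod_cast this⟩
  else x

lemma twX_pos {a b : V} {U : Finset V} {x : Om d} (ha : a ∉ U) (hb : b ∉ U)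
    (h : ∑ u ∈ U, yy a b x.1 u = 0) : (twX a b U x).1 = tw a b U x.1 := by
  rw [twX, dif_pos ⟨ha, hb, h⟩]

lemma bal_twX {a b : V} {U : Finset V} {x : Om d} (ha : a ∉ U) (hb : b ∉ U)
    (h : ∑ u ∈ U, yy a b x.1 u = 0) : ∑ u ∈ U, yy a b (twX a b U x).1 u = 0 := by
  rw [twX_pos ha hb h, ← neg_eq_zero, ← sum_neg_distrib, ← h]
  exact sum_congr rfl fun u hu => by rw [yy_tw ha hb, if_pos hu, neg_neg]

lemma twX_twX (a b : V) (U : Finset V) (x : Om d) : twX a b U (twX a b U x) = x := by
  by_cases h : a ∉ U ∧ b ∉ U ∧ ∑ u ∈ U, yy a b x.1 u = 0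
  · refine Subtype.ext ?_
    rw [twX_pos h.1 h.2.1 (bal_twX h.1 h.2.1 h.2.2), twX_pos h.1 h.2.1 h.2.2, tw_tw h.1 h.2.1]
  · have : twX a b U x = x := by rw [twX, dif_neg h]
    rw [this, this]

/-- the graph outside `a, b` -/
noncomputable def key (a b : V) (x : Om d) : V → V → ℝ :=
  fun u v => if (u = a ∨ u = b) ∨ (v = a ∨ v = b) then 0 else ad x.1 u v

omit [Fintype V] in
lemma key_eq {a b : V} {x x' : Om d} : key a b x = key a b x' ↔
    ∀ u v, u ≠ a → u ≠ b → v ≠ a → v ≠ b → ad x.1 u v = ad x'.1 u v := by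
  constructor
  · intro h u v h1 h2 h3 h4
    simpa [key, h1, h2, h3, h4] using congrFun (congrFun h u) v
  · intro h
    funext u v
    unfold key
    split_ifs with h1
    · rfl
    · push Not at h1
      exact h u v h1.1.1 h1.1.2 h1.2.1 h1.2.2

omit [Fintype V] in
lemma key_comm (a b : V) : (key a b : Om d → _) = key b a := by
  funext x u v
  simp only [key, or_comm]

lemma key_twX (a b : V) (U : Finset V) (x : Om d) : key a b (twX a b U x) = key a b x := by
  unfold twX
  split_ifs with h
  · refine key_eq.2 fun u v h1 h2 h3 h4 => ?_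
    simp only [ad_tw, swap_apply_of_ne_of_ne h1 h2, swap_apply_of_ne_of_ne h3 h4, ite_self]
  · rfl

lemma resid {a b : V} (hab : a ≠ b) {x x' : Om d} (h : key a b x = key a b x') {c : V}
    (h1 : c ≠ a) (h2 : c ≠ b) : ad x.1 a c + ad x.1 b c = ad x'.1 a c + ad x'.1 b c := by
  have e1 := sum_split2 hab (ad x.1 c)
  have e2 := sum_split2 hab (ad x'.1 c)
  rw [deg_eq] at e1 e2
  have : ∑ v, (if v = a ∨ v = b then 0 else ad x.1 c v) =
      ∑ v, if v = a ∨ v = b then 0 else ad x'.1 c v := by
    refine sum_congr rfl fun v _ => ?_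
    split_ifs with h3
    · rfl
    · push Not at h3
      exact key_eq.1 h c v h1 h2 h3.1 h3.2
  rw [ad_comm x.1 a, ad_comm x.1 b, ad_comm x'.1 a, ad_comm x'.1 b]
  linarith

omit [Fintype V] in
lemma yy01 (a b : V) (G : SimpleGraph V) (c : V) :
    yy a b G c = 0 ∨ yy a b G c = 1 ∨ yy a b G c = -1 := by
  unfold yy
  split_ifs
  · simp
  · rcases ad01 G a c with p | p <;> rcases ad01 G b c with q | q <;> simp [p, q]

omit [Fintype V] in
lemma yy_D {a b c e : V} {G : SimpleGraph V} (h : yy a b G c * yy a b G e = -1) :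
    a ∉ ({c, e} : Finset V) ∧ b ∉ ({c, e} : Finset V) ∧ c ≠ e ∧ yy a b G e = - yy a b G c := by
  have h1 : ¬ (c = a ∨ c = b) := fun h1 => by simp [yy, h1] at h
  have h2 : ¬ (e = a ∨ e = b) := fun h2 => by simp [yy, h2] at h
  push Not at h1 h2
  refine ⟨by simp [h1.1.symm, h2.1.symm], by simp [h1.2.symm, h2.2.symm], ?_, ?_⟩
  · rintro rfl; nlinarith [mul_self_nonneg (yy a b G c)]
  · rcases yy01 a b G c with p | p | p <;> rcases yy01 a b G e with q | q | q <;>
      rw [p, q] at h ⊢ <;> linarith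

/-- the switch on rows `a, b` and columns `c, e` -/
noncomputable def sw (a b c e : V) (x : Om d) : Om d :=
  if yy a b x.1 c * yy a b x.1 e = -1 then twX a b {c, e} x else x

lemma sw_pos {a b c e : V} {x : Om d} (h : yy a b x.1 c * yy a b x.1 e = -1) :
    (sw a b c e x).1 = tw a b {c, e} x.1 := by
  obtain ⟨h1, h2, h3, h4⟩ := yy_D h
  rw [sw, if_pos h, twX_pos h1 h2 (by rw [sum_pair h3, h4]; ring)]

/-- the two-row system of a pair of vertices -/
noncomputable def pairSys (d : V → ℕ) {a b : V} (hab : a ≠ b) : PairSys (Om d) (V → V → ℝ) V where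
  k := key a b
  y x := yy a b x.1
  σ := sw a b
  h01 x c := yy01 a b x.1 c
  hsq x x' h c := by
    unfold yy
    split_ifs with h1
    · rfl
    · push Not at h1
      have := resid hab h h1.1 h1.2
      rcases ad01 x.1 a c with p | p <;> rcases ad01 x.1 b c with q | q <;>
      rcases ad01 x'.1 a c with p' | p' <;> rcases ad01 x'.1 b c with q' | q' <;>
      first | (exfalso; linarith) | simp [p, q, p', q']
  hsum x x' _ := by
    have : ∀ x : Om d, ∑ c, yy a b x.1 c = d a - d b := by
      intro x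
      have := sum_split2 hab (fun c => ad x.1 a c - ad x.1 b c)
      rw [sum_sub_distrib, deg_eq, deg_eq, ad_self, ad_self, ad_comm x.1 b a] at this
      simp only [yy]
      linarith
    rw [this, this]
  hinj x x' h hy := by
    have h1 : ∀ c, c ≠ a → c ≠ b → ad x.1 a c = ad x'.1 a c ∧ ad x.1 b c = ad x'.1 b c := by
      intro c h1 h2
      have e1 := resid hab h h1 h2
      have e2 := congrFun hy c
      simp only [yy, h1, h2, or_self, if_false] at e2
      constructor <;> linarith
    have h2 : ad x.1 a b = ad x'.1 a b := by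
      have e1 := sum_split2 hab (ad x.1 a)
      have e2 := sum_split2 hab (ad x'.1 a)
      rw [deg_eq, ad_self] at e1 e2
      have : ∑ v, (if v = a ∨ v = b then 0 else ad x.1 a v) =
          ∑ v, if v = a ∨ v = b then 0 else ad x'.1 a v := by
        refine sum_congr rfl fun v _ => ?_
        split_ifs with h3
        · rfl
        · push Not at h3
          exact (h1 v h3.1 h3.2).1
      linarith
    have h3 : ∀ v, ad x.1 a v = ad x'.1 a v := by
      intro v
      by_cases p : v = a
      · rw [p, ad_self, ad_self]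
      by_cases q : v = b
      · rw [q, h2]
      exact (h1 v p q).1
    have h4 : ∀ v, ad x.1 b v = ad x'.1 b v := by
      intro v
      by_cases p : v = a
      · rw [p, ad_comm, h2, ad_comm]
      by_cases q : v = b
      · rw [q, ad_self, ad_self]
      exact (h1 v p q).2
    refine Subtype.ext (ext_ad fun u v => ?_)
    by_cases p : u = a
    · rw [p, h3]
    by_cases q : u = b
    · rw [q, h4]
    by_cases p' : v = a
    · rw [p', ad_comm, h3, ad_comm]
    by_cases q' : v = b
    · rw [q', ad_comm, h4, ad_comm]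
    exact key_eq.1 h u v p q p' q'
  hk c e x := by
    unfold sw
    split_ifs
    · exact key_twX _ _ _ _
    · rfl
  hσ1 c e x h u := by
    obtain ⟨h1, h2, h3, h4⟩ := yy_D h
    rw [sw_pos h, yy_tw h1 h2]
    by_cases p : u = c
    · subst p; simp [h4]
    by_cases q : u = e
    · subst q; simp [h4]
    simp [p, q, swap_apply_of_ne_of_ne p q]
  hσ0 c e x h := by rw [sw, if_neg h]

end Vale.Agent.P335
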