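import Vale.Agent.P335.Graph1

namespace Vale.Agent.P335

open Finset Equiv

variable {V : Type*} [Fintype V] [DecidableEq V] {d : V → ℕ}

section Four
variable {a b c e : V} (hab : a ≠ b) (hce : c ≠ e) (hac : a ≠ c) (hae : a ≠ e) (hbc : b ≠ c)
  (hbe : b ≠ e)
include hac hae hbc hbe

omit [Fintype V] in
lemma D_iff (G : SimpleGraph V) :
    yy a b G c * yy a b G e = -1 ↔ yy c e G a * yy c e G b = -1 := by
  simp only [yy, hac, hae, hbc, hbe, hac.symm, hae.symm, hbc.symm, hbe.symm, or_self, if_false,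
    ad_comm G c, ad_comm G e]
  rcases ad01 G a c with p | p <;> rcases ad01 G b c with q | q <;>
    rcases ad01 G a e with r | r <;> rcases ad01 G b e with s | s <;>
    simp only [p, q, r, s] <;> norm_num

lemma sw_symm (x : Om d) : sw a b c e x = sw c e a b x := by
  by_cases h : yy a b x.1 c * yy a b x.1 e = -1
  · have h' := (D_iff hac hae hbc hbe x.1).1 h
    have hab : a ≠ b := (yy_D h').2.2.1
    have hce : c ≠ e := (yy_D h).2.2.1
    refine (pairSys d hab).hinj _ _ ?_ ?_
    · change key a b _ = key a b _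
      rw [show key a b (sw a b c e x) = key a b x from (pairSys d hab).hk c e x]
      refine key_eq.2 fun u v h1 h2 h3 h4 => ?_
      rw [sw_pos h', ad_tw]
      simp [h1, h2, h3, h4]
    · funext u
      change yy a b _ u = yy a b _ u
      rw [show yy a b (sw a b c e x).1 u = yy a b x.1 (swap c e u) from
        (pairSys d hab).hσ1 c e x h u, sw_pos h']
      by_cases h1 : u = a ∨ u = b
      · have : swap c e u = u := by
          rcases h1 with rfl | rfl
          exacts [swap_apply_of_ne_of_ne hac hae, swap_apply_of_ne_of_ne hbc hbe]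
        simp [yy, this, h1]
      · have h2 : ¬ (swap c e u = a ∨ swap c e u = b) := by
          rw [swap_apply_eq_iff, swap_apply_eq_iff, swap_apply_of_ne_of_ne hac hae,
            swap_apply_of_ne_of_ne hbc hbe]
          exact h1
        have h3 : u ∉ ({a, b} : Finset V) := by simpa using h1
        simp only [yy, h1, h2, if_false, ad_tw, h3, mem_insert, mem_singleton, true_or, or_true,
          if_true]
  · rw [sw, if_neg h, sw, if_neg (fun h' => h ((D_iff hac hae hbc hbe x.1).2 h'))]

include hce in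
lemma key_twX_congr {U : Finset V} (ha : a ∉ U) (hb : b ∉ U) (hU : c ∈ U ↔ e ∈ U) {x z : Om d}
    (hx : ∑ u ∈ U, yy a b x.1 u = 0) (hz : key c e z = key c e x) :
    key c e (twX a b U z) = key c e (twX a b U x) := by
  have h1 : ∑ u ∈ U, yy a b z.1 u = 0 := by
    rw [← hx, ← sub_eq_zero, ← sum_sub_distrib, ← Fintype.sum_ite_mem, sum_split2 hce,
      sum_eq_zero]
    · have r1 := resid hce hz hac hae
      have r2 := resid hce hz hbc hbe
      by_cases h : c ∈ U
      · simp only [h, hU.1 h, if_true, yy, hac.symm, hae.symm, hbc.symm, hbe.symm, or_self,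
          if_false, ad_comm _ a, ad_comm _ b]
        linarith
      · simp [h, mt hU.2 h]
    · intro v _
      split_ifs with h2 h3
      · rfl
      · push Not at h2
        unfold yy
        rw [key_eq.1 hz a v hac hae h2.1 h2.2, key_eq.1 hz b v hbc hbe h2.1 h2.2, sub_self]
      · rfl
  have h2 : ∀ (p : Prop) [Decidable p] (u : V), u ≠ c → u ≠ e →
      (if p then swap a b u else u) ≠ c ∧ (if p then swap a b u else u) ≠ e := by
    intro p _ u h1 h2
    split_ifs
    · rw [Ne, Ne, swap_apply_eq_iff, swap_apply_eq_iff, swap_apply_of_ne_of_ne hac.symm hbc.symm,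
        swap_apply_of_ne_of_ne hae.symm hbe.symm]
      exact ⟨h1, h2⟩
    · exact ⟨h1, h2⟩
  refine key_eq.2 fun u v u1 u2 v1 v2 => ?_
  rw [twX_pos ha hb h1, twX_pos ha hb hx, ad_tw, ad_tw]
  exact key_eq.1 hz _ _ (h2 _ u u1 u2).1 (h2 _ u u1 u2).2 (h2 _ v v1 v2).1 (h2 _ v v1 v2).2

include hce in
lemma exists_tw {x x' : Om d} (h : (pairSys d hab).kD c e x = (pairSys d hab).kD c e x') :
    ∃ t : Om d → Om d, (∀ z, t (t z) = z) ∧
      (∀ z, (pairSys d hab).kD c e (t z) = (pairSys d hab).kD c e z) ∧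
      (∀ z, key c e z = key c e x → key c e (t z) = key c e x') ∧
      (∀ z, key c e z = key c e x' → key c e (t z) = key c e x) := by
  classical
  obtain ⟨hk, hD⟩ := (pairSys d hab).kD_eq.1 h
  change key a b x = key a b x' at hk
  change yy a b x.1 c * yy a b x.1 e = -1 ↔ yy a b x'.1 c * yy a b x'.1 e = -1 at hD
  have hsq : ∀ u, yy a b x.1 u ^ 2 = yy a b x'.1 u ^ 2 := (pairSys d hab).hsq x x' hk
  have hneg : ∀ u, yy a b x.1 u ≠ yy a b x'.1 u → yy a b x'.1 u = - yy a b x.1 u := by
    intro u hu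
    rcases sq_eq_sq_iff_eq_or_eq_neg.1 (hsq u).symm with h1 | h1
    · exact absurd h1.symm hu
    · exact h1
  have hmix : ∀ c e, (yy a b x.1 c * yy a b x.1 e = -1 ↔ yy a b x'.1 c * yy a b x'.1 e = -1) →
      yy a b x.1 c ≠ yy a b x'.1 c → yy a b x'.1 e = - yy a b x.1 e := by
    intro c e hD h1
    by_cases h2 : yy a b x.1 e = yy a b x'.1 e
    swap
    · exact hneg e h2
    have h3 := hneg c h1
    rw [h3] at hD h1
    rw [← h2] at hD ⊢
    rcases yy01 a b x.1 c with p | p | p <;> rcases yy01 a b x.1 e with q | q | q <;>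
      first | (exfalso; apply h1; linarith) | linarith | (rw [p, q] at hD; norm_num at hD)
  obtain ⟨U, hUm⟩ : ∃ U : Finset V, ∀ u, u ∈ U ↔ (yy a b x.1 u ≠ yy a b x'.1 u ∨
      ((yy a b x.1 c ≠ yy a b x'.1 c ∨ yy a b x.1 e ≠ yy a b x'.1 e) ∧ (u = c ∨ u = e))) :=
    ⟨univ.filter (fun u => yy a b x.1 u ≠ yy a b x'.1 u ∨
      ((yy a b x.1 c ≠ yy a b x'.1 c ∨ yy a b x.1 e ≠ yy a b x'.1 e) ∧ (u = c ∨ u = e))),
      fun u => by rw [mem_filter]; exact and_iff_right (mem_univ _)⟩
  have ha : a ∉ U := by simp [hUm, yy, hac, hae]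
  have hb : b ∉ U := by simp [hUm, yy, hbc, hbe]
  have hU : c ∈ U ↔ e ∈ U := by
    simp only [hUm, true_or, or_true, and_true]
    tauto
  have hy : ∀ u, (if u ∈ U then - yy a b x.1 u else yy a b x.1 u) = yy a b x'.1 u := by
    intro u
    split_ifs with hu
    · rw [hUm] at hu
      rcases hu with hu | ⟨hP | hP, rfl | rfl⟩
      · exact (hneg u hu).symm
      · exact (hneg u hP).symm
      · exact (hmix c u hD hP).symm
      · exact (hmix e u (by rw [mul_comm, hD, mul_comm]) hP).symm
      · exact (hneg u hP).symm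
    · simp only [hUm, not_or, not_not] at hu
      exact hu.1
  have hbal : ∑ u ∈ U, yy a b x.1 u = 0 := by
    have h1 : ∑ u, yy a b x.1 u = ∑ u, yy a b x'.1 u := (pairSys d hab).hsum x x' hk
    have h2 : ∑ u, (yy a b x.1 u - yy a b x'.1 u) = 2 * ∑ u ∈ U, yy a b x.1 u := by
      rw [← Fintype.sum_ite_mem U, mul_sum]
      refine sum_congr rfl fun u _ => ?_
      rw [← hy]
      split_ifs <;> ring
    rw [sum_sub_distrib, h1, sub_self] at h2
    linarith
  have hx' : twX a b U x = x' := by
    refine (pairSys d hab).hinj _ _ ((key_twX a b U x).trans hk) ?_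
    funext u
    change yy a b _ u = yy a b _ u
    rw [twX_pos ha hb hbal, yy_tw ha hb, hy]
  refine ⟨twX a b U, twX_twX a b U, fun z => (pairSys d hab).kD_eq.2 ⟨key_twX a b U z, ?_⟩,
    fun z hz => ?_, fun z hz => ?_⟩
  · change yy a b _ c * yy a b _ e = -1 ↔ yy a b _ c * yy a b _ e = -1
    unfold twX
    split_ifs
    · simp only [yy_tw ha hb]
      by_cases h1 : c ∈ U
      · simp [h1, hU.1 h1]
      · simp [h1, mt hU.2 h1]
    · rfl
  · rw [← hx']
    exact key_twX_congr hce hac hae hbc hbe ha hb hU hbal hz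
  · rw [key_twX_congr hce hac hae hbc hbe ha hb hU (by rw [← hx']; exact bal_twX ha hb hbal) hz,
      ← hx', twX_twX]

variable [Fintype (Om d)]

include hce in
lemma comm1 (f : Om d → ℝ) : ce ((pairSys d hab).kD c e) (ce (key c e) f) =
    ce (key c e) (ce ((pairSys d hab).kD c e) f) :=
  ce_comm (fun _ _ h => exists_tw hab hce hac hae hbc hbe h) f

lemma comm3 (f : Om d → ℝ) : ce ((pairSys d hab).kD c e) (ce ((pairSys d hce).kD a b) f) =
    ce ((pairSys d hce).kD a b) (ce ((pairSys d hab).kD c e) f) := by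
  refine ce_comm (fun x x' h => ?_) f
  obtain ⟨t, t1, t2, t3, t4⟩ := exists_tw hab hce hac hae hbc hbe h
  have hD : ∀ z z', (pairSys d hab).kD c e z = (pairSys d hab).kD c e z' →
      (yy c e z.1 a * yy c e z.1 b = -1 ↔ yy c e z'.1 a * yy c e z'.1 b = -1) := by
    intro z z' h
    rw [← D_iff hac hae hbc hbe, ← D_iff hac hae hbc hbe]
    exact ((pairSys d hab).kD_eq.1 h).2
  refine ⟨t, t1, t2, fun z hz => ?_, fun z hz => ?_⟩
  · obtain ⟨p, q⟩ := (pairSys d hce).kD_eq.1 hz
    exact (pairSys d hce).kD_eq.2 ⟨t3 z p, (hD _ _ (t2 z)).trans (q.trans (hD _ _ h))⟩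
  · obtain ⟨p, q⟩ := (pairSys d hce).kD_eq.1 hz
    exact (pairSys d hce).kD_eq.2 ⟨t4 z p, (hD _ _ (t2 z)).trans (q.trans (hD _ _ h).symm)⟩

end Four

lemma off_D {X β C : Type*} [Fintype C] [DecidableEq C] [Fintype X] (S : PairSys X β C)
    {c e : C} {x : X} (h : S.y x c = 0 ∨ S.y x e = 0) (f : X → ℝ) :
    ce (S.kD c e) f x = ce S.k f x := by
  have key : ∀ z, S.k z = S.k x → S.y z c * S.y z e ≠ -1 := by
    intro z hz h1
    rcases h with h | h
    · exact S.free_congr hz (c := c) (fun h2 => by simp [h2] at h1) h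
    · exact S.free_congr hz (c := e) (fun h2 => by simp [h2] at h1) h
  have : fib (S.kD c e) x = fib S.k x := by
    ext z
    simp only [mem_fib, S.kD_eq, and_iff_left_iff_imp]
    intro hz
    exact iff_of_false (key z hz) (key x rfl)
  rw [ce_apply, ce_apply, this]

variable [Fintype (Om d)]

/-- energy of a single switch -/
noncomputable def en (f : Om d → ℝ) (a b c e : V) : ℝ := ∑ x, (f x - f (sw a b c e x)) ^ 2

/-- the correction term -/
noncomputable def corr (f : Om d → ℝ) (a b c e : V) : ℝ :=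
  if hab : a ≠ b then ∑ x, (pairSys d hab).ι c e x *
    (ce ((pairSys d hab).kD c e) f x - ce (key a b) f x) ^ 2 else 0

lemma quad_graph {a b c e : V} (hab : a ≠ b) (hce : c ≠ e) (hac : a ≠ c) (hae : a ≠ e)
    (hbc : b ≠ c) (hbe : b ≠ e) (f : Om d → ℝ) :
    1 / 4 * en f a b c e - 1 / 2 * (corr f a b c e + corr f c e a b) ≤
      hb (key a b) f ⬝ᵥ hb (key c e) f := by
  have hι : ∀ x, (pairSys d hce).ι a b x = (pairSys d hab).ι c e x := by
    intro x
    unfold PairSys.ι
    exact if_congr (D_iff hac hae hbc hbe x.1).symm rfl rfl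
  simp only [corr, dif_pos hab, dif_pos hce, hι, en]
  refine quad (fun x y h => ((pairSys d hab).kD_eq.1 h).1) (comm1 hab hce hac hae hbc hbe)
    (comm1 hce hab hac.symm hbc.symm hae.symm hbe.symm) (comm3 hab hce hac hae hbc hbe)
    ((pairSys d hab).σ_σ c e) (fun x => (pairSys d hab).kD_eq.2 ⟨(pairSys d hab).hk c e x,
      by rw [(pairSys d hab).D_σ]⟩)
    (fun x => (congrArg (key c e) (sw_symm hac hae hbc hbe x)).trans ((pairSys d hce).hk a b x))
    f _ fun x => ?_
  by_cases h : yy a b x.1 c * yy a b x.1 e = -1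
  · left; exact if_pos h
  · right
    refine ⟨if_neg h, ?_⟩
    by_cases h1 : yy a b x.1 c = 0 ∨ yy a b x.1 e = 0
    · left; exact off_D (pairSys d hab) h1 f
    · right
      refine off_D (pairSys d hce) (Or.inl ?_) f
      change yy c e x.1 a = 0
      simp only [yy, hac, hae, hac.symm, hae.symm, hbc.symm, hbe.symm, or_self,
        if_false, ad_comm x.1 c, ad_comm x.1 e, not_or] at h h1 ⊢
      rcases ad01 x.1 a c with p | p <;> rcases ad01 x.1 b c with q | q <;>
        rcases ad01 x.1 a e with r | r <;> rcases ad01 x.1 b e with s | s <;>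
        first | linarith | (exfalso; apply h1.1; linarith) | (exfalso; apply h1.2; linarith) |
          (exfalso; apply h; rw [p, q, r, s]; norm_num)

end Vale.Agent.P335
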