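import Vale.Agent.P335.Graph2

namespace Vale.Agent.P335

open Finset Equiv

variable {V : Type*} [Fintype V] [DecidableEq V] {d : V → ℕ}

lemma third3 {j l : Fin 3} (h : j ≠ l) : ∃ i, i ≠ j ∧ i ≠ l := by
  revert j l; decide

section Tri
variable {t : Fin 3 → V}

lemma sum_splitT (ht : Function.Injective t) (F : V → ℝ) :
    ∑ v, F v = ∑ i, F (t i) + ∑ v, if ∃ i, t i = v then 0 else F v := by
  have h1 : ∑ i, F (t i) = ∑ v, if ∃ i, t i = v then F v else 0 := by
    rw [← sum_filter, ← sum_image (s := univ) (g := t) (f := F) ht.injOn]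
    congr 1
    ext v; simp
  rw [h1, ← sum_add_distrib]
  exact sum_congr rfl fun v _ => by split_ifs <;> simp

/-- the graph outside the triple -/
noncomputable def kT (t : Fin 3 → V) (x : Om d) : V → V → ℝ :=
  fun u v => if (∃ i, t i = u) ∨ (∃ i, t i = v) then 0 else ad x.1 u v

omit [Fintype V] in
lemma kT_eq {x x' : Om d} : kT t x = kT t x' ↔
    ∀ u v, (¬ ∃ i, t i = u) → (¬ ∃ i, t i = v) → ad x.1 u v = ad x'.1 u v := by
  constructor
  · intro h u v h1 h2
    simpa only [kT, h1, h2, or_self, if_false] using congrFun (congrFun h u) v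
  · intro h
    funext u v
    unfold kT
    split_ifs with h1
    · rfl
    · exact h u v (fun h2 => h1 (Or.inl h2)) (fun h2 => h1 (Or.inr h2))

/-- number of inner edges -/
noncomputable def inn (t : Fin 3 → V) (x : Om d) : ℝ := (∑ j, ∑ l, ad x.1 (t j) (t l)) / 2

/-- the matrix of the triple, with one extra column -/
noncomputable def MT (t : Fin 3 → V) (x : Om d) (i : Fin 3) : Option V → ℝ
  | none => 1 - (inn t x - ∑ j, ad x.1 (t i) (t j))
  | some c => if ∃ i, t i = c then 0 else ad x.1 (t i) c

omit [Fintype V] in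
lemma MT_none {i j l : Fin 3} (h1 : i ≠ j) (h2 : i ≠ l) (h3 : j ≠ l) (x : Om d) :
    MT t x i none = 1 - ad x.1 (t j) (t l) := by
  simp only [MT, inn, sum3 h1 h2 h3, ad_self, ad_comm x.1 (t j) (t i), ad_comm x.1 (t l) (t i),
    ad_comm x.1 (t l) (t j)]
  ring

omit [Fintype V] in
lemma MT_01 (x : Om d) (i : Fin 3) (o : Option V) : MT t x i o = 0 ∨ MT t x i o = 1 := by
  cases o with
  | none =>
    obtain ⟨j, l, h1, h2, h3⟩ := exists3 i
    rw [MT_none h1 h2 h3]
    rcases ad01 x.1 (t j) (t l) with p | p <;> simp [p]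
  | some c =>
    simp only [MT]
    split_ifs
    · simp
    · exact ad01 _ _ _

lemma MT_col_some (ht : Function.Injective t) {x x' : Om d} (h : kT t x = kT t x') (c : V) :
    ∑ i, MT t x i (some c) = ∑ i, MT t x' i (some c) := by
  by_cases hc : ∃ i, t i = c
  · simp only [MT, hc, if_true]
  have e1 := sum_splitT ht (ad x.1 c)
  have e2 := sum_splitT ht (ad x'.1 c)
  rw [deg_eq] at e1 e2
  have : ∑ v, (if ∃ i, t i = v then 0 else ad x.1 c v) =
      ∑ v, if ∃ i, t i = v then 0 else ad x'.1 c v := by
    refine sum_congr rfl fun v _ => ?_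
    split_ifs with h3
    · rfl
    · exact kT_eq.1 h c v hc h3
  simp only [MT, hc, if_false, ad_comm _ (t _) c]
  linarith

lemma MT_row_some (ht : Function.Injective t) (x : Om d) (i : Fin 3) :
    ∑ c, MT t x i (some c) = d (t i) - ∑ j, ad x.1 (t i) (t j) := by
  have e1 := sum_splitT ht (ad x.1 (t i))
  rw [deg_eq] at e1
  simp only [MT]
  linarith

lemma inn_congr (ht : Function.Injective t) {x x' : Om d} (h : kT t x = kT t x') :
    inn t x = inn t x' := by
  have key : ∀ x : Om d, 2 * inn t x = ∑ i, (d (t i) : ℝ) - ∑ c, ∑ i, MT t x i (some c) := by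
    intro x
    rw [sum_comm]
    simp only [MT_row_some ht, sum_sub_distrib, inn]
    ring
  have e1 := key x
  have e2 := key x'
  simp only [MT_col_some ht h] at e1
  linarith

lemma MT_col (ht : Function.Injective t) {x x' : Om d} (h : kT t x = kT t x') (o : Option V) :
    ∑ i, MT t x i o = ∑ i, MT t x' i o := by
  cases o with
  | none =>
    have key : ∀ x : Om d, ∑ i, MT t x i none = 3 - inn t x := by
      intro x
      simp only [MT, sum_sub_distrib, sum_const, card_univ, Fintype.card_fin, nsmul_eq_mul, inn]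
      push_cast
      ring
    rw [key, key, inn_congr ht h]
  | some c => exact MT_col_some ht h c

lemma MT_row (ht : Function.Injective t) {x x' : Om d} (h : kT t x = kT t x') (i : Fin 3) :
    ∑ o, MT t x i o = ∑ o, MT t x' i o := by
  rw [Fintype.sum_option, Fintype.sum_option, MT_row_some ht, MT_row_some ht]
  simp only [MT, inn_congr ht h]
  ring

lemma key_iff (ht : Function.Injective t) {i j l : Fin 3} (h1 : i ≠ j) (h2 : i ≠ l) (h3 : j ≠ l)
    {x x' : Om d} : key (t j) (t l) x = key (t j) (t l) x' ↔
      kT t x = kT t x' ∧ ∀ o, MT t x i o = MT t x' i o := by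
  constructor
  · intro h
    have hk : kT t x = kT t x' := kT_eq.2 fun u v hu hv => key_eq.1 h u v
      (fun e => hu ⟨j, e.symm⟩) (fun e => hu ⟨l, e.symm⟩) (fun e => hv ⟨j, e.symm⟩)
      (fun e => hv ⟨l, e.symm⟩)
    have hs : ∀ c, MT t x i (some c) = MT t x' i (some c) := by
      intro c
      simp only [MT]
      split_ifs with hc
      · rfl
      · exact key_eq.1 h _ _ (ht.ne h1) (ht.ne h2) (fun e => hc ⟨j, e.symm⟩)
          (fun e => hc ⟨l, e.symm⟩)
    refine ⟨hk, fun o => ?_⟩
    cases o with
    | none =>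
      have := MT_row ht hk i
      rw [Fintype.sum_option, Fintype.sum_option] at this
      simp only [hs] at this
      linarith
    | some c => exact hs c
  · rintro ⟨hk, hM⟩
    have a1 : ∀ u, u ≠ t j → u ≠ t l → u = t i ∨ ¬ ∃ r, t r = u := by
      intro u u1 u2
      by_cases hu : ∃ r, t r = u
      · obtain ⟨r, rfl⟩ := hu
        rcases cases3 h1 h2 h3 r with p | p | p <;> subst p
        exacts [Or.inl rfl, absurd rfl u1, absurd rfl u2]
      · exact Or.inr hu
    have a2 : ∀ v, (¬ ∃ r, t r = v) → ad x.1 (t i) v = ad x'.1 (t i) v := by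
      intro v hv
      simpa only [MT, hv, if_false] using hM (some v)
    refine key_eq.2 fun u v u1 u2 v1 v2 => ?_
    rcases a1 u u1 u2 with p | p <;> rcases a1 v v1 v2 with q | q
    · rw [p, q, ad_self, ad_self]
    · rw [p, a2 v q]
    · rw [q, ad_comm, a2 u p, ad_comm]
    · exact kT_eq.1 hk u v p q

/-- the three-row system of a triple of vertices -/
noncomputable def triSys (d : V → ℕ) (ht : Function.Injective t) :
    TriSys (Om d) (V → V → ℝ) (Option V) where
  k := kT t
  M := MT t
  h01 := MT_01
  hcol _ _ h := MT_col ht h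
  hrow _ _ h := MT_row ht h
  hinj x x' hk hM := by
    have a2 : ∀ i v, ad x.1 (t i) v = ad x'.1 (t i) v := by
      intro j v
      by_cases hv : ∃ r, t r = v
      · obtain ⟨l, rfl⟩ := hv
        by_cases hjl : j = l
        · rw [hjl, ad_self, ad_self]
        obtain ⟨i, h1, h2⟩ := third3 hjl
        have := congrFun (congrFun hM i) none
        rw [MT_none h1 h2 hjl, MT_none h1 h2 hjl] at this
        linarith
      · simpa only [MT, hv, if_false] using congrFun (congrFun hM j) (some v)
    refine Subtype.ext (ext_ad fun u v => ?_)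
    by_cases hu : ∃ r, t r = u
    · obtain ⟨r, rfl⟩ := hu
      exact a2 r v
    by_cases hv : ∃ r, t r = v
    · obtain ⟨r, rfl⟩ := hv
      rw [ad_comm, a2, ad_comm]
    exact kT_eq.1 hk u v hu hv
  hsw x i j l c e h1 h2 h3 m1 m2 m3 m4 := by
    let φ : Option V → V := fun o => o.getD (t l)
    let ok : Option V → Prop := fun o => ∀ v, o = some v → ¬ ∃ r, t r = v
    have hφ : ∀ o o', ok o → ok o' → φ o = φ o' → o = o' := by
      intro o o' a b h
      cases o <;> cases o'
      · rfl
      · exact absurd ⟨l, h⟩ (b _ rfl)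
      · exact absurd ⟨l, h.symm⟩ (a _ rfl)
      · exact congrArg some h
    have hbad : ∀ (z : Om d) r o, ¬ ok o → MT t z r o = 0 := by
      intro z r o h
      simp only [ok, not_forall, not_not] at h
      obtain ⟨v, rfl, h⟩ := h
      simp only [MT, h, if_true]
    have hy : ∀ (z : Om d) o, ok o → yy (t i) (t j) z.1 (φ o) = MT t z i o - MT t z j o := by
      intro z o h
      cases o with
      | none =>
        rw [MT_none h1 h2 h3, MT_none h1.symm h3 h2]
        simp [yy, φ, ht.ne h2.symm, ht.ne h3.symm]
      | some v =>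
        have h' := h v rfl
        have : ¬ (v = t i ∨ v = t j) := by
          rintro (p | p)
          exacts [h' ⟨i, p.symm⟩, h' ⟨j, p.symm⟩]
        simp only [MT, h', if_false, yy, φ, Option.getD_some, this]
    have okc : ok c := by
      by_contra h
      rw [hbad x i c h] at m1; norm_num at m1
    have oke : ok e := by
      by_contra h
      rw [hbad x j e h] at m4; norm_num at m4
    have hD : yy (t i) (t j) x.1 (φ c) * yy (t i) (t j) x.1 (φ e) = -1 := by
      rw [hy x c okc, hy x e oke, m1, m2, m3, m4]; norm_num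
    let S := pairSys d (ht.ne h1)
    let x' := sw (t i) (t j) (φ c) (φ e) x
    obtain ⟨k1, k2⟩ := (key_iff ht h2.symm h3.symm h1).1 (S.hk (φ c) (φ e) x)
    have hs : ∀ o, MT t x' i o + MT t x' j o = MT t x i o + MT t x j o := by
      intro o
      have := MT_col ht k1 o
      rw [sum3 h1 h2 h3, sum3 h1 h2 h3, k2] at this
      exact add_right_cancel this
    have hd : ∀ o, ok o → MT t x' i o - MT t x' j o = yy (t i) (t j) x.1 (swap (φ c) (φ e) (φ o)) := by
      intro o ho
      rw [← hy x' o ho]
      exact S.hσ1 (φ c) (φ e) x hD (φ o)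
    have fin : ∀ o, MT t x' i o = MT t x i (swap c e o) ∧ MT t x' j o = MT t x j (swap c e o) := by
      intro o
      have s1 := hs o
      by_cases p : o = c
      · subst p
        have s2 := hd o okc
        rw [swap_apply_left, hy x e oke] at s2
        rw [swap_apply_left]
        constructor <;> linarith
      by_cases q : o = e
      · subst q
        have s2 := hd o oke
        rw [swap_apply_right, hy x c okc] at s2
        rw [swap_apply_right]
        constructor <;> linarith
      rw [swap_apply_of_ne_of_ne p q]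
      by_cases ho : ok o
      · have s2 := hd o ho
        rw [swap_apply_of_ne_of_ne (fun h => p (hφ _ _ ho okc h)) (fun h => q (hφ _ _ ho oke h)),
          hy x o ho] at s2
        constructor <;> linarith
      · simp only [hbad _ _ o ho, and_self]
    exact ⟨x', k1, fun o => (fin o).1, fun o => (fin o).2, k2⟩

end Tri

lemma tri_graph [Fintype (Om d)] {a b e : V} (hab : a ≠ b) (hae : a ≠ e) (hbe : b ≠ e)
    (f : Om d → ℝ) : 0 ≤ hb (key a b) f ⬝ᵥ hb (key a e) f + hb (key b a) f ⬝ᵥ hb (key b e) f
      + hb (key e a) f ⬝ᵥ hb (key e b) f := by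
  have ht : Function.Injective ![a, b, e] := by
    intro i j h
    fin_cases i <;> fin_cases j <;> simp_all
  have h := (triSys d ht).tri_nonneg f
  have k : ∀ i j l : Fin 3, i ≠ j → i ≠ l → j ≠ l →
      hb ((triSys d ht).kr i) = hb (key (![a, b, e] j) (![a, b, e] l)) := by
    intro i j l h1 h2 h3
    unfold hb
    rw [ce_key_congr (k' := key (![a, b, e] j) (![a, b, e] l))]
    intro x y
    rw [key_iff ht h1 h2 h3, TriSys.kr_eq]
    rfl
  rw [k 0 1 2 (by decide) (by decide) (by decide), k 1 0 2 (by decide) (by decide) (by decide),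
    k 2 0 1 (by decide) (by decide) (by decide)] at h
  simp only [Matrix.cons_val_zero, Matrix.cons_val_one, Matrix.cons_val] at h
  rw [key_comm b a, key_comm e a, key_comm e b, dotProduct_comm (hb (key a b) f),
    dotProduct_comm (hb (key a b) f), dotProduct_comm (hb (key a e) f) (hb (key b e) f)]
  linarith

end Vale.Agent.P335
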