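import Vale.Agent.P335.Defs
import Vale.Agent.P335.Global

namespace Vale.Agent.P335

open Finset Equiv
open scoped Classical

variable {n : ℕ}

section Four
variable {a b c e : Fin n} (hab : a ≠ b) (hce : c ≠ e) (hac : a ≠ c) (hae : a ≠ e) (hbc : b ≠ c)
  (hbe : b ≠ e)
include hab hce hac hae hbc hbe

lemma pm_of_edge {S : Finset (Fin n)} (hS : ∀ v, v ∈ S ↔ v = a ∨ v = b ∨ v = c ∨ v = e)
    {F : Finset (Sym2 (Fin n))} (hF : IsPM S F) (h : s(a, c) ∈ F) : F = {s(a, c), s(b, e)} := by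
  obtain ⟨h1, h2⟩ := hF
  have uq : ∀ v ∈ S, ∀ e1 ∈ F, ∀ e2 ∈ F, v ∈ e1 → v ∈ e2 → e1 = e2 := fun v hv e1 p e2 q r s =>
    (h2 v hv).unique ⟨p, r⟩ ⟨q, s⟩
  have hb : s(b, e) ∈ F := by
    obtain ⟨f, ⟨f1, f2⟩, -⟩ := h2 b (by simp [hS])
    obtain ⟨z, rfl⟩ := Sym2.mem_iff_exists.1 f2
    have z1 := (h1 _ f1).1
    rcases (hS z).1 ((h1 _ f1).2 z (by simp)) with rfl | rfl | rfl | rfl
    · have := uq z (by simp [hS]) _ f1 _ h (by simp) (by simp)
      simp [hab.symm, hbc] at this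
    · simp at z1
    · have := uq z (by simp [hS]) _ f1 _ h (by simp) (by simp)
      simp [hab.symm, hbc] at this
    · exact f1
  ext f
  simp only [mem_insert, mem_singleton]
  constructor
  · intro hf
    induction' f using Sym2.ind with u v
    rcases (hS u).1 ((h1 _ hf).2 u (by simp)) with rfl | rfl | rfl | rfl
    · exact Or.inl (uq u (by simp [hS]) _ hf _ h (by simp) (by simp))
    · exact Or.inr (uq u (by simp [hS]) _ hf _ hb (by simp) (by simp))
    · exact Or.inl (uq u (by simp [hS]) _ hf _ h (by simp) (by simp))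
    · exact Or.inr (uq u (by simp [hS]) _ hf _ hb (by simp) (by simp))
  · rintro (rfl | rfl)
    exacts [h, hb]

lemma isPM_pair {S : Finset (Fin n)} (hS : ∀ v, v ∈ S ↔ v = a ∨ v = b ∨ v = c ∨ v = e) :
    IsPM S {s(a, c), s(b, e)} := by
  constructor
  · intro f hf
    simp only [mem_insert, mem_singleton] at hf
    rcases hf with rfl | rfl <;> simp [hS, hac, hbe]
  · intro v hv
    rcases (hS v).1 hv with rfl | rfl | rfl | rfl
    · refine ⟨s(v, c), by simp, ?_⟩
      rintro f ⟨hf, h⟩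
      simp only [mem_insert, mem_singleton] at hf
      rcases hf with rfl | rfl
      · rfl
      · simp [hab, hae] at h
    · refine ⟨s(v, e), by simp, ?_⟩
      rintro f ⟨hf, h⟩
      simp only [mem_insert, mem_singleton] at hf
      rcases hf with rfl | rfl
      · simp [hab.symm, hbc] at h
      · rfl
    · refine ⟨s(a, v), by simp, ?_⟩
      rintro f ⟨hf, h⟩
      simp only [mem_insert, mem_singleton] at hf
      rcases hf with rfl | rfl
      · rfl
      · simp [hbc.symm, hce] at h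
    · refine ⟨s(b, v), by simp, ?_⟩
      rintro f ⟨hf, h⟩
      simp only [mem_insert, mem_singleton] at hf
      rcases hf with rfl | rfl
      · simp [hae.symm, hce.symm] at h
      · rfl

lemma matchings_eq {S : Finset (Fin n)} (hS : ∀ v, v ∈ S ↔ v = a ∨ v = b ∨ v = c ∨ v = e) :
    matchings S = {{s(a, b), s(c, e)}, {s(a, c), s(b, e)}, {s(a, e), s(b, c)}} := by
  have S1 : ∀ v, v ∈ S ↔ v = a ∨ v = c ∨ v = b ∨ v = e := fun v => by rw [hS]; tauto
  have S2 : ∀ v, v ∈ S ↔ v = a ∨ v = b ∨ v = e ∨ v = c := fun v => by rw [hS]; tauto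
  ext F
  simp only [matchings, mem_filter, mem_univ, true_and, mem_insert, mem_singleton]
  constructor
  · intro hF
    obtain ⟨f, ⟨f1, f2⟩, -⟩ := hF.2 a (by simp [hS])
    obtain ⟨z, rfl⟩ := Sym2.mem_iff_exists.1 f2
    have z1 := (hF.1 _ f1).1
    rcases (hS z).1 ((hF.1 _ f1).2 z (by simp)) with rfl | rfl | rfl | rfl
    · simp at z1
    · exact Or.inl (pm_of_edge hac hbe hab hae hbc.symm hce S1 hF f1)
    · exact Or.inr (Or.inl (pm_of_edge hab hce hac hae hbc hbe hS hF f1))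
    · exact Or.inr (Or.inr (pm_of_edge hab hce.symm hae hac hbe hbc S2 hF f1))
  · rintro (rfl | rfl | rfl)
    · exact isPM_pair hac hbe hab hae hbc.symm hce S1
    · exact isPM_pair hab hce hac hae hbc hbe hS
    · exact isPM_pair hab hce.symm hae hac hbe hbc S2

omit hbc hbe in
lemma pair_ne : ({s(a, c), s(b, e)} : Finset (Sym2 (Fin n))) ≠ {s(a, e), s(b, c)} := by
  intro h
  have : s(a, c) ∈ ({s(a, e), s(b, c)} : Finset (Sym2 (Fin n))) := by rw [← h]; simp
  simp [hab, hce, hac, hae] at this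

lemma move_eq_tw {G : SimpleGraph (Fin n)} (h1 : G.Adj a c) (h2 : G.Adj b e) (h3 : ¬ G.Adj a e)
    (h4 : ¬ G.Adj b c) : move G {s(a, c), s(b, e)} {s(a, e), s(b, c)} = tw a b {c, e} G := by
  rw [move, if_pos (by simp [h1, h2, h3, h4])]
  have h3' : ¬ G.Adj e a := fun h => h3 h.symm
  have h4' : ¬ G.Adj c b := fun h => h4 h.symm
  have cs : ∀ u, u = a ∨ u = b ∨ u = c ∨ u = e ∨ (u ≠ a ∧ u ≠ b ∧ u ≠ c ∧ u ≠ e) := by tauto
  ext u v
  simp only [SimpleGraph.fromEdgeSet_adj, tw, Set.mem_union, Set.mem_sdiff, SimpleGraph.mem_edgeSet,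
    coe_insert, coe_singleton, Set.mem_insert_iff, Set.mem_singleton_iff, Sym2.eq_iff, mem_insert,
    mem_singleton]
  rcases cs u with rfl | rfl | rfl | rfl | ⟨u1, u2, u3, u4⟩ <;>
  rcases cs v with rfl | rfl | rfl | rfl | ⟨v1, v2, v3, v4⟩ <;>
  simp [*, hab.symm, hce.symm, hac.symm, hae.symm, hbc.symm, hbe.symm, h1.symm, h2.symm,
    swap_apply_of_ne_of_ne]
  all_goals exact G.ne_of_adj

lemma move_mem {d : Fin n → ℕ} (x : Om d) :
    ∃ y : Om d, y.1 = move x.1 {s(a, c), s(b, e)} {s(a, e), s(b, c)} := by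
  by_cases h : x.1.Adj a c ∧ x.1.Adj b e ∧ ¬ x.1.Adj a e ∧ ¬ x.1.Adj b c
  · obtain ⟨h1, h2, h3, h4⟩ := h
    refine ⟨sw a b c e x, ?_⟩
    rw [move_eq_tw hab hce hac hae hbc hbe h1 h2 h3 h4, sw_pos]
    simp [yy, hac.symm, hbc.symm, hae.symm, hbe.symm, ad_eq_one.2 h1, ad_eq_one.2 h2,
      ad_eq_zero.2 h3, ad_eq_zero.2 h4]
  · refine ⟨x, ?_⟩
    rw [move, if_neg]
    simpa [and_assoc] using h

lemma sw_move {d : Fin n → ℕ} {x : Om d} (h : yy a b x.1 c * yy a b x.1 e = -1) :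
    move x.1 {s(a, c), s(b, e)} {s(a, e), s(b, c)} = (sw a b c e x).1 ∨
    move x.1 {s(a, e), s(b, c)} {s(a, c), s(b, e)} = (sw a b c e x).1 := by
  rw [sw_pos h]
  simp only [yy, hac.symm, hbc.symm, hae.symm, hbe.symm, or_self, if_false] at h
  have : (ad x.1 a c = 1 ∧ ad x.1 b e = 1 ∧ ad x.1 a e = 0 ∧ ad x.1 b c = 0) ∨
      (ad x.1 a e = 1 ∧ ad x.1 b c = 1 ∧ ad x.1 a c = 0 ∧ ad x.1 b e = 0) := by
    rcases ad01 x.1 a c with p | p <;> rcases ad01 x.1 b c with q | q <;>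
      rcases ad01 x.1 a e with r | r <;> rcases ad01 x.1 b e with s | s <;>
      first | (exfalso; rw [p, q, r, s] at h; linarith) | simp [p, q, r, s]
  simp only [ad_eq_one, ad_eq_zero] at this
  rcases this with ⟨h1, h2, h3, h4⟩ | ⟨h1, h2, h3, h4⟩
  · exact Or.inl (move_eq_tw hab hce hac hae hbc hbe h1 h2 h3 h4)
  · right
    rw [move_eq_tw hab hce.symm hae hac hbe hbc h1 h2 h3 h4, pair_comm]

end Four

lemma four_of_card {S : Finset (Fin n)} (hS : S.card = 4) : ∃ a b c e : Fin n,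
    a ≠ b ∧ c ≠ e ∧ a ≠ c ∧ a ≠ e ∧ b ≠ c ∧ b ≠ e ∧
      ∀ v, v ∈ S ↔ v = a ∨ v = b ∨ v = c ∨ v = e := by
  obtain ⟨a, b, c, e, h1, h2, h3, h4, h5, h6, rfl⟩ := card_eq_four.1 hS
  exact ⟨a, b, c, e, h1, h6, h2, h3, h4, h5, by simp⟩

lemma card_offDiag {S : Finset (Fin n)} (hS : S.card = 4) : (matchings S).offDiag.card = 6 := by
  obtain ⟨a, b, c, e, hab, hce, hac, hae, hbc, hbe, h⟩ := four_of_card hS
  have : (matchings S).card = 3 := by
    rw [matchings_eq hab hce hac hae hbc hbe h]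
    refine card_eq_three.2 ⟨_, _, _, ?_, ?_, pair_ne hab hce hac hae, rfl⟩
    · have := pair_ne (a := a) (b := e) (c := b) (e := c) hae hbc hab hac
      rwa [Sym2.eq_swap (a := e), Sym2.eq_swap (a := e)] at this
    · have := pair_ne (a := a) (b := c) (c := b) (e := e) hac hbe hab hae
      rwa [Sym2.eq_swap (a := c) (b := b)] at this
  rw [offDiag_card, this]

lemma move_mem_of {d : Fin n → ℕ} (x : Om d) {S : Finset (Fin n)} (hS : S.card = 4)
    {p : Finset (Sym2 (Fin n)) × Finset (Sym2 (Fin n))} (hp : p ∈ (matchings S).offDiag) :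
    ∃ y : Om d, y.1 = move x.1 p.1 p.2 := by
  obtain ⟨a, b, c, e, hab, hce, hac, hae, hbc, hbe, h⟩ := four_of_card hS
  obtain ⟨F, F'⟩ := p
  rw [matchings_eq hab hce hac hae hbc hbe h] at hp
  simp only [mem_offDiag, mem_insert, mem_singleton] at hp
  obtain ⟨rfl | rfl | rfl, rfl | rfl | rfl, h3⟩ := hp
  · exact absurd rfl h3
  · simpa only [Sym2.eq_swap (a := e)] using
      move_mem (a := a) (b := e) (c := b) (e := c) hae hbc hab hac hbe.symm hce.symm x
  · simpa only [Sym2.eq_swap (a := c) (b := b)] using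
      move_mem (a := a) (b := c) (c := b) (e := e) hac hbe hab hae hbc.symm hce x
  · simpa only [Sym2.eq_swap (a := e)] using
      move_mem (a := a) (b := e) (c := c) (e := b) hae hbc.symm hac hab hce.symm hbe.symm x
  · exact absurd rfl h3
  · exact move_mem hab hce hac hae hbc hbe x
  · simpa only [Sym2.eq_swap (a := c) (b := b)] using
      move_mem (a := a) (b := c) (c := e) (e := b) hac hbe.symm hae hab hce hbc.symm x
  · exact move_mem hab hce.symm hae hac hbe hbc x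
  · exact absurd rfl h3

lemma move_symm {G G' : SimpleGraph (Fin n)} {F F' : Finset (Sym2 (Fin n))}
    (hF' : ∀ e ∈ F', ¬ e.IsDiag) (hne : G ≠ G') (h : move G F F' = G') : move G' F' F = G := by
  unfold move at h
  split_ifs at h with hv
  swap
  · exact absurd h hne
  obtain ⟨h1, h2⟩ := hv
  have hE : ∀ e, e ∈ G'.edgeSet ↔ (e ∈ G.edgeSet ∧ e ∉ F) ∨ e ∈ F' := by
    intro e
    rw [← h, SimpleGraph.edgeSet_fromEdgeSet]
    simp only [Set.mem_sdiff, Set.mem_union, mem_coe, Sym2.mem_diagSet, and_iff_left_iff_imp]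
    rintro (h3 | h3)
    · exact G.not_isDiag_of_mem_edgeSet h3.1
    · exact hF' e h3
  rw [move, if_pos]
  · rw [← G.fromEdgeSet_edgeSet]
    congr 1
    ext e
    simp only [Set.mem_sdiff, Set.mem_union, mem_coe, hE]
    have := h1 e
    have := h2 e
    tauto
  · refine ⟨fun e he => (hE e).2 (Or.inr he), fun e he => ?_⟩
    rw [hE]
    have := h1 e he
    have := h2 e
    tauto

end Vale.Agent.P335
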