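import Vale.Agent.P335.Basic

namespace Vale.Agent.P335

open Finset Equiv

variable {X β C : Type*} [Fintype C] [DecidableEq C]

/-- connectivity of a two-row fibre under swaps -/
lemma conn {k : X → β} {y : X → C → ℝ} {F : X → ℝ}
    (h01 : ∀ x c, y x c = 0 ∨ y x c = 1 ∨ y x c = -1)
    (hsq : ∀ x x', k x = k x' → ∀ c, y x c ^ 2 = y x' c ^ 2)
    (hsum : ∀ x x', k x = k x' → ∑ c, y x c = ∑ c, y x' c)
    (hinj : ∀ x x', k x = k x' → y x = y x' → x = x')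
    (hsw : ∀ x c d, y x c = 1 → y x d = -1 →
      ∃ x', k x' = k x ∧ (∀ e, y x' e = y x (swap c d e)) ∧ F x' = F x) :
    ∀ x x', k x = k x' → F x = F x' := by
  classical
  intro x x' hx
  induction' hn : (univ.filter (fun e => y x e ≠ y x' e)).card using Nat.strong_induction_on
    with n ih generalizing x
  by_cases hy : y x = y x'
  · rw [hinj x x' hx hy]
  obtain ⟨e, he⟩ := Function.ne_iff.1 hy
  have hc : ∃ c, y x' c < y x c := by
    by_contra hh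
    push Not at hh
    have := sum_lt_sum (s := univ) (fun i _ => hh i) ⟨e, mem_univ _, lt_of_le_of_ne (hh e) he⟩
    exact this.ne (hsum x x' hx)
  have hd : ∃ d, y x d < y x' d := by
    by_contra hh
    push Not at hh
    have := sum_lt_sum (s := univ) (fun i _ => hh i)
      ⟨e, mem_univ _, lt_of_le_of_ne (hh e) (Ne.symm he)⟩
    exact this.ne (hsum x x' hx).symm
  obtain ⟨c, hc⟩ := hc
  obtain ⟨d, hd⟩ := hd
  have hc' : y x c = 1 ∧ y x' c = -1 := by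
    have := hsq x x' hx c
    rcases h01 x c with a | a | a <;> rcases h01 x' c with b | b | b <;>
      first | exact ⟨a, b⟩ | (exfalso; rw [a, b] at this hc; nlinarith)
  have hd' : y x d = -1 ∧ y x' d = 1 := by
    have := hsq x x' hx d
    rcases h01 x d with a | a | a <;> rcases h01 x' d with b | b | b <;>
      first | exact ⟨a, b⟩ | (exfalso; rw [a, b] at this hd; nlinarith)
  obtain ⟨x1, k1, y1, F1⟩ := hsw x c d hc'.1 hd'.1
  rw [← F1]
  refine ih _ ?_ x1 (k1.trans hx) rfl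
  rw [← hn]
  refine card_lt_card ⟨?_, ?_⟩
  · intro u hu
    simp only [mem_filter, mem_univ, true_and] at hu ⊢
    rw [y1] at hu
    by_cases h1 : u = c
    · subst h1; exact hc.ne'
    by_cases h2 : u = d
    · subst h2; exact hd.ne
    rwa [swap_apply_of_ne_of_ne h1 h2] at hu
  · intro hs
    have := hs (show c ∈ _ by simp [hc.ne'])
    simp only [mem_filter, mem_univ, true_and] at this
    rw [y1, swap_apply_left, hd'.1, hc'.2] at this
    exact this rfl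

omit [Fintype C] in
/-- the algebraic inequality behind the quadruple estimate -/
lemma alg_ineq (Φ : Finset C) (m e : C → C → ℝ) (hs : ∀ c d, m c d = m d c)
    (h0 : ∀ c, m c c = 0) (ht : ∑ c ∈ Φ, ∑ d ∈ Φ, m c d = 0) (he : ∀ c d, 0 ≤ e c d)
    (he0 : ∀ c, e c c = 0)
    (hm : ∀ c ∈ Φ, ∀ d ∈ Φ, ∀ w ∈ Φ, c ≠ d → c ≠ w → d ≠ w → (m c d - m c w) ^ 2 ≤ e d w) :
    ∑ c ∈ Φ, ∑ d ∈ Φ, m c d ^ 2 ≤ ∑ c ∈ Φ, ∑ d ∈ Φ, e c d := by
  set M := ∑ c ∈ Φ, ∑ d ∈ Φ, m c d ^ 2 with hM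
  set E := ∑ c ∈ Φ, ∑ d ∈ Φ, e c d with hE
  have hE0 : 0 ≤ E := sum_nonneg fun c _ => sum_nonneg fun d _ => he c d
  by_cases hK : Φ.card ≤ 1
  · have : M = 0 := sum_eq_zero fun c hc => sum_eq_zero fun d hd => by
      rw [card_le_one.1 hK c hc d hd, h0]; ring
    rw [this]; exact hE0
  obtain ⟨K, hKd⟩ : ∃ K : ℝ, K = (Φ.card : ℝ) := ⟨_, rfl⟩
  have hK2 : (2 : ℝ) ≤ K := by rw [hKd]; exact_mod_cast (by omega : 2 ≤ Φ.card)
  let s : C → ℝ := fun c => ∑ d ∈ Φ, m c d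
  have hs0 : ∑ c ∈ Φ, s c = 0 := ht
  set S := ∑ c ∈ Φ, s c ^ 2 with hS
  have A1 : ∑ c ∈ Φ, ∑ d ∈ Φ, ∑ w ∈ Φ, (m c d - m c w) ^ 2 = 2 * K * M - 2 * S := by
    have : ∀ c, ∑ d ∈ Φ, ∑ w ∈ Φ, (m c d - m c w) ^ 2
        = 2 * K * ∑ d ∈ Φ, m c d ^ 2 - 2 * s c ^ 2 := by
      intro c
      simp only [sub_sq, sum_add_distrib, sum_sub_distrib, sum_const, nsmul_eq_mul, ← mul_sum,
        ← sum_mul, ← hKd]
      simp only [s]; ring
    simp only [this, sum_sub_distrib, ← mul_sum, ← hM, ← hS]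
  have A2 : ∑ c ∈ Φ, ∑ d ∈ Φ, ∑ w ∈ Φ, (m c d - m c w) ^ 2 ≤ (K - 2) * E + 2 * M := by
    have h1 : ∀ c ∈ Φ, ∀ d ∈ Φ, ∀ w ∈ Φ, (m c d - m c w) ^ 2 ≤ e d w
        + (if c = d then m c w ^ 2 - e d w else 0) + (if c = w then m c d ^ 2 - e d w else 0) := by
      intro c hc d hd w hw
      by_cases a : c = d
      · subst a
        by_cases b : c = w
        · subst b; simp [h0, he0]
        · simp [h0, b]
      by_cases b : c = w
      · subst b; simp [h0, a]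
      by_cases a' : d = w
      · subst a'; simp [a, he0]
      simpa [a, b] using hm c hc d hd w hw a b a'
    refine (sum_le_sum fun c hc => sum_le_sum fun d hd => sum_le_sum fun w hw =>
      h1 c hc d hd w hw).trans (le_of_eq ?_)
    simp only [sum_add_distrib]
    have t1 : ∑ c ∈ Φ, ∑ d ∈ Φ, ∑ w ∈ Φ, e d w = K * E := by simp [hKd, hE]
    have t2 : ∑ c ∈ Φ, ∑ d ∈ Φ, ∑ w ∈ Φ, (if c = d then m c w ^ 2 - e d w else 0) = M - E := by
      rw [hM, hE, ← sum_sub_distrib]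
      refine sum_congr rfl fun c hc => ?_
      rw [sum_comm, ← sum_sub_distrib]
      refine sum_congr rfl fun w _ => ?_
      simp [hc]
    have t3 : ∑ c ∈ Φ, ∑ d ∈ Φ, ∑ w ∈ Φ, (if c = w then m c d ^ 2 - e d w else 0) = M - E := by
      rw [hM, hE, sum_comm (f := e), ← sum_sub_distrib]
      refine sum_congr rfl fun c hc => ?_
      rw [← sum_sub_distrib]
      refine sum_congr rfl fun w _ => ?_
      simp [hc]
    rw [t1, t2, t3]; ring
  have A3 : 2 * K * S ≤ (K - 1) ^ 2 * M := by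
    have h1 : ∑ c ∈ Φ, ∑ d ∈ Φ, (if c = d then 4 * s c ^ 2 else 0) ≤
        ∑ c ∈ Φ, ∑ d ∈ Φ, (s c + s d - (K - 1) * m c d) ^ 2 := by
      refine sum_le_sum fun c _ => sum_le_sum fun d _ => ?_
      split_ifs with h
      · subst h; rw [h0]; apply le_of_eq; ring
      · positivity
    have h2 : ∑ c ∈ Φ, ∑ d ∈ Φ, (if c = d then 4 * s c ^ 2 else 0) = 4 * S := by
      rw [hS, mul_sum]
      refine sum_congr rfl fun c hc => by simp [hc]
    have h3 : ∑ c ∈ Φ, ∑ d ∈ Φ, s c * m c d = S := by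
      rw [hS]
      refine sum_congr rfl fun c _ => ?_
      rw [← mul_sum, sq]
    have h4 : ∑ c ∈ Φ, ∑ d ∈ Φ, s d * m c d = S := by
      rw [sum_comm, ← h3]
      refine sum_congr rfl fun c _ => sum_congr rfl fun d _ => by rw [hs]
    have h5 : ∑ c ∈ Φ, ∑ d ∈ Φ, s c * s d = 0 := by
      rw [← sum_mul_sum, hs0, zero_mul]
    have h6 : ∑ c ∈ Φ, ∑ d ∈ Φ, s c ^ 2 = K * S := by
      simp [hKd, hS, mul_sum]
    have h7 : ∑ c ∈ Φ, ∑ d ∈ Φ, s d ^ 2 = K * S := by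
      simp [hKd, hS]
    have h8 : ∑ c ∈ Φ, ∑ d ∈ Φ, (s c + s d - (K - 1) * m c d) ^ 2 =
        ∑ c ∈ Φ, ∑ d ∈ Φ, (s c ^ 2 + s d ^ 2 + 2 * (s c * s d) - 2 * (K - 1) * (s c * m c d)
          - 2 * (K - 1) * (s d * m c d) + (K - 1) ^ 2 * m c d ^ 2) :=
      sum_congr rfl fun c _ => sum_congr rfl fun d _ => by ring
    have h9 : ∀ (a : ℝ) (F : C → C → ℝ), ∑ c ∈ Φ, ∑ d ∈ Φ, a * F c d =
        a * ∑ c ∈ Φ, ∑ d ∈ Φ, F c d := by
      intro a F; simp only [mul_sum]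
    simp only [sum_add_distrib, sum_sub_distrib] at h8
    rw [h9 2, h9 (2 * (K - 1)), h9 (2 * (K - 1)), h9 ((K - 1) ^ 2), h3, h4, h5, h6, h7,
      ← hM] at h8
    rw [h2, h8] at h1
    linarith
  have hpos : 0 < K ^ 2 - 1 := by nlinarith
  have : (K ^ 2 - 1) * M ≤ (K ^ 2 - 1) * E := by nlinarith
  exact le_of_mul_le_mul_left this hpos

end Vale.Agent.P335
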