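import Vale.Agent.P335.PairSys

namespace Vale.Agent.P335

open Finset Equiv

namespace PairSys

variable {X β C : Type*} [Fintype C] [DecidableEq C] (S : PairSys X β C)

/-- key refined by the event that the columns `c, d` can be swapped -/
def kD (c d : C) (x : X) : β × Prop := (S.k x, S.y x c * S.y x d = -1)

lemma kD_eq {c d : C} {x x' : X} : S.kD c d x = S.kD c d x' ↔
    S.k x = S.k x' ∧ (S.y x c * S.y x d = -1 ↔ S.y x' c * S.y x' d = -1) := by
  simp [kD, Prod.ext_iff]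

/-- indicator of swappability -/
noncomputable def ι (c d : C) (x : X) : ℝ := if S.y x c * S.y x d = -1 then 1 else 0

lemma ι_eq (c d : C) (x : X) :
    S.ι c d x = (S.y x c ^ 2 * S.y x d ^ 2 - S.y x c * S.y x d) / 2 := by
  rcases S.h01 x c with a | a | a <;> rcases S.h01 x d with b | b | b <;>
    simp [ι, a, b] <;> norm_num

lemma ι_nonneg (c d : C) (x : X) : 0 ≤ S.ι c d x := by
  unfold ι; split_ifs <;> norm_num

lemma ι_comm (c d : C) (x : X) : S.ι c d x = S.ι d c x := by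
  simp [ι, mul_comm]

lemma ι_self (c : C) (x : X) : S.ι c c x = 0 :=
  if_neg (by nlinarith [mul_self_nonneg (S.y x c)])

lemma ι_σ {x : X} {c d w : C} (hd : S.y x d ≠ 0) (hw : S.y x w ≠ 0) (h1 : c ≠ d) (h2 : c ≠ w) :
    S.ι c d (S.σ d w x) = S.ι c w x ∧ S.ι c w (S.σ d w x) = S.ι c d x := by
  simp only [ι, S.y_σ hd hw, swap_apply_of_ne_of_ne h1 h2, swap_apply_left, swap_apply_right,
    and_self]

lemma ι_sub_sq {x : X} {c d w : C} (hc : S.y x c ≠ 0) (hd : S.y x d ≠ 0) (hw : S.y x w ≠ 0) :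
    (S.ι c d x - S.ι c w x) ^ 2 = S.ι d w x := by
  rcases (S.h01 x c).resolve_left hc with a | a <;> rcases (S.h01 x d).resolve_left hd with b | b <;>
    rcases (S.h01 x w).resolve_left hw with e | e <;> simp only [ι_eq, a, b, e] <;> norm_num

lemma sum_ι (x : X) : ∑ c, ∑ d, S.ι c d x = ((∑ c, S.y x c ^ 2) ^ 2 - (∑ c, S.y x c) ^ 2) / 2 := by
  simp only [ι_eq, sq (∑ c, _), sum_mul_sum, ← sum_div, sum_sub_distrib]

variable [Fintype X]

lemma fib_A (f : X → ℝ) (x0 : X) (c d : C) :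
    ∑ x ∈ fib S.k x0, S.ι c d x * (ce (S.kD c d) f x - ce S.k f x) ^ 2 =
      (∑ x ∈ fib S.k x0, S.ι c d x * (f x - ce S.k f x0)) ^ 2 / ∑ x ∈ fib S.k x0, S.ι c d x := by
  set n := ∑ x ∈ fib S.k x0, S.ι c d x * (f x - ce S.k f x0) with hn
  set δ := ∑ x ∈ fib S.k x0, S.ι c d x with hδ
  have h1 : ∀ x ∈ fib S.k x0, S.ι c d x * (ce (S.kD c d) f x - ce S.k f x) ^ 2 =
      S.ι c d x * (n / δ) ^ 2 := by
    intro x hx
    by_cases hD : S.y x c * S.y x d = -1
    swap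
    · simp [ι, hD]
    congr 2
    have h2 : ∀ F : X → ℝ, ∑ z ∈ fib (S.kD c d) x, F z = ∑ z ∈ fib S.k x0, S.ι c d z * F z := by
      intro F
      simp only [ι, ite_mul, one_mul, zero_mul, ← sum_filter]
      refine sum_congr ?_ fun _ _ => rfl
      ext z
      simp only [mem_fib, mem_filter, kD_eq, hD, mem_fib.1 hx, iff_true]
    have h3 : ((fib (S.kD c d) x).card : ℝ) = δ := by simpa using h2 (fun _ => 1)
    have h4 := card_fib_pos (S.kD c d) x
    rw [ce_congr f (mem_fib.1 hx), ce_apply, hn, h2, h3]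
    rw [h3] at h4
    simp only [mul_sub, sum_sub_distrib, ← sum_mul, ← hδ]
    field_simp
  rw [sum_congr rfl h1, ← sum_mul, ← hδ]
  by_cases h : δ = 0
  · simp [h]
  · field_simp

lemma A_le (f : X → ℝ) :
    ∑ c, ∑ d, ∑ x, S.ι c d x * (ce (S.kD c d) f x - ce S.k f x) ^ 2 ≤
      1 / 4 * ∑ c, ∑ d, ∑ x, (f x - f (S.σ c d x)) ^ 2 := by
  classical
  have sw : ∀ (A : Finset X) (F : C → C → X → ℝ),
      ∑ c, ∑ d, ∑ x ∈ A, F c d x = ∑ x ∈ A, ∑ c, ∑ d, F c d x := by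
    intro A F
    rw [sum_comm (s := A)]
    exact sum_congr rfl fun c _ => sum_comm
  rw [sw, sw, mul_sum]
  refine sum_le_of_fib S.k fun x0 => ?_
  rw [← mul_sum, ← sw, ← sw]
  simp only [fib_A]
  set A := fib S.k x0 with hA
  set μ := ce S.k f x0 with hμ
  let n : C → C → ℝ := fun c d => ∑ x ∈ A, S.ι c d x * (f x - μ)
  let δ : C → C → ℝ := fun c d => ∑ x ∈ A, S.ι c d x
  let e : C → C → ℝ := fun c d => ∑ x ∈ A, (f x - f (S.σ c d x)) ^ 2
  let Φ : Finset C := univ.filter (fun c => S.y x0 c ≠ 0)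
  change ∑ c, ∑ d, n c d ^ 2 / δ c d ≤ 1 / 4 * ∑ c, ∑ d, e c d
  have he : ∀ c d, 0 ≤ e c d := fun c d => sum_nonneg fun x _ => sq_nonneg _
  have hδ : ∀ c d, 0 ≤ δ c d := fun c d => sum_nonneg fun x _ => S.ι_nonneg c d x
  have hfree : ∀ c ∈ Φ, ∀ x ∈ A, S.y x c ≠ 0 := fun c hc x hx =>
    S.free_congr (mem_fib.1 hx).symm (mem_filter.1 hc).2
  have hns : ∀ c d, n c d = n d c := fun c d => by simp only [n, S.ι_comm c d]
  have hδs : ∀ c d, δ c d = δ d c := fun c d => by simp only [δ, S.ι_comm c d]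
  have hn0 : ∀ c, n c c = 0 := fun c => by simp [n, S.ι_self]
  have hn1 : ∀ c d, c ∉ Φ → n c d = 0 := by
    intro c d hc
    refine sum_eq_zero fun x hx => ?_
    have : S.y x c = 0 := by
      by_contra h
      exact hc (mem_filter.2 ⟨mem_univ _, S.free_congr (mem_fib.1 hx) h⟩)
    simp [ι, this]
  have red : ∀ F : C → C → ℝ, (∀ c d, c ∉ Φ → F c d = 0) → (∀ c d, d ∉ Φ → F c d = 0) →
      ∑ c, ∑ d, F c d = ∑ c ∈ Φ, ∑ d ∈ Φ, F c d := by
    intro F h1 h2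
    rw [← sum_subset (subset_univ Φ) (fun c _ hc => sum_eq_zero fun d _ => h1 c d hc)]
    exact sum_congr rfl fun c _ => (sum_subset (subset_univ Φ) (fun d _ hd => h2 c d hd)).symm
  have hRHS : 0 ≤ 1 / 4 * ∑ c, ∑ d, e c d :=
    mul_nonneg (by norm_num) (sum_nonneg fun c _ => sum_nonneg fun d _ => he c d)
  rw [red _ (fun c d hc => by simp [hn1 c d hc]) (fun c d hd => by simp [hns c d, hn1 d c hd])]
  by_cases hex : ∃ c ∈ Φ, ∃ d ∈ Φ, c ≠ d
  swap
  · push Not at hex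
    rw [sum_eq_zero fun c hc => sum_eq_zero fun d hd => by rw [hex c hc d hd, hn0]; simp]
    exact hRHS
  obtain ⟨c0, hc0, d0, hd0, h0⟩ := hex
  have hδ1 : ∀ c, ∀ d ∈ Φ, ∀ w ∈ Φ, c ≠ d → c ≠ w → δ c d = δ c w := by
    intro c d hd w hw h1 h2
    simp only [δ]
    rw [← sum_fib_comp (S.σ_σ d w) (S.hk d w)]
    exact sum_congr rfl fun x hx => (S.ι_σ (hfree d hd x hx) (hfree w hw x hx) h1 h2).1
  have hδ2 : ∀ c ∈ Φ, ∀ d ∈ Φ, c ≠ d → δ c d = δ c0 d0 := by
    intro c hc d hd h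
    by_cases h1 : c = c0
    · subst h1; exact hδ1 c d hd d0 hd0 h h0
    · rw [hδ1 c d hd c0 hc0 h h1, hδs, hδ1 c0 c hc d0 hd0 (Ne.symm h1) h0]
  have h1 : ∑ c ∈ Φ, ∑ d ∈ Φ, n c d ^ 2 / δ c d = (∑ c ∈ Φ, ∑ d ∈ Φ, n c d ^ 2) / δ c0 d0 := by
    simp only [sum_div]
    refine sum_congr rfl fun c hc => sum_congr rfl fun d hd => ?_
    by_cases h : c = d
    · subst h; simp [hn0]
    · rw [hδ2 c hc d hd h]
  rw [h1]
  rcases (hδ c0 d0).lt_or_eq with hp | hp
  swap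
  · rw [← hp, div_zero]; exact hRHS
  have hg : ∑ x ∈ A, (f x - μ) = 0 := by
    rw [sum_sub_distrib, sum_const, nsmul_eq_mul, hμ, ce_apply, ← hA]
    have := card_fib_pos S.k x0
    rw [← hA] at this
    field_simp
    ring
  have h2 := alg_ineq Φ n (fun c d => δ c0 d0 / 4 * e c d) hns hn0 ?_
    (fun c d => mul_nonneg (by positivity) (he c d)) ?_ ?_
  · rw [div_le_iff₀ hp]
    refine h2.trans ?_
    simp only [← mul_sum]
    have : ∑ c ∈ Φ, ∑ d ∈ Φ, e c d ≤ ∑ c, ∑ d, e c d :=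
      (sum_le_sum fun c _ => sum_le_sum_of_subset_of_nonneg (subset_univ Φ)
        fun d _ _ => he c d).trans (sum_le_sum_of_subset_of_nonneg (subset_univ Φ)
        fun c _ _ => sum_nonneg fun d _ => he c d)
    nlinarith
  · rw [← red n hn1 (fun c d hd => by rw [hns, hn1 d c hd])]
    simp only [n]
    rw [sw]
    simp only [← sum_mul, S.sum_ι]
    have : ∀ x ∈ A, ((∑ c, S.y x c ^ 2) ^ 2 - (∑ c, S.y x c) ^ 2) / 2 * (f x - μ) =
        ((∑ c, S.y x0 c ^ 2) ^ 2 - (∑ c, S.y x0 c) ^ 2) / 2 * (f x - μ) := by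
      intro x hx
      simp only [S.hsq x x0 (mem_fib.1 hx), S.hsum x x0 (mem_fib.1 hx)]
    rw [sum_congr rfl this, ← mul_sum, hg, mul_zero]
  · intro c
    have : ∀ x, S.σ c c x = x := fun x =>
      S.hσ0 c c x (by nlinarith [mul_self_nonneg (S.y x c)])
    simp [e, this]
  · intro c hc d hd w hw a1 a2 a3
    have b1 : n c d - n c w = ∑ x ∈ A, (S.ι c d x - S.ι c w x) * (f x - μ) := by
      simp only [n, ← sum_sub_distrib, sub_mul]
    have b2 : n c d - n c w = ∑ x ∈ A, (S.ι c w x - S.ι c d x) * (f (S.σ d w x) - μ) := by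
      rw [b1, ← sum_fib_comp (S.σ_σ d w) (S.hk d w)]
      refine sum_congr rfl fun x hx => ?_
      obtain ⟨u1, u2⟩ := S.ι_σ (hfree d hd x hx) (hfree w hw x hx) a1 a2
      rw [u1, u2]
    have b3 : 2 * (n c d - n c w) = ∑ x ∈ A, (S.ι c d x - S.ι c w x) * (f x - f (S.σ d w x)) := by
      rw [two_mul]
      nth_rewrite 1 [b1, b2]
      rw [← sum_add_distrib]
      exact sum_congr rfl fun x _ => by ring
    have b4 := sum_mul_sq_le_sq_mul_sq A (fun x => S.ι c d x - S.ι c w x)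
      (fun x => f x - f (S.σ d w x))
    rw [← b3, sum_congr rfl (fun x hx =>
      S.ι_sub_sq (hfree c hc x hx) (hfree d hd x hx) (hfree w hw x hx))] at b4
    have b5 := hδ2 d hd w hw a3
    simp only [δ] at b5
    rw [b5] at b4
    simp only [e, δ]
    nlinarith

end PairSys

end Vale.Agent.P335
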