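import Vale.Agent.P335.Pair

namespace Vale.Agent.P335

open Finset Equiv

/-- abstract two-row system -/
structure PairSys (X β C : Type*) [Fintype C] [DecidableEq C] where
  k : X → β
  y : X → C → ℝ
  σ : C → C → X → X
  h01 : ∀ x c, y x c = 0 ∨ y x c = 1 ∨ y x c = -1
  hsq : ∀ x x', k x = k x' → ∀ c, y x c ^ 2 = y x' c ^ 2
  hsum : ∀ x x', k x = k x' → ∑ c, y x c = ∑ c, y x' c
  hinj : ∀ x x', k x = k x' → y x = y x' → x = x'
  hk : ∀ c d x, k (σ c d x) = k x
  hσ1 : ∀ c d x, y x c * y x d = -1 → ∀ e, y (σ c d x) e = y x (swap c d e)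
  hσ0 : ∀ c d x, y x c * y x d ≠ -1 → σ c d x = x

namespace PairSys

variable {X β C : Type*} [Fintype C] [DecidableEq C] (S : PairSys X β C)

lemma free_congr {x x' : X} (h : S.k x = S.k x') {c : C} (hc : S.y x c ≠ 0) : S.y x' c ≠ 0 := by
  intro h0
  have := S.hsq x x' h c
  rw [h0] at this
  exact hc (by simpa using this)

lemma y_σ {x : X} {c d : C} (hc : S.y x c ≠ 0) (hd : S.y x d ≠ 0) (e : C) :
    S.y (S.σ c d x) e = S.y x (swap c d e) := by
  by_cases h : S.y x c * S.y x d = -1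
  · exact S.hσ1 c d x h e
  · rw [S.hσ0 c d x h]
    have : S.y x c = S.y x d := by
      rcases S.h01 x c with a | a | a <;> rcases S.h01 x d with b | b | b <;>
        simp_all
    by_cases h1 : e = c
    · subst h1; rw [swap_apply_left, this]
    by_cases h2 : e = d
    · subst h2; rw [swap_apply_right, this]
    rw [swap_apply_of_ne_of_ne h1 h2]

lemma σ_σ (c d : C) (x : X) : S.σ c d (S.σ c d x) = x := by
  by_cases h : S.y x c * S.y x d = -1
  · have h' : S.y (S.σ c d x) c * S.y (S.σ c d x) d = -1 := by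
      rw [S.hσ1 c d x h, S.hσ1 c d x h, swap_apply_left, swap_apply_right, mul_comm, h]
    refine S.hinj _ _ (by rw [S.hk, S.hk]) ?_
    funext e
    rw [S.hσ1 c d _ h', S.hσ1 c d x h, swap_apply_self]
  · rw [S.hσ0 c d x h, S.hσ0 c d x h]

lemma σ_comm (c d : C) (x : X) : S.σ c d x = S.σ d c x := by
  by_cases h : S.y x c * S.y x d = -1
  · refine S.hinj _ _ (by rw [S.hk, S.hk]) ?_
    funext e
    rw [S.hσ1 c d _ h, S.hσ1 d c x (by rw [mul_comm, h]), swap_comm]
  · rw [S.hσ0 c d x h, S.hσ0 d c x (by rwa [mul_comm])]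

lemma D_σ (c d : C) (x : X) :
    S.y (S.σ c d x) c * S.y (S.σ c d x) d = S.y x c * S.y x d := by
  by_cases h : S.y x c * S.y x d = -1
  · rw [S.hσ1 c d x h, S.hσ1 c d x h, swap_apply_left, swap_apply_right, mul_comm]
  · rw [S.hσ0 c d x h]

lemma meas_of_inv {F : X → ℝ} (hF : ∀ c d x, F (S.σ c d x) = F x) :
    ∀ x x', S.k x = S.k x' → F x = F x' :=
  conn S.h01 S.hsq S.hsum S.hinj fun x c d hc hd =>
    ⟨S.σ c d x, S.hk c d x, S.hσ1 c d x (by rw [hc, hd]; ring), hF c d x⟩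

lemma sum_conj (f : X → ℝ) (c0 d0 : C) (x : X) :
    ∑ c, ∑ d, f (S.σ c d (S.σ c0 d0 x)) = ∑ c, ∑ d, f (S.σ c0 d0 (S.σ c d x)) := by
  by_cases h : S.y x c0 ≠ 0 ∧ S.y x d0 ≠ 0
  · have key : ∀ c d, S.σ c d (S.σ c0 d0 x) =
        S.σ c0 d0 (S.σ (swap c0 d0 c) (swap c0 d0 d) x) := by
      intro c d
      by_cases h1 : S.y x (swap c0 d0 c) * S.y x (swap c0 d0 d) = -1
      · have h2 : S.y (S.σ c0 d0 x) c * S.y (S.σ c0 d0 x) d = -1 := by
          rw [S.y_σ h.1 h.2, S.y_σ h.1 h.2, h1]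
        refine S.hinj _ _ (by simp only [S.hk]) ?_
        funext e
        rw [S.hσ1 c d _ h2, S.y_σ h.1 h.2,
          S.y_σ (S.free_congr (S.hk _ _ _).symm h.1) (S.free_congr (S.hk _ _ _).symm h.2),
          S.hσ1 _ _ _ h1, Function.Injective.swap_apply (swap c0 d0).injective]
      · have h2 : S.y (S.σ c0 d0 x) c * S.y (S.σ c0 d0 x) d ≠ -1 := by
          rw [S.y_σ h.1 h.2, S.y_σ h.1 h.2]; exact h1
        rw [S.hσ0 _ _ _ h1, S.hσ0 _ _ _ h2]
    simp only [key]
    rw [← Equiv.sum_comp (swap c0 d0) (fun c => ∑ d, f (S.σ c0 d0 (S.σ c d x)))]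
    refine sum_congr rfl fun c _ => ?_
    exact Equiv.sum_comp (swap c0 d0) (fun d => f (S.σ c0 d0 (S.σ (swap c0 d0 c) d x)))
  · have key : ∀ z, S.k z = S.k x → S.σ c0 d0 z = z := by
      intro z hz
      refine S.hσ0 _ _ _ fun h1 => h ⟨S.free_congr hz ?_, S.free_congr hz ?_⟩
      · intro h2; rw [h2] at h1; norm_num at h1
      · intro h2; rw [h2] at h1; norm_num at h1
    simp only [key x rfl, key _ (S.hk _ _ x)]

/-- the swap Laplacian -/
def lap : (X → ℝ) →ₗ[ℝ] (X → ℝ) where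
  toFun f x := ∑ c, ∑ d, (f x - f (S.σ c d x))
  map_add' f g := by
    funext x
    simp only [Pi.add_apply, ← sum_add_distrib]
    exact sum_congr rfl fun _ _ => sum_congr rfl fun _ _ => by ring
  map_smul' a f := by
    funext x
    simp only [Pi.smul_apply, smul_eq_mul, RingHom.id_apply, mul_sum, mul_sub]

lemma lap_apply (f : X → ℝ) (x : X) : S.lap f x = ∑ c, ∑ d, (f x - f (S.σ c d x)) := rfl

variable [Fintype X]

lemma dot_lap (f g : X → ℝ) : 2 * (f ⬝ᵥ S.lap g) =
    ∑ c, ∑ d, ∑ x, (f x - f (S.σ c d x)) * (g x - g (S.σ c d x)) := by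
  simp only [dotProduct, lap_apply, mul_sum]
  rw [sum_comm]
  refine sum_congr rfl fun c _ => ?_
  rw [sum_comm]
  refine sum_congr rfl fun d _ => ?_
  have := sum_comp_invol (S.σ_σ c d) (fun x => f x * (g x - g (S.σ c d x)))
  simp only [S.σ_σ] at this
  rw [← mul_sum, two_mul]
  nth_rewrite 2 [← this]
  rw [← sum_add_distrib]
  exact sum_congr rfl fun x _ => by ring

lemma lap_symm (f g : X → ℝ) : S.lap f ⬝ᵥ g = f ⬝ᵥ S.lap g := by
  have h1 := S.dot_lap f g
  have h2 := S.dot_lap g f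
  simp only [mul_comm (g _ - g _)] at h2
  rw [dotProduct_comm]
  linarith

lemma inv_of_lap {F : X → ℝ} (hF : S.lap F = 0) (c d : C) (x : X) : F (S.σ c d x) = F x := by
  have h := S.dot_lap F F
  rw [hF, dotProduct_zero, mul_zero] at h
  have h1 := (sum_eq_zero_iff_of_nonneg (fun c _ => sum_nonneg fun d _ => sum_nonneg
    fun x _ => mul_self_nonneg _)).1 h.symm c (mem_univ _)
  have h2 := (sum_eq_zero_iff_of_nonneg (fun d _ => sum_nonneg
    fun x _ => mul_self_nonneg _)).1 h1 d (mem_univ _)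
  have h3 := (sum_eq_zero_iff_of_nonneg (fun x _ => mul_self_nonneg _)).1 h2 x (mem_univ _)
  have := mul_self_eq_zero.1 h3
  linarith

lemma lap_ev (μ : ℝ) (F : X → ℝ) (hF : F ≠ 0) (h : S.lap F = μ • F) : μ = 0 ∨ 4 ≤ μ := by
  by_cases hi : ∀ c d x, F (S.σ c d x) = F x
  · left
    have : S.lap F = 0 := by
      funext x; simp [lap_apply, hi]
    rw [this] at h
    exact (smul_eq_zero.1 h.symm).resolve_right hF
  right
  push Not at hi
  obtain ⟨c, d, x, hx⟩ := hi
  let g : X → ℝ := fun z => F z - F (S.σ c d z)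
  have hg : g ≠ 0 := fun h0 => hx (by have := congrFun h0 x; simp only [g, Pi.zero_apply] at this; linarith)
  have hcd : c ≠ d := by
    rintro rfl
    apply hx
    rw [S.hσ0 c c x (by nlinarith [mul_self_nonneg (S.y x c)])]
  have hL : S.lap g = μ • g := by
    funext z
    have a := congrFun h z
    have b := congrFun h (S.σ c d z)
    simp only [lap_apply, Pi.smul_apply, smul_eq_mul, g, sum_sub_distrib] at a b ⊢
    rw [S.sum_conj F c d z] at b
    linarith
  have h1 := S.dot_lap g g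
  rw [hL, dotProduct_smul, smul_eq_mul] at h1
  have h2 : ∀ c' d', (∀ z, S.σ c' d' z = S.σ c d z) →
      ∑ x, (g x - g (S.σ c' d' x)) * (g x - g (S.σ c' d' x)) = 4 * (g ⬝ᵥ g) := by
    intro c' d' hh
    simp only [dotProduct, mul_sum, hh, g, S.σ_σ]
    exact sum_congr rfl fun x _ => by ring
  have h3 : 4 * (g ⬝ᵥ g) + 4 * (g ⬝ᵥ g) ≤
      ∑ c, ∑ d, ∑ x, (g x - g (S.σ c d x)) * (g x - g (S.σ c d x)) := by
    have nn : ∀ c d, 0 ≤ ∑ x, (g x - g (S.σ c d x)) * (g x - g (S.σ c d x)) :=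
      fun c d => sum_nonneg fun x _ => mul_self_nonneg _
    refine le_trans (add_le_add ?_ ?_) (add_le_sum (fun c _ => sum_nonneg fun d _ => nn c d)
      (mem_univ c) (mem_univ d) hcd)
    · rw [← h2 c d fun _ => rfl]
      exact single_le_sum (fun d _ => nn c d) (mem_univ d)
    · rw [← h2 d c fun z => S.σ_comm d c z]
      exact single_le_sum (fun c _ => nn d c) (mem_univ c)
  have h4 := dot_self_pos hg
  by_contra hh
  have := mul_pos (sub_pos.2 (not_le.1 hh)) h4
  nlinarith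

/-- comparison of the swap Dirichlet form with the heat bath -/
lemma heat_le (f : X → ℝ) : 8 * ((f - ce S.k f) ⬝ᵥ (f - ce S.k f)) ≤
    ∑ c, ∑ d, ∑ x, (f x - f (S.σ c d x)) ^ 2 := by
  have h := gap_perp S.lap S.lap_symm 4 S.lap_ev (f - ce S.k f) (by
    intro F hF
    have : ce S.k F = F := ce_of_meas (S.meas_of_inv (S.inv_of_lap hF))
    rw [dotProduct_sub, ← ce_symm, this, sub_self])
  have h1 := S.dot_lap (f - ce S.k f) (f - ce S.k f)
  have h2 : ∀ c d x, (f - ce S.k f) x - (f - ce S.k f) (S.σ c d x) = f x - f (S.σ c d x) := by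
    intro c d x
    simp only [Pi.sub_apply]
    rw [ce_congr f (S.hk c d x)]; ring
  simp only [h2, ← sq] at h1
  linarith

end PairSys

end Vale.Agent.P335
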