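import Vale.Agent.P335.Three2
import Vale.Agent.P335.PairA

namespace Vale.Agent.P335

open Finset

variable {X β β' : Type*} [Fintype X]

/-- complement of the heat bath projection -/
noncomputable def hb (k : X → β) : (X → ℝ) →ₗ[ℝ] (X → ℝ) := LinearMap.id - ce k

lemma hb_apply (k : X → β) (f : X → ℝ) : hb k f = f - ce k f := rfl

lemma hb_symm (k : X → β) (f g : X → ℝ) : hb k f ⬝ᵥ g = f ⬝ᵥ hb k g := by
  rw [hb_apply, hb_apply, sub_dotProduct, dotProduct_sub, ce_symm]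

lemma hb_idem (k : X → β) (f : X → ℝ) : hb k (hb k f) = hb k f := by
  simp only [hb_apply, map_sub, ce_idem, sub_self, sub_zero]

lemma dot_hb (k : X → β) (f : X → ℝ) : f ⬝ᵥ hb k f = hb k f ⬝ᵥ hb k f := by
  rw [hb_symm, hb_idem]

lemma ce_key_congr {k : X → β} {k' : X → β'} (h : ∀ x y, k x = k y ↔ k' x = k' y) :
    ce k = ce k' := by
  refine LinearMap.ext fun f => funext fun x => ?_
  have : fib k x = fib k' x := by ext y; simp [mem_fib, h]
  rw [ce_apply, ce_apply, this]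

lemma proj_comm (A B : (X → ℝ) →ₗ[ℝ] (X → ℝ)) (sA : ∀ f g, A f ⬝ᵥ g = f ⬝ᵥ A g)
    (sB : ∀ f g, B f ⬝ᵥ g = f ⬝ᵥ B g) (iA : ∀ f, A (A f) = A f) (iB : ∀ f, B (B f) = B f)
    (c : ∀ f, A (B f) = B (A f)) (f : X → ℝ) : A f ⬝ᵥ B f = A (B f) ⬝ᵥ A (B f) := by
  rw [sA (B f), iA, c, ← sB (B f), iB, dotProduct_comm]

lemma quad {β1 β2 β3 β4 : Type*} {k1 : X → β1} {k2 : X → β2} {q1 : X → β3} {q2 : X → β4}
    (h1 : ∀ x y, q1 x = q1 y → k1 x = k1 y)
    (c1 : ∀ f, ce q1 (ce k2 f) = ce k2 (ce q1 f)) (c2 : ∀ f, ce q2 (ce k1 f) = ce k1 (ce q2 f))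
    (c3 : ∀ f, ce q1 (ce q2 f) = ce q2 (ce q1 f)) {s : X → X} (hs : ∀ x, s (s x) = x)
    (s1 : ∀ x, q1 (s x) = q1 x) (s2 : ∀ x, k2 (s x) = k2 x) (f : X → ℝ) (ι : X → ℝ)
    (hι : ∀ x, ι x = 1 ∨ (ι x = 0 ∧ (ce q1 f x = ce k1 f x ∨ ce q2 f x = ce k2 f x))) :
    1 / 4 * ∑ x, (f x - f (s x)) ^ 2 - 1 / 2 * (∑ x, ι x * (ce q1 f x - ce k1 f x) ^ 2
      + ∑ x, ι x * (ce q2 f x - ce k2 f x) ^ 2) ≤ hb k1 f ⬝ᵥ hb k2 f := by
  have e1 : hb k1 f ⬝ᵥ hb k2 f = hb q1 f ⬝ᵥ hb k2 f + (ce q1 - ce k1) f ⬝ᵥ hb q2 f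
      + (ce q1 f - ce k1 f) ⬝ᵥ (ce q2 f - ce k2 f) := by
    simp only [hb_apply, LinearMap.sub_apply, sub_dotProduct, dotProduct_sub]
    ring
  have t1 : 1 / 4 * ∑ x, (f x - f (s x)) ^ 2 ≤ hb q1 f ⬝ᵥ hb k2 f := by
    rw [proj_comm _ _ (hb_symm q1) (hb_symm k2) (hb_idem q1) (hb_idem k2)
      (fun f => by simp only [hb_apply, map_sub, c1]; abel)]
    let v : X → ℝ := (1 / 2 : ℝ) • (f - fun x => f (s x))
    have v1 : hb q1 v = v := by
      simp only [v, hb_apply, map_smul, map_sub, ce_comp hs s1, sub_sub_sub_cancel_right]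
    have v2 : hb k2 v = v := by
      simp only [v, hb_apply, map_smul, map_sub, ce_comp hs s2, sub_sub_sub_cancel_right]
    have v3 : v ⬝ᵥ v = 1 / 4 * ∑ x, (f x - f (s x)) ^ 2 := by
      simp only [v, dotProduct, mul_sum, Pi.smul_apply, Pi.sub_apply, smul_eq_mul]
      exact sum_congr rfl fun x _ => by ring
    have v4 : f ⬝ᵥ v = 1 / 4 * ∑ x, (f x - f (s x)) ^ 2 := by
      have := sum_comp_invol hs (fun x => f x * (f x - f (s x)))
      simp only [hs] at this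
      have h2 : ∑ x, (f x - f (s x)) ^ 2 =
          ∑ x, f x * (f x - f (s x)) + ∑ x, f (s x) * (f (s x) - f x) := by
        rw [← sum_add_distrib]
        exact sum_congr rfl fun x _ => by ring
      rw [h2, this]
      simp only [v, dotProduct, Pi.smul_apply, Pi.sub_apply, smul_eq_mul]
      rw [← two_mul, ← mul_assoc, mul_sum]
      exact sum_congr rfl fun x _ => by ring
    have v5 : hb q1 (hb k2 f) ⬝ᵥ v = f ⬝ᵥ v := by rw [hb_symm, v1, hb_symm, v2]
    have := dot_self_nonneg (hb q1 (hb k2 f) - v)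
    simp only [sub_dotProduct, dotProduct_sub] at this
    rw [dotProduct_comm v (hb q1 _), v5, v3, v4] at this
    linarith
  have t2 : 0 ≤ (ce q1 - ce k1) f ⬝ᵥ hb q2 f := by
    rw [proj_comm _ _ ?_ (hb_symm q2) ?_ (hb_idem q2) ?_]
    · exact dot_self_nonneg _
    · intro f g
      simp only [LinearMap.sub_apply, sub_dotProduct, dotProduct_sub, ce_symm]
    · intro f
      simp only [LinearMap.sub_apply, map_sub, ce_idem, ce_finer h1, ce_coarser h1, sub_self,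
        sub_zero]
    · intro f
      simp only [hb_apply, LinearMap.sub_apply, map_sub, c2, c3]
      abel
  have t3 : -(1 / 2 * (∑ x, ι x * (ce q1 f x - ce k1 f x) ^ 2
      + ∑ x, ι x * (ce q2 f x - ce k2 f x) ^ 2)) ≤ (ce q1 f - ce k1 f) ⬝ᵥ (ce q2 f - ce k2 f) := by
    rw [← sum_add_distrib, mul_sum, ← sum_neg_distrib, dotProduct]
    refine sum_le_sum fun x _ => ?_
    simp only [Pi.sub_apply]
    rcases hι x with h | ⟨h, h' | h'⟩
    · rw [h]; nlinarith [sq_nonneg (ce q1 f x - ce k1 f x + (ce q2 f x - ce k2 f x))]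
    · simp [h, h']
    · simp [h, h']
  linarith

lemma TriSys.tri_nonneg {C : Type*} [Fintype C] [DecidableEq C] (S : TriSys X β C) (f : X → ℝ) :
    0 ≤ hb (S.kr 0) f ⬝ᵥ hb (S.kr 1) f + hb (S.kr 0) f ⬝ᵥ hb (S.kr 2) f
      + hb (S.kr 1) f ⬝ᵥ hb (S.kr 2) f := by
  have h := gap_sq (hb (S.kr 0) + hb (S.kr 1) + hb (S.kr 2)) (by
    intro f g
    simp only [LinearMap.add_apply, add_dotProduct, dotProduct_add, hb_symm]) 1 zero_le_one (by
    intro μ F hF hμ
    have := S.three_ev (3 - μ) F hF (by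
      rw [Fin.sum_univ_three, sub_smul, ← hμ]
      simp only [LinearMap.add_apply, hb_apply]
      funext x
      simp only [Pi.add_apply, Pi.sub_apply, Pi.smul_apply, smul_eq_mul]
      ring)
    rcases this with h | h
    · right; linarith
    · left; linarith) f
  simp only [LinearMap.add_apply, add_dotProduct, dotProduct_add, dot_hb] at h
  rw [dotProduct_comm (hb (S.kr 1) f) (hb (S.kr 0) f), dotProduct_comm (hb (S.kr 2) f) (hb (S.kr 0) f),
    dotProduct_comm (hb (S.kr 2) f) (hb (S.kr 1) f)] at h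
  linarith

end Vale.Agent.P335
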