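import Vale.Agent.P335.Pair

namespace Vale.Agent.P335

open Finset Equiv

lemma cases3 {i j l : Fin 3} (h1 : i ≠ j) (h2 : i ≠ l) (h3 : j ≠ l) (r : Fin 3) :
    r = i ∨ r = j ∨ r = l := by
  revert i j l r; decide

lemma sum3 {i j l : Fin 3} (h1 : i ≠ j) (h2 : i ≠ l) (h3 : j ≠ l) (a : Fin 3 → ℝ) :
    ∑ r, a r = a i + a j + a l := by
  have : (univ : Finset (Fin 3)) = {i, j, l} := by
    ext r; simpa using cases3 h1 h2 h3 r
  rw [this, sum_insert (by simp [h1, h2]), sum_pair h3, add_assoc]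

lemma exists3 (i : Fin 3) : ∃ j l, i ≠ j ∧ i ≠ l ∧ j ≠ l := by
  revert i; decide

lemma contract {I : Type*} [Finite I] (P : I → Prop) (v : I → ℝ) (lam : ℝ) (h1 : 1 < lam)
    (h : ∀ B, 0 ≤ B → (∀ i, P i → |v i| ≤ B) → ∀ i, P i → lam * |v i| ≤ B) :
    ∀ i, P i → v i = 0 := by
  intro i0 hi0
  have : Nonempty {i // P i} := ⟨⟨i0, hi0⟩⟩
  obtain ⟨m, hm⟩ := Finite.exists_max (fun i : {i // P i} => |v i.1|)
  have h2 := h _ (abs_nonneg _) (fun i hi => hm ⟨i, hi⟩) m.1 m.2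
  have h3 : |v m.1| ≤ 0 := by nlinarith [abs_nonneg (v m.1)]
  exact abs_nonpos_iff.1 ((hm ⟨i0, hi0⟩).trans h3)

lemma matched {X : Type*} (A B : Finset X) (r : X → X → Prop) (g : X → ℝ) (ε : ℝ)
    (h1 : ∀ a ∈ A, ∃ b ∈ B, r a b) (h2 : ∀ b ∈ B, ∃ a ∈ A, r a b)
    (u1 : ∀ a ∈ A, ∀ b ∈ B, ∀ b' ∈ B, r a b → r a b' → b = b')
    (u2 : ∀ a ∈ A, ∀ a' ∈ A, ∀ b ∈ B, r a b → r a' b → a = a')
    (hg : ∀ a ∈ A, ∀ b ∈ B, r a b → |g a - g b| ≤ ε) :
    (A.card : ℝ) = B.card ∧ |∑ a ∈ A, g a - ∑ b ∈ B, g b| ≤ ε * A.card := by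
  choose! φ hφ1 hφ2 using h1
  have key : ∀ F : X → ℝ, ∑ a ∈ A, F (φ a) = ∑ b ∈ B, F b := by
    intro F
    refine sum_bij (fun a _ => φ a) hφ1 ?_ ?_ (fun _ _ => rfl)
    · intro a ha a' ha' h
      exact u2 a ha a' ha' (φ a) (hφ1 a ha) (hφ2 a ha) (h ▸ hφ2 a' ha')
    · intro b hb
      obtain ⟨a, ha, hr⟩ := h2 b hb
      exact ⟨a, ha, u1 a ha _ (hφ1 a ha) b hb (hφ2 a ha) hr⟩
  refine ⟨by simpa using key (fun _ => 1), ?_⟩
  rw [← key, ← sum_sub_distrib]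
  refine (abs_sum_le_sum_abs _ _).trans ?_
  rw [mul_comm, ← nsmul_eq_mul]
  exact sum_le_card_nsmul _ _ _ fun a ha => hg a ha _ (hφ1 a ha) (hφ2 a ha)

/-- abstract three-row system -/
structure TriSys (X β C : Type*) [Fintype C] [DecidableEq C] where
  k : X → β
  M : X → Fin 3 → C → ℝ
  h01 : ∀ x i c, M x i c = 0 ∨ M x i c = 1
  hcol : ∀ x x', k x = k x' → ∀ c, ∑ i, M x i c = ∑ i, M x' i c
  hrow : ∀ x x', k x = k x' → ∀ i, ∑ c, M x i c = ∑ c, M x' i c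
  hinj : ∀ x x', k x = k x' → M x = M x' → x = x'
  hsw : ∀ x i j l c d, i ≠ j → i ≠ l → j ≠ l →
    M x i c = 1 → M x i d = 0 → M x j c = 0 → M x j d = 1 →
    ∃ x', k x' = k x ∧ (∀ e, M x' i e = M x i (swap c d e)) ∧
      (∀ e, M x' j e = M x j (swap c d e)) ∧ ∀ e, M x' l e = M x l e

namespace TriSys

variable {X β C : Type*} [Fintype C] [DecidableEq C] (S : TriSys X β C)

/-- key of a row -/
def kr (i : Fin 3) (x : X) : β × (C → ℝ) := (S.k x, S.M x i)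

lemma kr_eq {i : Fin 3} {x x' : X} :
    S.kr i x = S.kr i x' ↔ S.k x = S.k x' ∧ ∀ e, S.M x i e = S.M x' i e := by
  simp [kr, Prod.ext_iff, funext_iff]

/-- one-column exchange in a row -/
def Ex (i : Fin 3) (x x' : X) (w w' : C) : Prop :=
  S.k x = S.k x' ∧ S.M x i w = 1 ∧ S.M x i w' = 0 ∧ ∀ e, S.M x' i e = S.M x i (swap w w' e)

/-- column sum -/
def γ (x : X) (c : C) : ℝ := ∑ i, S.M x i c

lemma Ex_symm {i : Fin 3} {x x' : X} {w w' : C} (h : S.Ex i x x' w w') : S.Ex i x' x w' w := by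
  obtain ⟨h1, h2, h3, h4⟩ := h
  refine ⟨h1.symm, by rw [h4, swap_apply_right, h2], by rw [h4, swap_apply_left, h3], fun e => ?_⟩
  rw [h4, swap_comm, swap_apply_self]

lemma inj3 {i j l : Fin 3} (h1 : i ≠ j) (h2 : i ≠ l) (h3 : j ≠ l) {x x' : X} (hk : S.k x = S.k x')
    (a : ∀ e, S.M x i e = S.M x' i e) (b : ∀ e, S.M x j e = S.M x' j e)
    (c : ∀ e, S.M x l e = S.M x' l e) : x = x' := by
  refine S.hinj x x' hk ?_
  funext r e
  rcases cases3 h1 h2 h3 r with h | h | h <;> subst h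
  exacts [a e, b e, c e]

lemma same_cases {i j l : Fin 3} (h1 : i ≠ j) (h2 : i ≠ l) (h3 : j ≠ l) {z : X} {w w' : C}
    (a : S.M z i w = 1) (b : S.M z i w' = 0) (hγ : S.γ z w = S.γ z w') :
    (S.M z j w = 0 ∧ S.M z j w' = 1 ∧ S.M z l w = S.M z l w') ∨
      (S.M z l w = 0 ∧ S.M z l w' = 1 ∧ S.M z j w = S.M z j w') := by
  simp only [γ, sum3 h1 h2 h3, a, b] at hγ
  rcases S.h01 z j w with p | p <;> rcases S.h01 z j w' with q | q <;>
    rcases S.h01 z l w with r | r <;> rcases S.h01 z l w' with s | s <;>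
    first | (exfalso; linarith) | simp [p, q, r, s]

lemma same_sw {i : Fin 3} {z : X} {w w' : C}
    (a : S.M z i w = 1) (b : S.M z i w' = 0) (hγ : S.γ z w = S.γ z w') :
    ∃ z', S.k z' = S.k z ∧ ∀ r e, S.M z' r e = S.M z r (swap w w' e) := by
  obtain ⟨j, l, h1, h2, h3⟩ := exists3 i
  rcases S.same_cases h1 h2 h3 a b hγ with ⟨p, q, s⟩ | ⟨p, q, s⟩
  · obtain ⟨z', k1, m1, m2, m3⟩ := S.hsw z i j l w w' h1 h2 h3 a b p q
    refine ⟨z', k1, fun r e => ?_⟩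
    rcases cases3 h1 h2 h3 r with h | h | h <;> subst h
    exacts [m1 e, m2 e, by rw [m3, apply_swap_eq_self s]]
  · obtain ⟨z', k1, m1, m2, m3⟩ := S.hsw z i l j w w' h2 h1 h3.symm a b p q
    refine ⟨z', k1, fun r e => ?_⟩
    rcases cases3 h1 h2 h3 r with h | h | h <;> subst h
    exacts [m1 e, by rw [m3, apply_swap_eq_self s], m2 e]

open Classical in
/-- number of columns with a one in row `j` and a zero in row `l` -/
noncomputable def cnt (j l : Fin 3) (z : X) : ℝ :=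
  ∑ u, if S.M z j u = 1 ∧ S.M z l u = 0 then 1 else 0

lemma cnt_congr {i j l : Fin 3} (h1 : i ≠ j) (h2 : i ≠ l) (h3 : j ≠ l) {z z' : X}
    (h : S.kr i z = S.kr i z') : S.cnt j l z = S.cnt j l z' := by
  have key : ∀ z, S.cnt j l z = (∑ u, (S.γ z u - S.M z i u) * (2 - (S.γ z u - S.M z i u))
      + ∑ u, S.M z j u - ∑ u, S.M z l u) / 2 := by
    intro z
    rw [cnt, ← sum_add_distrib, ← sum_sub_distrib, sum_div]
    refine sum_congr rfl fun u _ => ?_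
    have : S.γ z u - S.M z i u = S.M z j u + S.M z l u := by
      simp only [γ, sum3 h1 h2 h3]; ring
    rw [this]
    rcases S.h01 z j u with p | p <;> rcases S.h01 z l u with q | q <;> simp [p, q] <;> norm_num
  obtain ⟨a, b⟩ := S.kr_eq.1 h
  rw [key, key, S.hrow z z' a j, S.hrow z z' a l]
  simp only [γ, S.hcol z z' a, b]

variable [Fintype X] {f : Fin 3 → X → ℝ}

lemma step_same (hf : ∀ r z z', S.kr r z = S.kr r z' → f r z = f r z') {B : ℝ}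
    (hB : ∀ r z z' u u', S.Ex r z z' u u' → S.γ z u = S.γ z u' → |f r z - f r z'| ≤ B)
    {i j l : Fin 3} (h1 : i ≠ j) (h2 : i ≠ l) (h3 : j ≠ l) {x x' : X} {w w' : C}
    (hx : S.Ex i x x' w w') (hγ : S.γ x w = S.γ x w') :
    |ce (S.kr i) (f j + f l) x - ce (S.kr i) (f j + f l) x'| ≤ B := by
  obtain ⟨e1, e2, e3, e4⟩ := hx
  have H := matched (fib (S.kr i) x) (fib (S.kr i) x')
    (fun z z' => ∀ r e, S.M z' r e = S.M z r (swap w w' e)) (f j + f l) B ?_ ?_ ?_ ?_ ?_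
  · obtain ⟨c1, c2⟩ := H
    have hp := card_fib_pos (S.kr i) x
    rw [ce_apply, ce_apply, ← c1, ← sub_div, abs_div, abs_of_pos hp, div_le_iff₀ hp]
    exact c2
  · intro z hz
    obtain ⟨a, b⟩ := S.kr_eq.1 (mem_fib.1 hz)
    obtain ⟨z', k1, m⟩ := S.same_sw (i := i) (z := z) (w := w) (w' := w') (by rw [b, e2])
      (by rw [b, e3]) (by simpa only [γ, S.hcol z x a] using hγ)
    exact ⟨z', mem_fib.2 (S.kr_eq.2 ⟨k1.trans (a.trans e1), fun e => by rw [m, b, e4]⟩), m⟩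
  · intro z' hz
    obtain ⟨a, b⟩ := S.kr_eq.1 (mem_fib.1 hz)
    obtain ⟨z, k1, m⟩ := S.same_sw (i := i) (z := z') (w := w') (w' := w)
      (by rw [b, e4, swap_apply_right, e2]) (by rw [b, e4, swap_apply_left, e3])
      (by simpa only [γ, S.hcol z' x (a.trans e1.symm)] using hγ.symm)
    refine ⟨z, mem_fib.2 (S.kr_eq.2 ⟨k1.trans (a.trans e1.symm), fun e => ?_⟩), fun r e => ?_⟩
    · rw [m, b, e4, swap_comm, swap_apply_self]
    · rw [m, swap_comm, swap_apply_self]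
  · intro z _ b hb b' hb' r1 r2
    refine S.hinj _ _ ((S.kr_eq.1 (mem_fib.1 hb)).1.trans (S.kr_eq.1 (mem_fib.1 hb')).1.symm) ?_
    funext r e; rw [r1, r2]
  · intro a ha a' ha' b _ r1 r2
    refine S.hinj _ _ ((S.kr_eq.1 (mem_fib.1 ha)).1.trans (S.kr_eq.1 (mem_fib.1 ha')).1.symm) ?_
    funext r e
    have := (r1 r (swap w w' e)).symm.trans (r2 r (swap w w' e))
    simpa using this
  · intro z hz z' hz' m
    obtain ⟨a, b⟩ := S.kr_eq.1 (mem_fib.1 hz)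
    obtain ⟨a', -⟩ := S.kr_eq.1 (mem_fib.1 hz')
    have kk : S.k z = S.k z' := a.trans (e1.trans a'.symm)
    have g0 : S.γ z w = S.γ z w' := by simpa only [γ, S.hcol z x a] using hγ
    simp only [Pi.add_apply]
    rcases S.same_cases h1 h2 h3 (z := z) (w := w) (w' := w') (by rw [b, e2]) (by rw [b, e3]) g0
      with ⟨p, q, s⟩ | ⟨p, q, s⟩
    · rw [hf l z z' (S.kr_eq.2 ⟨kk, fun e => by rw [m, apply_swap_eq_self s]⟩),
        add_sub_add_right_eq_sub]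
      exact hB j z z' w' w ⟨kk, q, p, fun e => by rw [m, swap_comm]⟩ g0.symm
    · rw [hf j z z' (S.kr_eq.2 ⟨kk, fun e => by rw [m, apply_swap_eq_self s]⟩),
        add_sub_add_left_eq_sub]
      exact hB l z z' w' w ⟨kk, q, p, fun e => by rw [m, swap_comm]⟩ g0.symm

end TriSys

end Vale.Agent.P335
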