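import Vale.Agent.P335.Three

namespace Vale.Agent.P335

open Finset Equiv

namespace TriSys

variable {X β C : Type*} [Fintype C] [DecidableEq C] (S : TriSys X β C)
variable [Fintype X] {f : Fin 3 → X → ℝ}

lemma memB {i j l : Fin 3} (h1 : i ≠ j) (h2 : i ≠ l) (h3 : j ≠ l) {x x' : X} {w w' : C}
    (hx : S.Ex i x x' w w') (g1 : S.γ x w = 1) (g2 : S.γ x w' = 2) {z : X}
    (hz : z ∈ fib (S.kr i) x) : S.k z = S.k x ∧ (∀ e, S.M z i e = S.M x i e) ∧
      S.M z i w = 1 ∧ S.M z i w' = 0 ∧ S.M z j w = 0 ∧ S.M z l w = 0 ∧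
      S.M z j w' = 1 ∧ S.M z l w' = 1 := by
  obtain ⟨e1, e2, e3, e4⟩ := hx
  obtain ⟨a, b⟩ := S.kr_eq.1 (mem_fib.1 hz)
  simp only [γ, ← S.hcol z x a, sum3 h1 h2 h3, b, e2, e3] at g1 g2
  refine ⟨a, b, by rw [b, e2], by rw [b, e3], ?_⟩
  rcases S.h01 z j w with p | p <;> rcases S.h01 z j w' with q | q <;>
    rcases S.h01 z l w with r | r <;> rcases S.h01 z l w' with s | s <;>
    first | (exfalso; linarith) | exact ⟨p, r, q, s⟩

lemma memA {i j l : Fin 3} (h1 : i ≠ j) (h2 : i ≠ l) (h3 : j ≠ l) {x x' : X} {w w' : C}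
    (hx : S.Ex i x x' w w') (g1 : S.γ x w = 1) (g2 : S.γ x w' = 2) {z : X}
    (hz : z ∈ fib (S.kr i) x') : S.k z = S.k x ∧ (∀ e, S.M z i e = S.M x i (swap w w' e)) ∧
      S.M z i w = 0 ∧ S.M z i w' = 1 ∧ S.M z j w + S.M z l w = 1 ∧
      S.M z j w' + S.M z l w' = 1 := by
  obtain ⟨e1, e2, e3, e4⟩ := hx
  obtain ⟨a, b⟩ := S.kr_eq.1 (mem_fib.1 hz)
  have a' := a.trans e1.symm
  simp only [γ, ← S.hcol z x a', sum3 h1 h2 h3, b, e2, e3, e4, swap_apply_left,
    swap_apply_right] at g1 g2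
  refine ⟨a', fun e => by rw [b, e4], by rw [b, e4, swap_apply_left, e3],
    by rw [b, e4, swap_apply_right, e2], by linarith, by linarith⟩

open Classical in
lemma classI (hf : ∀ r z z', S.kr r z = S.kr r z' → f r z = f r z') {B : ℝ}
    (hB : ∀ r z z' u u', S.Ex r z z' u u' → |f r z - f r z'| ≤ B)
    {i j l : Fin 3} (h1 : i ≠ j) (h2 : i ≠ l) (h3 : j ≠ l) {x x' : X} {w w' : C}
    (hx : S.Ex i x x' w w') (g1 : S.γ x w = 1) (g2 : S.γ x w' = 2) (m : ℝ)
    (hm : ∑ z ∈ fib (S.kr i) x, (f j z + f l z - m) = 0) :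
    |∑ z ∈ (fib (S.kr i) x').filter (fun z => S.M z j w = 0 ∧ S.M z j w' = 1),
      (f j z + f l z - m)| ≤
      B * ((fib (S.kr i) x').filter (fun z => S.M z j w = 0 ∧ S.M z j w' = 1)).card := by
  have H := matched ((fib (S.kr i) x').filter (fun z => S.M z j w = 0 ∧ S.M z j w' = 1))
    (fib (S.kr i) x) (fun z' z => (∀ e, S.M z j e = S.M z' j e) ∧
      ∀ e, S.M z l e = S.M z' l (swap w w' e)) (fun z => f j z + f l z - m) B ?_ ?_ ?_ ?_ ?_
  · simpa only [hm, sub_zero] using H.2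
  · intro z' hz'
    obtain ⟨hz', p, q⟩ := mem_filter.1 hz'
    obtain ⟨a1, a2, a3, a4, a5, a6⟩ := S.memA h1 h2 h3 hx g1 g2 hz'
    obtain ⟨z, k1, m1, m2, m3⟩ := S.hsw z' i l j w' w h2 h1 h3.symm a4 a3 (by linarith)
      (by linarith)
    refine ⟨z, mem_fib.2 (S.kr_eq.2 ⟨k1.trans a1, fun e => ?_⟩), m3, fun e => ?_⟩
    · rw [m1, a2, swap_comm, swap_apply_self]
    · rw [m2, swap_comm]
  · intro z hz
    obtain ⟨a1, a2, a3, a4, a5, a6, a7, a8⟩ := S.memB h1 h2 h3 hx g1 g2 hz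
    obtain ⟨z', k1, m1, m2, m3⟩ := S.hsw z i l j w w' h2 h1 h3.symm a3 a4 a6 a8
    refine ⟨z', mem_filter.2 ⟨mem_fib.2 (S.kr_eq.2 ⟨k1.trans (a1.trans hx.1), fun e => ?_⟩),
      by rw [m3, a5], by rw [m3, a7]⟩, fun e => (m3 e).symm, fun e => ?_⟩
    · rw [m1, a2, hx.2.2.2]
    · rw [m2, swap_apply_self]
  · intro z' _ b hb b' hb' r1 r2
    obtain ⟨a1, a2⟩ := S.kr_eq.1 (mem_fib.1 hb)
    obtain ⟨b1, b2⟩ := S.kr_eq.1 (mem_fib.1 hb')
    exact S.inj3 h1 h2 h3 (a1.trans b1.symm) (fun e => by rw [a2, b2])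
      (fun e => by rw [r1.1, r2.1]) (fun e => by rw [r1.2, r2.2])
  · intro a ha a' ha' b _ r1 r2
    obtain ⟨a1, a2⟩ := S.kr_eq.1 (mem_fib.1 (mem_filter.1 ha).1)
    obtain ⟨b1, b2⟩ := S.kr_eq.1 (mem_fib.1 (mem_filter.1 ha').1)
    refine S.inj3 h1 h2 h3 (a1.trans b1.symm) (fun e => by rw [a2, b2])
      (fun e => by rw [← r1.1, r2.1]) (fun e => ?_)
    simpa using (r1.2 (swap w w' e)).symm.trans (r2.2 (swap w w' e))
  · intro z' hz' z hz r
    obtain ⟨hz', p, q⟩ := mem_filter.1 hz'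
    obtain ⟨a1, a2, a3, a4, a5, a6⟩ := S.memA h1 h2 h3 hx g1 g2 hz'
    have kk : S.k z' = S.k z := a1.trans (S.kr_eq.1 (mem_fib.1 hz)).1.symm
    rw [hf j z' z (S.kr_eq.2 ⟨kk, fun e => (r.1 e).symm⟩), sub_sub_sub_cancel_right,
      add_sub_add_left_eq_sub]
    exact hB l z' z w w' ⟨kk, by linarith, by linarith, r.2⟩

open Classical in
lemma classII_u (hf0 : ∀ r z z' u u', S.Ex r z z' u u' → S.γ z u = S.γ z u' → f r z = f r z')
    {B : ℝ} (hB : ∀ r z z' u u', S.Ex r z z' u u' → |f r z - f r z'| ≤ B)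
    {i j l : Fin 3} (h1 : i ≠ j) (h2 : i ≠ l) (h3 : j ≠ l) {x x' : X} {w w' : C}
    (hx : S.Ex i x x' w w') (g1 : S.γ x w = 1) (g2 : S.γ x w' = 2) (m : ℝ) (u : C) :
    |∑ z ∈ ((fib (S.kr i) x').filter (fun z => S.M z j w = 1 ∧ S.M z j w' = 1)).filter
        (fun z => S.M z l u = 1 ∧ S.M z j u = 0), (f j z + f l z - m) -
      ∑ z ∈ (fib (S.kr i) x).filter (fun z => S.M z j u = 1 ∧ S.M z l u = 0),
        (f j z + f l z - m)| ≤
      B * (((fib (S.kr i) x').filter (fun z => S.M z j w = 1 ∧ S.M z j w' = 1)).filter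
        (fun z => S.M z l u = 1 ∧ S.M z j u = 0)).card := by
  have hww : w ≠ w' := by
    rintro rfl
    have := hx.2.1.symm.trans hx.2.2.1
    norm_num at this
  refine (matched _ _ (fun z' z => (∀ e, S.M z j e = S.M z' j (swap w u e)) ∧
      ∀ e, S.M z l e = S.M z' l (swap u w' e)) (fun z => f j z + f l z - m) B ?_ ?_ ?_ ?_ ?_).2
  · intro z' hz'
    obtain ⟨hz', s, t⟩ := mem_filter.1 hz'
    obtain ⟨hz', p, q⟩ := mem_filter.1 hz'
    obtain ⟨a1, a2, a3, a4, a5, a6⟩ := S.memA h1 h2 h3 hx g1 g2 hz'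
    have b1 : S.M z' l w = 0 := by linarith
    have b2 : S.M z' l w' = 0 := by linarith
    have u1 : u ≠ w := by rintro rfl; linarith
    have u2 : u ≠ w' := by rintro rfl; linarith
    obtain ⟨z1, k1, m1, m2, m3⟩ := S.hsw z' j l i w u h3 h1.symm h2.symm p t b1 s
    obtain ⟨z, k2, n1, n2, n3⟩ := S.hsw z1 i l j w' w h2 h1 h3.symm (by rw [m3, a4])
      (by rw [m3, a3]) (by rw [m2, swap_apply_of_ne_of_ne hww.symm u2.symm, b2])
      (by rw [m2, swap_apply_left, s])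
    refine ⟨z, mem_filter.2 ⟨mem_fib.2 (S.kr_eq.2 ⟨k2.trans (k1.trans a1), fun e => ?_⟩), ?_, ?_⟩,
      fun e => by rw [n3, m1], fun e => ?_⟩
    · rw [n1, m3, a2, swap_comm, swap_apply_self]
    · rw [n3, m1, swap_apply_right, p]
    · rw [n2, swap_apply_of_ne_of_ne u2 u1, m2, swap_apply_right, b1]
    · rw [n2, m2]
      by_cases c1 : e = w'
      · subst c1; rw [swap_apply_left, swap_apply_left, swap_apply_right]
      by_cases c2 : e = w
      · subst c2
        rw [swap_apply_right, swap_apply_of_ne_of_ne hww.symm u2.symm,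
          swap_apply_of_ne_of_ne u1.symm hww, b1, b2]
      by_cases c3 : e = u
      · subst c3
        rw [swap_apply_of_ne_of_ne c1 c2, swap_apply_right, swap_apply_left, b1, b2]
      rw [swap_apply_of_ne_of_ne c1 c2, swap_apply_of_ne_of_ne c2 c3,
        swap_apply_of_ne_of_ne c3 c1]
  · intro z hz
    obtain ⟨hz, s, t⟩ := mem_filter.1 hz
    obtain ⟨a1, a2, a3, a4, a5, a6, a7, a8⟩ := S.memB h1 h2 h3 hx g1 g2 hz
    have u1 : u ≠ w := by rintro rfl; linarith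
    have u2 : u ≠ w' := by rintro rfl; linarith
    obtain ⟨z1, k1, m1, m2, m3⟩ := S.hsw z i l j w w' h2 h1 h3.symm a3 a4 a6 a8
    obtain ⟨z', k2, n1, n2, n3⟩ := S.hsw z1 j l i u w h3 h1.symm h2.symm (by rw [m3, s])
      (by rw [m3, a5]) (by rw [m2, swap_apply_of_ne_of_ne u1 u2, t])
      (by rw [m2, swap_apply_left, a8])
    refine ⟨z', mem_filter.2 ⟨mem_filter.2 ⟨mem_fib.2 (S.kr_eq.2
      ⟨k2.trans (k1.trans (a1.trans hx.1)), fun e => ?_⟩), ?_, ?_⟩, ?_, ?_⟩, fun e => ?_,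
      fun e => ?_⟩
    · rw [n3, m1, a2, hx.2.2.2]
    · rw [n1, swap_apply_right, m3, s]
    · rw [n1, swap_apply_of_ne_of_ne u2.symm hww.symm, m3, a7]
    · rw [n2, swap_apply_left, m2, swap_apply_left, a8]
    · rw [n1, swap_apply_left, m3, a5]
    · rw [n1, m3, swap_comm, swap_apply_self]
    · rw [n2, m2]
      by_cases c1 : e = w'
      · subst c1; rw [swap_apply_right, swap_apply_left, swap_apply_left]
      by_cases c2 : e = w
      · subst c2
        rw [swap_apply_of_ne_of_ne u1.symm hww, swap_apply_right,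
          swap_apply_of_ne_of_ne u1 u2, a6, t]
      by_cases c3 : e = u
      · subst c3
        rw [swap_apply_left, swap_apply_of_ne_of_ne u2.symm hww.symm, swap_apply_right, a6, t]
      rw [swap_apply_of_ne_of_ne c3 c1, swap_apply_of_ne_of_ne c3 c2,
        swap_apply_of_ne_of_ne c2 c1]
  · intro z' _ b hb b' hb' r1 r2
    obtain ⟨a1, a2⟩ := S.kr_eq.1 (mem_fib.1 (mem_filter.1 hb).1)
    obtain ⟨b1, b2⟩ := S.kr_eq.1 (mem_fib.1 (mem_filter.1 hb').1)
    exact S.inj3 h1 h2 h3 (a1.trans b1.symm) (fun e => by rw [a2, b2])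
      (fun e => by rw [r1.1, r2.1]) (fun e => by rw [r1.2, r2.2])
  · intro a ha a' ha' b _ r1 r2
    obtain ⟨a1, a2⟩ := S.kr_eq.1 (mem_fib.1 (mem_filter.1 (mem_filter.1 ha).1).1)
    obtain ⟨b1, b2⟩ := S.kr_eq.1 (mem_fib.1 (mem_filter.1 (mem_filter.1 ha').1).1)
    refine S.inj3 h1 h2 h3 (a1.trans b1.symm) (fun e => by rw [a2, b2]) (fun e => ?_) (fun e => ?_)
    · simpa using (r1.1 (swap w u e)).symm.trans (r2.1 (swap w u e))
    · simpa using (r1.2 (swap u w' e)).symm.trans (r2.2 (swap u w' e))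
  · intro z' hz' z hz r
    obtain ⟨hz', s, t⟩ := mem_filter.1 hz'
    obtain ⟨hz', p, q⟩ := mem_filter.1 hz'
    obtain ⟨a1, a2, a3, a4, a5, a6⟩ := S.memA h1 h2 h3 hx g1 g2 hz'
    have kk : S.k z' = S.k z := a1.trans (S.kr_eq.1 (mem_fib.1 (mem_filter.1 hz).1)).1.symm
    have E1 : S.Ex j z' z w u := ⟨kk, p, t, r.1⟩
    have E2 : S.Ex l z' z u w' := ⟨kk, s, by linarith, r.2⟩
    have c1 : S.γ z' w = 1 := by rw [← g1]; exact S.hcol _ _ a1 w
    have c2 : S.γ z' w' = 2 := by rw [← g2]; exact S.hcol _ _ a1 w'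
    have c3 : S.γ z' u = S.M z' i u + 1 := by simp only [γ, sum3 h1 h2 h3, s, t, add_zero]
    rw [sub_sub_sub_cancel_right]
    rcases S.h01 z' i u with c | c
    · rw [hf0 j z' z w u E1 (by rw [c1, c3, c, zero_add]), add_sub_add_left_eq_sub]
      exact hB l z' z u w' E2
    · rw [hf0 l z' z u w' E2 (by rw [c2, c3, c]; norm_num), add_sub_add_right_eq_sub]
      exact hB j z' z w u E1

open Classical in
lemma classII (hf0 : ∀ r z z' u u', S.Ex r z z' u u' → S.γ z u = S.γ z u' → f r z = f r z')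
    {B : ℝ} (hB : ∀ r z z' u u', S.Ex r z z' u u' → |f r z - f r z'| ≤ B)
    {i j l : Fin 3} (h1 : i ≠ j) (h2 : i ≠ l) (h3 : j ≠ l) {x x' : X} {w w' : C}
    (hx : S.Ex i x x' w w') (g1 : S.γ x w = 1) (g2 : S.γ x w' = 2) (m : ℝ)
    (hm : ∑ z ∈ fib (S.kr i) x, (f j z + f l z - m) = 0) :
    |∑ z ∈ (fib (S.kr i) x').filter (fun z => S.M z j w = 1 ∧ S.M z j w' = 1),
      (f j z + f l z - m)| ≤
      B * ((fib (S.kr i) x').filter (fun z => S.M z j w = 1 ∧ S.M z j w' = 1)).card := by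
  have gen : ∀ (A : Finset X) (a b : Fin 3) (G : X → ℝ) (p : ℝ), (∀ z ∈ A, S.cnt a b z = p) →
      ∑ u, ∑ z ∈ A.filter (fun z => S.M z a u = 1 ∧ S.M z b u = 0), G z = p * ∑ z ∈ A, G z := by
    intro A a b G p hp
    simp only [sum_filter]
    rw [sum_comm, mul_sum]
    refine sum_congr rfl fun z hz => ?_
    rw [← hp z hz, cnt, sum_mul]
    exact sum_congr rfl fun u _ => by split_ifs <;> simp
  set A := (fib (S.kr i) x').filter (fun z => S.M z j w = 1 ∧ S.M z j w' = 1) with hA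
  have hp1 : ∀ z ∈ A, S.cnt l j z = S.cnt l j x' := fun z hz =>
    S.cnt_congr h2 h1 h3.symm (mem_fib.1 (mem_filter.1 hz).1)
  have hp2 : ∀ z ∈ fib (S.kr i) x, S.cnt j l z = S.cnt j l x := fun z hz =>
    S.cnt_congr h1 h2 h3 (mem_fib.1 hz)
  have hpos : 0 < S.cnt l j x' := by
    obtain ⟨a1, a2, a3, a4, a5, a6, a7, a8⟩ := S.memB h1 h2 h3 hx g1 g2 (self_mem_fib _ x)
    obtain ⟨z', k1, m1, m2, m3⟩ := S.hsw x i l j w w' h2 h1 h3.symm a3 a4 a6 a8
    rw [← S.cnt_congr h2 h1 h3.symm (z := z') (S.kr_eq.2 ⟨k1.trans hx.1, fun e => by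
      rw [m1, hx.2.2.2]⟩)]
    refine sum_pos' (fun u _ => by split_ifs <;> norm_num) ⟨w, mem_univ _, ?_⟩
    rw [if_pos ⟨by rw [m2, swap_apply_left, a8], by rw [m3, a5]⟩]
    norm_num
  have e1 := gen A l j (fun z => f j z + f l z - m) _ hp1
  have e2 := gen _ j l (fun z => f j z + f l z - m) _ hp2
  have e3 := gen A l j (fun _ => 1) _ hp1
  simp only [sum_const, nsmul_eq_mul, mul_one] at e3
  rw [hm, mul_zero] at e2
  have e4 := sum_le_sum (s := univ) fun u _ => S.classII_u hf0 hB h1 h2 h3 hx g1 g2 m u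
  have e5 := (abs_sum_le_sum_abs _ _).trans e4
  rw [sum_sub_distrib, ← mul_sum, ← hA, e1, e2, e3, sub_zero, abs_mul, abs_of_pos hpos] at e5
  refine le_of_mul_le_mul_left ?_ hpos
  linarith

lemma step_cross (hf : ∀ r z z', S.kr r z = S.kr r z' → f r z = f r z')
    (hf0 : ∀ r z z' u u', S.Ex r z z' u u' → S.γ z u = S.γ z u' → f r z = f r z')
    {B : ℝ} (hB : ∀ r z z' u u', S.Ex r z z' u u' → |f r z - f r z'| ≤ B)
    {i j l : Fin 3} (h1 : i ≠ j) (h2 : i ≠ l) (h3 : j ≠ l) {x x' : X} {w w' : C}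
    (hx : S.Ex i x x' w w') (g1 : S.γ x w = 1) (g2 : S.γ x w' = 2) :
    |ce (S.kr i) (f j + f l) x - ce (S.kr i) (f j + f l) x'| ≤ B := by
  classical
  set m := ce (S.kr i) (f j + f l) x with hm
  have hm0 : ∑ z ∈ fib (S.kr i) x, (f j z + f l z - m) = 0 := by
    have := card_fib_pos (S.kr i) x
    rw [sum_sub_distrib, sum_const, nsmul_eq_mul, hm, ce_apply]
    simp only [Pi.add_apply]
    field_simp
    ring
  have hm1 : ∑ z ∈ fib (S.kr i) x, (f l z + f j z - m) = 0 := by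
    simpa only [add_comm (f l _)] using hm0
  have t1 := S.classI hf hB h1 h2 h3 hx g1 g2 m hm0
  have t2 := S.classI hf hB h2 h1 h3.symm hx g1 g2 m hm1
  have t3 := S.classII hf0 hB h1 h2 h3 hx g1 g2 m hm0
  have t4 := S.classII hf0 hB h2 h1 h3.symm hx g1 g2 m hm1
  simp only [add_comm (f l _)] at t2 t4
  have split : ∀ G : X → ℝ, ∑ z ∈ fib (S.kr i) x', G z =
      ∑ z ∈ (fib (S.kr i) x').filter (fun z => S.M z j w = 0 ∧ S.M z j w' = 1), G z +
      ∑ z ∈ (fib (S.kr i) x').filter (fun z => S.M z l w = 0 ∧ S.M z l w' = 1), G z +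
      ∑ z ∈ (fib (S.kr i) x').filter (fun z => S.M z j w = 1 ∧ S.M z j w' = 1), G z +
      ∑ z ∈ (fib (S.kr i) x').filter (fun z => S.M z l w = 1 ∧ S.M z l w' = 1), G z := by
    intro G
    simp only [sum_filter, ← sum_add_distrib]
    refine sum_congr rfl fun z hz => ?_
    obtain ⟨-, -, -, -, a5, a6⟩ := S.memA h1 h2 h3 hx g1 g2 hz
    rcases S.h01 z j w with p | p <;> rcases S.h01 z j w' with q | q <;>
      rcases S.h01 z l w with r | r <;> rcases S.h01 z l w' with s | s <;>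
      first | (exfalso; linarith) | simp [p, q, r, s]
  have s1 := split (fun z => f j z + f l z - m)
  have s2 := split (fun _ => 1)
  simp only [sum_const, nsmul_eq_mul, mul_one] at s2
  have hp := card_fib_pos (S.kr i) x'
  have s3 : m - ce (S.kr i) (f j + f l) x' =
      -(∑ z ∈ fib (S.kr i) x', (f j z + f l z - m)) / (fib (S.kr i) x').card := by
    rw [sum_sub_distrib, sum_const, nsmul_eq_mul, ce_apply]
    simp only [Pi.add_apply]
    field_simp
    ring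
  rw [s3, abs_div, abs_neg, abs_of_pos hp, div_le_iff₀ hp, s1, s2]
  rw [abs_le] at t1 t2 t3 t4 ⊢
  constructor <;> nlinarith [t1.1, t1.2, t2.1, t2.2, t3.1, t3.2, t4.1, t4.2]

/-- the three-row lemma -/
theorem three_ev (μ : ℝ) (F : X → ℝ) (hF : F ≠ 0) (h : ∑ i, ce (S.kr i) F = μ • F) :
    μ ≤ 2 ∨ μ = 3 := by
  by_cases hμ : μ ≤ 2
  · exact Or.inl hμ
  right
  push Not at hμ
  let f : Fin 3 → X → ℝ := fun i => ce (S.kr i) F
  have hf : ∀ r z z', S.kr r z = S.kr r z' → f r z = f r z' := fun r z z' h => ce_congr F h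
  have hs : ∀ {i j l : Fin 3}, i ≠ j → i ≠ l → j ≠ l → f i + (f j + f l) = μ • F := by
    intro i j l h1 h2 h3
    rw [← h]; funext z
    simp only [Finset.sum_apply, sum3 h1 h2 h3, Pi.add_apply, f, add_assoc]
  have heq : ∀ {i j l : Fin 3}, i ≠ j → i ≠ l → j ≠ l → ∀ x x',
      (μ - 1) * |f i x - f i x'| = |ce (S.kr i) (f j + f l) x - ce (S.kr i) (f j + f l) x'| := by
    intro i j l h1 h2 h3 x x'
    have a := congrArg (ce (S.kr i)) (hs h1 h2 h3)
    rw [map_add, map_smul, ce_idem] at a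
    have a1 := congrFun a x
    have a2 := congrFun a x'
    simp only [Pi.add_apply, Pi.smul_apply, smul_eq_mul] at a1 a2
    rw [← abs_of_pos (by linarith : 0 < μ - 1), ← abs_mul]
    congr 1
    simp only [f] at a1 a2 ⊢
    linarith
  have hf0 : ∀ r z z' u u', S.Ex r z z' u u' → S.γ z u = S.γ z u' → f r z = f r z' := by
    intro r z z' u u' a b
    have := contract (I := Fin 3 × X × X × C × C)
      (fun q => S.Ex q.1 q.2.1 q.2.2.1 q.2.2.2.1 q.2.2.2.2 ∧
        S.γ q.2.1 q.2.2.2.1 = S.γ q.2.1 q.2.2.2.2)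
      (fun q => f q.1 q.2.1 - f q.1 q.2.2.1) (μ - 1) (by linarith) ?_ (r, z, z', u, u') ⟨a, b⟩
    · exact sub_eq_zero.1 this
    rintro B - hB ⟨i, x, x', w, w'⟩ ⟨hx, hγ⟩
    obtain ⟨j, l, h1, h2, h3⟩ := exists3 i
    rw [heq h1 h2 h3]
    exact S.step_same hf (fun r z z' u u' a b => hB (r, z, z', u, u') ⟨a, b⟩) h1 h2 h3 hx hγ
  have hf1 : ∀ r z z' u u', S.Ex r z z' u u' → f r z = f r z' := by
    intro r z z' u u' a
    have := contract (I := Fin 3 × X × X × C × C)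
      (fun q => S.Ex q.1 q.2.1 q.2.2.1 q.2.2.2.1 q.2.2.2.2)
      (fun q => f q.1 q.2.1 - f q.1 q.2.2.1) (μ - 1) (by linarith) ?_ (r, z, z', u, u') a
    · exact sub_eq_zero.1 this
    rintro B hB0 hB ⟨i, x, x', w, w'⟩ hx
    obtain ⟨j, l, h1, h2, h3⟩ := exists3 i
    have hB' : ∀ r z z' u u', S.Ex r z z' u u' → |f r z - f r z'| ≤ B :=
      fun r z z' u u' a => hB (r, z, z', u, u') a
    simp only at hx ⊢
    by_cases hγ : S.γ x w = S.γ x w'
    · rw [hf0 i x x' w w' hx hγ]; simpa using hB0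
    have hx' := S.Ex_symm hx
    have c1 : S.γ x w = S.γ x' w := S.hcol _ _ hx.1 w
    have c2 : S.γ x w' = S.γ x' w' := S.hcol _ _ hx.1 w'
    have c3 : (S.γ x w = 1 ∧ S.γ x w' = 2) ∨ (S.γ x' w' = 1 ∧ S.γ x' w = 2) := by
      have d1 := c1
      have d2 := c2
      simp only [γ, sum3 h1 h2 h3, hx.2.1, hx.2.2.1, hx'.2.1, hx'.2.2.1] at d1 d2 hγ ⊢
      rcases S.h01 x j w with p | p <;> rcases S.h01 x j w' with q | q <;>
      rcases S.h01 x l w with r | r <;> rcases S.h01 x l w' with s | s <;>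
      rcases S.h01 x' j w with p' | p' <;> rcases S.h01 x' j w' with q' | q' <;>
      rcases S.h01 x' l w with r' | r' <;> rcases S.h01 x' l w' with s' | s' <;>
      first | (exfalso; linarith) | (exfalso; apply hγ; linarith) |
        (left; constructor <;> linarith) | (right; constructor <;> linarith)
    rcases c3 with ⟨g1, g2⟩ | ⟨g1, g2⟩
    · rw [heq h1 h2 h3]
      exact S.step_cross hf hf0 hB' h1 h2 h3 hx g1 g2
    · rw [abs_sub_comm, heq h1 h2 h3]
      exact S.step_cross hf hf0 hB' h1 h2 h3 hx' g1 g2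
  have hFi : ∀ i, ce (S.kr i) F = F := by
    intro i
    obtain ⟨j, l, h1, h2, h3⟩ := exists3 i
    have hc : ∀ x x', S.kr i x = S.kr i x' → ∀ c,
        S.M x j c + S.M x l c = S.M x' j c + S.M x' l c := by
      intro x x' hx c
      obtain ⟨a, b⟩ := S.kr_eq.1 hx
      have := S.hcol x x' a c
      rw [sum3 h1 h2 h3, sum3 h1 h2 h3, b] at this
      linarith
    refine ce_of_meas (conn (y := fun x c => S.M x j c - S.M x l c) ?_ ?_ ?_ ?_ ?_)
    · intro x c
      rcases S.h01 x j c with p | p <;> rcases S.h01 x l c with q | q <;> simp [p, q]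
    · intro x x' hx c
      have := hc x x' hx c
      rcases S.h01 x j c with p | p <;> rcases S.h01 x l c with q | q <;>
      rcases S.h01 x' j c with p' | p' <;> rcases S.h01 x' l c with q' | q' <;>
      first | (exfalso; linarith) | simp [p, q, p', q']
    · intro x x' hx
      obtain ⟨a, b⟩ := S.kr_eq.1 hx
      simp only [sum_sub_distrib, S.hrow x x' a]
    · intro x x' hx hy
      obtain ⟨a, b⟩ := S.kr_eq.1 hx
      refine S.inj3 h1 h2 h3 a b (fun e => ?_) (fun e => ?_)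
      · have := congrFun hy e
        have := hc x x' hx e
        linarith
      · have := congrFun hy e
        have := hc x x' hx e
        linarith
    · intro x c d hc hd
      have a1 : S.M x j c = 1 ∧ S.M x l c = 0 := by
        rcases S.h01 x j c with p | p <;> rcases S.h01 x l c with q | q <;>
          first | (exfalso; linarith) | exact ⟨p, q⟩
      have a2 : S.M x j d = 0 ∧ S.M x l d = 1 := by
        rcases S.h01 x j d with p | p <;> rcases S.h01 x l d with q | q <;>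
          first | (exfalso; linarith) | exact ⟨p, q⟩
      obtain ⟨x', k1, m1, m2, m3⟩ := S.hsw x j l i c d h3 h1.symm h2.symm a1.1 a2.1 a1.2 a2.2
      have kk := S.kr_eq.2 ⟨k1, m3⟩
      refine ⟨x', kk, fun e => by rw [m1, m2], ?_⟩
      have b1 := congrFun (hs h1 h2 h3) x
      have b2 := congrFun (hs h1 h2 h3) x'
      simp only [Pi.add_apply, Pi.smul_apply, smul_eq_mul] at b1 b2
      rw [hf i x' x kk, ← hf1 j x x' c d ⟨k1.symm, a1.1, a2.1, m1⟩,
        ← hf1 l x x' d c ⟨k1.symm, a2.2, a1.2, fun e => by rw [m2, swap_comm]⟩, b1] at b2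
      exact (mul_left_cancel₀ (by linarith) b2).symm
  simp only [hFi, sum_const, card_univ, Fintype.card_fin] at h
  obtain ⟨x, hx⟩ := Function.ne_iff.1 hF
  have := congrFun h x
  simp only [Pi.smul_apply, nsmul_eq_mul, smul_eq_mul] at this
  exact (mul_right_cancel₀ hx this).symm.trans (by norm_num)

end TriSys

end Vale.Agent.P335
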